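import Vale.Agent.P088.R2.H464.EP.Ops

/-!
# Zone C: the energy identity (A1) and the margin (A2)

`a i, b i` vectors, `W` a smooth weight, `w_i = a_i W`, `v_i = b_i W`, `D_i = a_i + w_i`,
`D_i^* = -a_i + w_i`, `K_i = b_i + v_i`, `K_i^* = -b_i + v_i`.
-/

open MeasureTheory Finset

set_option linter.unusedSectionVars false

noncomputable section

namespace Vale.Agent.P088.R2.H321.C

open Vale.Agent.P088.R2.H464.EP

variable {E : Type} [NormedAddCommGroup E] [NormedSpace ℝ E]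

/-- `∂_v + ∂_v W`. -/
def Dp (W : Sm E) (v : E) : Op E := dv v + ml (ds v W)

/-- `-∂_v + ∂_v W`. -/
def Dm (W : Sm E) (v : E) : Op E := -dv v + ml (ds v W)

theorem Dp_apply (W : Sm E) (v : E) (f : TE E) : Dp W v f = dv v f + ml (ds v W) f := rfl

theorem Dm_apply (W : Sm E) (v : E) (f : TE E) : Dm W v f = -dv v f + ml (ds v W) f := rfl

theorem dv_ml_apply (v : E) (g : Sm E) (f : TE E) :
    dv v (ml g f) = ml g (dv v f) + ml (ds v g) f := by
  have := congrArg (fun A : Op E => A f) (dv_ml v g)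
  simpa only [Module.End.mul_apply, LinearMap.add_apply] using this

theorem ml_ml (g h : Sm E) (f : TE E) : ml g (ml h f) = ml (g * h) f := by
  rw [map_mul]; rfl

variable [FiniteDimensional ℝ E] [MeasurableSpace E] [BorelSpace E] (μ : Measure E)
  [μ.IsAddHaarMeasure]

theorem adj_Dm (W : Sm E) (v : E) (f g : TE E) :
    ip μ (Dm W v f) g = ip μ f (Dp W v g) := by
  rw [Dm_apply, Dp_apply, map_add, LinearMap.add_apply, map_neg, LinearMap.neg_apply, ip_dv,
    ip_ml, map_add]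
  ring

theorem adj_Dp (W : Sm E) (v : E) (f g : TE E) :
    ip μ (Dp W v f) g = ip μ f (Dm W v g) := by
  rw [ip_comm, ← adj_Dm, ip_comm]

/-- `∫ h f ∂f = -(1/2) ∫ ∂h f²`. -/
theorem ip_h (v : E) (h : Sm E) (f : TE E) :
    ip μ (ml h f) (dv v f) = -(1 / 2) * ip μ (ml (ds v h) f) f := by
  have h1 : ip μ (ml h f) (dv v f) = -ip μ (dv v (ml h f)) f := by rw [ip_dv, neg_neg]
  rw [dv_ml_apply, map_add, LinearMap.add_apply, ip_ml μ h (dv v f) f,
    ip_comm μ (dv v f)] at h1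
  linarith

/-- Three basic products. -/
theorem ip_gg (v : E) (g h : Sm E) (f : TE E) :
    ip μ (ml g (dv v f)) (ml h f) = -(1 / 2) * ip μ (ml (ds v (g * h)) f) f := by
  rw [ip_comm, ← ip_h, ip_ml, ip_ml]
  congr 1
  rw [ml_ml, mul_comm]

theorem ip_fg (g h : Sm E) (f : TE E) :
    ip μ (ml g f) (ml h f) = ip μ (ml (g * h) f) f := by
  rw [ip_comm, ip_ml, ip_comm, ml_ml, ip_comm]
  rw [mul_comm h g]
  exact ip_comm μ _ _

/-- The square of `D^*` in one direction. -/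
theorem sq_Dm (W : Sm E) (v : E) (g : Sm E) (f : TE E) :
    ip μ (ml g (Dm W v f)) (Dm W v f) = ip μ (ml g (dv v f)) (dv v f) +
      ip μ (ml (ds v (g * ds v W) + g * (ds v W * ds v W)) f) f := by
  rw [Dm_apply]
  simp only [map_add, map_neg, LinearMap.add_apply, LinearMap.neg_apply, ml_ml]
  rw [ip_gg, ip_h, ip_fg]
  rw [show g * ds v W * ds v W = g * (ds v W * ds v W) from mul_assoc _ _ _]
  ring

/-- The square of the derivative in one direction. -/
theorem sq_dv (W : Sm E) (v : E) (g : Sm E) (f : TE E) :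
    ip μ (ml g (dv v f)) (dv v f) =
      ip μ (ml (g * (ds v W * ds v W) + (1 / 2 : ℝ) • ds v (ds v g) - ds v g * ds v W) f) f -
        ip μ (ml g f) (Dp W v (Dp W v f)) := by
  have h1 : ip μ (ml g f) (Dp W v (Dp W v f)) = ip μ (Dm W v (ml g f)) (Dp W v f) := by
    rw [adj_Dm]
  rw [h1, Dm_apply, Dp_apply, dv_ml_apply]
  simp only [map_add, map_neg, map_sub, map_smul, LinearMap.add_apply, LinearMap.neg_apply,
    LinearMap.sub_apply, LinearMap.smul_apply, ml_ml, smul_eq_mul]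
  rw [ip_gg, ip_h, ip_h, ip_fg, ip_fg]
  rw [show ds v W * g * ds v W = g * (ds v W * ds v W) by ring,
    show ds v W * g = g * ds v W from mul_comm _ _]
  ring

/-- **(A1)** in one direction. -/
theorem one (W : Sm E) (v : E) (g : Sm E) (f : TE E) :
    ip μ (ml g (Dm W v f)) (Dm W v f) =
      ip μ (ml ((2 : ℝ) • (g * (ds v W * ds v W)) + g * ds v (ds v W) +
        (1 / 2 : ℝ) • ds v (ds v g)) f) f - ip μ (ml g f) (Dp W v (Dp W v f)) := by
  rw [sq_Dm, sq_dv μ W, ds_mul]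
  simp only [map_add, map_sub, map_smul, LinearMap.add_apply, LinearMap.sub_apply,
    LinearMap.smul_apply, smul_eq_mul]
  ring

/-- Positivity with a weight. -/
theorem ml_nonneg {g : Sm E} (hg : ∀ z, 0 ≤ (g : E → ℝ) z) (f : TE E) :
    0 ≤ ip μ (ml g f) f := ip_ml_nonneg μ hg f

/-- The margin in one direction. -/
theorem marg_one (W : Sm E) (v : E) {g : Sm E} (hg : ∀ z, 0 ≤ (g : E → ℝ) z) (ν : Sm E)
    (f : TE E) :
    ip μ (ml (ds v (g * ν) + (2 : ℝ) • (g * ν * ds v W) - g * ν * ν) f) f ≤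
      ip μ (ml g (Dm W v f)) (Dm W v f) := by
  have h := ip_ml_nonneg μ hg (Dm W v f - ml ν f)
  have e1 : ip μ (ml g (Dm W v f)) (ml ν f) =
      1 / 2 * ip μ (ml (ds v (g * ν)) f) f + ip μ (ml (g * ν * ds v W) f) f := by
    rw [Dm_apply]
    simp only [map_add, map_neg, LinearMap.add_apply, LinearMap.neg_apply, ml_ml]
    rw [ip_gg, ip_fg]
    rw [show g * ds v W * ν = g * ν * ds v W by ring]
    ring
  have e2 : ip μ (ml g (ml ν f)) (Dm W v f) = ip μ (ml g (Dm W v f)) (ml ν f) := by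
    rw [ip_ml, ip_comm]
  have e3 : ip μ (ml g (ml ν f)) (ml ν f) = ip μ (ml (g * ν * ν) f) f := by
    rw [ml_ml, ip_fg]
  simp only [map_sub, LinearMap.sub_apply, map_add, LinearMap.add_apply, map_smul,
    LinearMap.smul_apply, smul_eq_mul] at h ⊢
  rw [e2, e3, e1] at h
  linarith

variable {ι : Type} [Fintype ι] (a b : ι → E) (W : Sm E)

/-- `S = Σ D_i² + (1/4) Σ K_i²`. -/
def Sop : Op E := ∑ i, (Dp W (a i) * Dp W (a i) + (1 / 4 : ℝ) • (Dp W (b i) * Dp W (b i)))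

/-- `|dW|² = Σ w_i² + (1/4) Σ v_i²`. -/
def gw : Sm E := ∑ i, (ds (a i) W * ds (a i) W + (1 / 4 : ℝ) • (ds (b i) W * ds (b i) W))

/-- `L g = Σ a_i a_i g + (1/4) Σ b_i b_i g`. -/
def Lp (g : Sm E) : Sm E := ∑ i, (ds (a i) (ds (a i) g) + (1 / 4 : ℝ) • ds (b i) (ds (b i) g))

/-- `Γ(g, W) = Σ a_i g a_i W + (1/4) Σ b_i g b_i W`. -/
def Gm (g : Sm E) : Sm E :=
  ∑ i, (ds (a i) g * ds (a i) W + (1 / 4 : ℝ) • (ds (b i) g * ds (b i) W))

theorem Sop_apply (f : TE E) : Sop a b W f =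
    ∑ i, (Dp W (a i) (Dp W (a i) f) + (1 / 4 : ℝ) • Dp W (b i) (Dp W (b i) f)) := by
  simp only [Sop, LinearMap.sum_apply, LinearMap.add_apply, LinearMap.smul_apply,
    Module.End.mul_apply]

/-- **(A1)**, exact. -/
theorem A1 (g : Sm E) (f : TE E) :
    ∑ i, (ip μ (ml g (Dm W (a i) f)) (Dm W (a i) f) +
        1 / 4 * ip μ (ml g (Dm W (b i) f)) (Dm W (b i) f)) =
      ip μ (ml ((2 : ℝ) • (g * gw a b W) + g * Lp a b W + (1 / 2 : ℝ) • Lp a b g) f) f -
        ip μ (ml g f) (Sop a b W f) := by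
  simp only [one]
  rw [Sop_apply]
  simp only [gw, Lp, mul_sum, smul_sum, map_add, map_sum, LinearMap.add_apply,
    LinearMap.sum_apply, map_smul, LinearMap.smul_apply, smul_eq_mul, ← sum_add_distrib,
    ← sum_sub_distrib]
  refine sum_congr rfl fun i _ => ?_
  simp only [mul_add, mul_smul_comm, map_add, LinearMap.add_apply, map_smul,
    LinearMap.smul_apply, smul_eq_mul]
  ring

/-- **(A1)** for the plain derivatives, exact. -/
theorem A1d (g : Sm E) (f : TE E) :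
    ∑ i, (ip μ (ml g (dv (a i) f)) (dv (a i) f) +
        1 / 4 * ip μ (ml g (dv (b i) f)) (dv (b i) f)) =
      ip μ (ml (g * gw a b W + (1 / 2 : ℝ) • Lp a b g - Gm a b W g) f) f -
        ip μ (ml g f) (Sop a b W f) := by
  simp only [sq_dv μ W]
  rw [Sop_apply]
  simp only [gw, Lp, Gm, mul_sum, smul_sum, map_add, map_sub, map_sum, LinearMap.add_apply,
    LinearMap.sub_apply, LinearMap.sum_apply, map_smul, LinearMap.smul_apply, smul_eq_mul,
    ← sum_add_distrib, ← sum_sub_distrib]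
  refine sum_congr rfl fun i _ => ?_
  simp only [mul_add, mul_smul_comm, map_add, LinearMap.add_apply, map_smul,
    LinearMap.smul_apply, smul_eq_mul]
  ring

/-- `2 |x y| ≤ κ x² + y²/κ` for the product. -/
theorem ip_young {κ : ℝ} (hκ : 0 < κ) (f h : TE E) :
    -ip μ f h ≤ κ * ip μ h h + 1 / (4 * κ) * ip μ f f := by
  have h1 := ip_self_nonneg μ (f + (2 * κ) • h)
  simp only [map_add, LinearMap.add_apply, map_smul, LinearMap.smul_apply, smul_eq_mul] at h1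
  rw [ip_comm μ h f] at h1
  have h2 : 0 ≤ 1 / (4 * κ) * (ip μ f f + 2 * κ * ip μ f h +
      (2 * κ * ip μ f h + 2 * κ * (2 * κ * ip μ h h))) :=
    mul_nonneg (by positivity) (by linarith)
  have e : 1 / (4 * κ) * (ip μ f f + 2 * κ * ip μ f h +
      (2 * κ * ip μ f h + 2 * κ * (2 * κ * ip μ h h))) =
      1 / (4 * κ) * ip μ f f + ip μ f h + κ * ip μ h h := by
    field_simp
    ring
  linarith

/-- The energy bound for the starred derivatives. -/
theorem A1_le {g : Sm E} {κ : ℝ} (hκ : 0 < κ) (f : TE E) :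
    ∑ i, (ip μ (ml g (Dm W (a i) f)) (Dm W (a i) f) +
        1 / 4 * ip μ (ml g (Dm W (b i) f)) (Dm W (b i) f)) ≤
      ip μ (ml ((2 : ℝ) • (g * gw a b W) + g * Lp a b W + (1 / 2 : ℝ) • Lp a b g +
        (1 / (4 * κ)) • (g * g)) f) f + κ * ip μ (Sop a b W f) (Sop a b W f) := by
  rw [A1]
  have h := ip_young μ hκ (ml g f) (Sop a b W f)
  rw [ip_fg] at h
  generalize (2 : ℝ) • (g * gw a b W) + g * Lp a b W + (1 / 2 : ℝ) • Lp a b g = A
  have e : ip μ (ml (A + (1 / (4 * κ)) • (g * g)) f) f =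
      ip μ (ml A f) f + 1 / (4 * κ) * ip μ (ml (g * g) f) f := by
    simp only [map_add, LinearMap.add_apply, map_smul, LinearMap.smul_apply, smul_eq_mul]
  rw [e]
  linarith

/-- `Y_i = 2 D_i^* f + K_i^* c`. -/
def Y (f c : TE E) (i : ι) : TE E := (2 : ℝ) • Dm W (a i) f + Dm W (b i) c

/-- One square of `K^* c` by `Y` and `D^* f`. -/
theorem K_le {g : Sm E} (hg : ∀ z, 0 ≤ (g : E → ℝ) z) {d : ℝ} (hd : 0 < d) (u y : TE E) :
    ip μ (ml g (y - (2 : ℝ) • u)) (y - (2 : ℝ) • u) ≤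
      (1 + d) * ip μ (ml g y) y + 4 * (1 + 1 / d) * ip μ (ml g u) u := by
  have h := ip_ml_nonneg μ hg (d • y + (2 : ℝ) • u)
  have e : ip μ (ml g u) y = ip μ (ml g y) u := by rw [ip_ml, ip_comm]
  simp only [map_add, map_sub, LinearMap.add_apply, LinearMap.sub_apply, map_smul,
    LinearMap.smul_apply, smul_eq_mul] at h ⊢
  rw [e] at h ⊢
  have h2 : 0 ≤ 1 / d * (d * (d * ip μ (ml g y) y) + 2 * (d * ip μ (ml g y) u) +
      (d * (2 * ip μ (ml g y) u) + 2 * (2 * ip μ (ml g u) u))) := by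
    refine mul_nonneg (by positivity) ?_
    linarith
  have e2 : 1 / d * (d * (d * ip μ (ml g y) y) + 2 * (d * ip μ (ml g y) u) +
      (d * (2 * ip μ (ml g y) u) + 2 * (2 * ip μ (ml g u) u))) =
      d * ip μ (ml g y) y + 4 * ip μ (ml g y) u + 4 * (1 / d) * ip μ (ml g u) u := by
    field_simp
    ring
  linarith

/-- `Σ |K^* c|²` by `Y` and `D^* f`. -/
theorem sum_K_le {g : Sm E} (hg : ∀ z, 0 ≤ (g : E → ℝ) z) {d : ℝ} (hd : 0 < d) (f c : TE E) :
    ∑ i, ip μ (ml g (Dm W (b i) c)) (Dm W (b i) c) ≤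
      (1 + d) * ∑ i, ip μ (ml g (Y a b W f c i)) (Y a b W f c i) +
        4 * (1 + 1 / d) * ∑ i, ip μ (ml g (Dm W (a i) f)) (Dm W (a i) f) := by
  rw [mul_sum, mul_sum, ← sum_add_distrib]
  refine sum_le_sum fun i _ => ?_
  have h := K_le μ hg hd (Dm W (a i) f) (Y a b W f c i)
  have e : Y a b W f c i - (2 : ℝ) • Dm W (a i) f = Dm W (b i) c := by
    rw [Y, add_sub_cancel_left]
  rwa [e] at h

/-- The margin function. -/
def mg (g : Sm E) (ν : ι → Sm E) : Sm E :=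
  ∑ i, (ds (b i) (g * ν i) + (2 : ℝ) • (g * ν i * ds (b i) W) - g * ν i * ν i)

theorem sum_marg {g : Sm E} (hg : ∀ z, 0 ≤ (g : E → ℝ) z) (ν : ι → Sm E) (c : TE E) :
    ip μ (ml (mg b W g ν) c) c ≤ ∑ i, ip μ (ml g (Dm W (b i) c)) (Dm W (b i) c) := by
  rw [mg, map_sum, LinearMap.sum_apply, map_sum, LinearMap.sum_apply]
  exact sum_le_sum fun i _ => marg_one μ W (b i) hg (ν i) c

/-- **(A2)**: the margin for `c`. -/
theorem A2 {g : Sm E} (hg : ∀ z, 0 ≤ (g : E → ℝ) z) (ν : ι → Sm E) {d κ : ℝ} (hd : 0 < d)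
    (hκ : 0 < κ) (f c : TE E) :
    ip μ (ml (mg b W g ν) c) c ≤
      (1 + d) * ∑ i, ip μ (ml g (Y a b W f c i)) (Y a b W f c i) +
        4 * (1 + 1 / d) *
          (ip μ (ml ((2 : ℝ) • (g * gw a b W) + g * Lp a b W + (1 / 2 : ℝ) • Lp a b g +
            (1 / (4 * κ)) • (g * g)) f) f + κ * ip μ (Sop a b W f) (Sop a b W f)) := by
  refine (sum_marg μ b W hg ν c).trans ((sum_K_le μ a b W hg hd f c).trans ?_)
  gcongr
  refine le_trans (sum_le_sum fun i _ => ?_) (A1_le μ a b W (g := g) hκ f)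
  have := ip_ml_nonneg μ hg (Dm W (b i) f)
  linarith

/-- Comparison of weights. -/
theorem ml_mono {g h : Sm E} (hgh : ∀ z, (g : E → ℝ) z ≤ (h : E → ℝ) z) (f : TE E) :
    ip μ (ml g f) f ≤ ip μ (ml h f) f := by
  have h1 : ∀ z, 0 ≤ ((h - g : Sm E) : E → ℝ) z := fun z => by
    change 0 ≤ (h : E → ℝ) z - (g : E → ℝ) z
    linarith [hgh z]
  have h2 := ip_ml_nonneg μ h1 f
  rw [map_sub, LinearMap.sub_apply, map_sub, LinearMap.sub_apply] at h2
  linarith

/-- **(A2)** with weights `m` below and `M` above. -/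
theorem A2' {g m M : Sm E} (hg : ∀ z, 0 ≤ (g : E → ℝ) z) (ν : ι → Sm E) {d κ : ℝ} (hd : 0 < d)
    (hκ : 0 < κ) (hm : ∀ z, (m : E → ℝ) z ≤ (mg b W g ν : E → ℝ) z)
    (hM : ∀ z, (((2 : ℝ) • (g * gw a b W) + g * Lp a b W + (1 / 2 : ℝ) • Lp a b g +
      (1 / (4 * κ)) • (g * g) : Sm E) : E → ℝ) z ≤ (M : E → ℝ) z) (f c : TE E) :
    ip μ (ml m c) c ≤
      (1 + d) * ∑ i, ip μ (ml g (Y a b W f c i)) (Y a b W f c i) +
        4 * (1 + 1 / d) * (ip μ (ml M f) f + κ * ip μ (Sop a b W f) (Sop a b W f)) := by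
  refine (ml_mono μ hm c).trans ((A2 μ a b W hg ν hd hκ f c).trans ?_)
  gcongr
  exact ml_mono μ hM f

end Vale.Agent.P088.R2.H321.C
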