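import Vale.Agent.P088.R2.H321.C.A12

/-!
# Zone C: the margin (A2), localised

`θ ≥ 0` is the localising weight (the square of a cut-off), `g ≥ 0` the weight.
-/

open MeasureTheory Finset

set_option linter.unusedSectionVars false

noncomputable section

namespace Vale.Agent.P088.R2.H321.C

open Vale.Agent.P088.R2.H464.EP

variable {E : Type} [NormedAddCommGroup E] [NormedSpace ℝ E]
variable [FiniteDimensional ℝ E] [MeasurableSpace E] [BorelSpace E] (μ : Measure E)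
  [μ.IsAddHaarMeasure]

/-- Young's inequality with a weight. -/
theorem ip_young_w {θ g : Sm E} (hθ : ∀ z, 0 ≤ (θ : E → ℝ) z) {κ : ℝ} (hκ : 0 < κ) (f h : TE E) :
    -ip μ (ml (θ * g) f) h ≤
      κ * ip μ (ml θ h) h + 1 / (4 * κ) * ip μ (ml (θ * (g * g)) f) f := by
  have h1 := ip_ml_nonneg μ hθ (ml g f + (2 * κ) • h)
  have e1 : ip μ (ml θ (ml g f)) h = ip μ (ml (θ * g) f) h := by rw [ml_ml]
  have e2 : ip μ (ml θ h) (ml g f) = ip μ (ml (θ * g) f) h := by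
    rw [ip_ml, ip_comm, ml_ml]
  have e3 : ip μ (ml θ (ml g f)) (ml g f) = ip μ (ml (θ * (g * g)) f) f := by
    rw [ml_ml, ip_fg, mul_assoc]
  simp only [map_add, LinearMap.add_apply, map_smul, LinearMap.smul_apply, smul_eq_mul] at h1
  rw [e1, e2, e3] at h1
  have h2 : 0 ≤ 1 / (4 * κ) * (ip μ (ml (θ * (g * g)) f) f + 2 * κ * ip μ (ml (θ * g) f) h +
      (2 * κ * ip μ (ml (θ * g) f) h + 2 * κ * (2 * κ * ip μ (ml θ h) h))) :=
    mul_nonneg (by positivity) (by linarith)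
  have e : 1 / (4 * κ) * (ip μ (ml (θ * (g * g)) f) f + 2 * κ * ip μ (ml (θ * g) f) h +
      (2 * κ * ip μ (ml (θ * g) f) h + 2 * κ * (2 * κ * ip μ (ml θ h) h))) =
      1 / (4 * κ) * ip μ (ml (θ * (g * g)) f) f + ip μ (ml (θ * g) f) h +
        κ * ip μ (ml θ h) h := by
    field_simp
    ring
  linarith

variable {ι : Type} [Fintype ι] (a b : ι → E) (W : Sm E)

/-- The weight of `f²` in the localised energy bound. -/
def Mw (θ g : Sm E) (κ : ℝ) : Sm E :=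
  (2 : ℝ) • (θ * g * gw a b W) + θ * g * Lp a b W + (1 / 2 : ℝ) • Lp a b (θ * g) +
    (1 / (4 * κ)) • (θ * (g * g))

/-- The localised energy bound for the starred derivatives. -/
theorem A1_loc {θ g : Sm E} (hθ : ∀ z, 0 ≤ (θ : E → ℝ) z) {κ : ℝ} (hκ : 0 < κ) (f : TE E) :
    ∑ i, (ip μ (ml (θ * g) (Dm W (a i) f)) (Dm W (a i) f) +
        1 / 4 * ip μ (ml (θ * g) (Dm W (b i) f)) (Dm W (b i) f)) ≤
      ip μ (ml (Mw a b W θ g κ) f) f + κ * ip μ (ml θ (Sop a b W f)) (Sop a b W f) := by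
  rw [A1]
  have h := ip_young_w μ (g := g) hθ hκ f (Sop a b W f)
  unfold Mw
  generalize (2 : ℝ) • (θ * g * gw a b W) + θ * g * Lp a b W +
    (1 / 2 : ℝ) • Lp a b (θ * g) = A
  have e : ip μ (ml (A + (1 / (4 * κ)) • (θ * (g * g))) f) f =
      ip μ (ml A f) f + 1 / (4 * κ) * ip μ (ml (θ * (g * g)) f) f := by
    simp only [map_add, LinearMap.add_apply, map_smul, LinearMap.smul_apply, smul_eq_mul]
  rw [e]
  linarith

/-- **(A2)**, localised. -/
theorem A2_loc {θ g : Sm E} (hθ : ∀ z, 0 ≤ (θ : E → ℝ) z) (hg : ∀ z, 0 ≤ (g : E → ℝ) z)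
    (ν : ι → Sm E) {d κ : ℝ} (hd : 0 < d) (hκ : 0 < κ) (f c : TE E) :
    ip μ (ml (mg b W (θ * g) ν) c) c ≤
      (1 + d) * ∑ i, ip μ (ml (θ * g) (Y a b W f c i)) (Y a b W f c i) +
        4 * (1 + 1 / d) * (ip μ (ml (Mw a b W θ g κ) f) f +
          κ * ip μ (ml θ (Sop a b W f)) (Sop a b W f)) := by
  have hθg : ∀ z, 0 ≤ ((θ * g : Sm E) : E → ℝ) z := fun z => mul_nonneg (hθ z) (hg z)
  refine (sum_marg μ b W hθg ν c).trans ((sum_K_le μ a b W hθg hd f c).trans ?_)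
  gcongr
  refine le_trans (sum_le_sum fun i _ => ?_) (A1_loc μ a b W (g := g) hθ hκ f)
  have := ip_ml_nonneg μ hθg (Dm W (b i) f)
  linarith

/-- **(A2)**, localised, with pointwise weights. -/
theorem A2_loc' {θ g m M : Sm E} (hθ : ∀ z, 0 ≤ (θ : E → ℝ) z) (hg : ∀ z, 0 ≤ (g : E → ℝ) z)
    (ν : ι → Sm E) {d κ : ℝ} (hd : 0 < d) (hκ : 0 < κ)
    (hm : ∀ z, (m : E → ℝ) z ≤ (mg b W (θ * g) ν : E → ℝ) z)
    (hM : ∀ z, (Mw a b W θ g κ : E → ℝ) z ≤ (M : E → ℝ) z) (f c : TE E) :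
    ip μ (ml m c) c ≤
      (1 + d) * ∑ i, ip μ (ml (θ * g) (Y a b W f c i)) (Y a b W f c i) +
        4 * (1 + 1 / d) * (ip μ (ml M f) f +
          κ * ip μ (ml θ (Sop a b W f)) (Sop a b W f)) := by
  refine (ml_mono μ hm c).trans ((A2_loc μ a b W hθ hg ν hd hκ f c).trans ?_)
  gcongr
  exact ml_mono μ hM f

end Vale.Agent.P088.R2.H321.C
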