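import Vale.Agent.P088.R2.H644.W.Wt
import Vale.Agent.P088.R2.H321.C.A2loc

/-!
# Zone C, region I: the margin of `c` for the flat weight

`W = φ(x_e) + φ(y_e) + E Φ(|x - y|²)`, `E = exp (x_e + y_e)`, `N = (φ'(x_e) + φ'(y_e)) / 2`,
`g = 1 / (1/E + |x - y|² + N² / E²)`.
-/

open MeasureTheory Finset
open scoped ContDiff

set_option linter.unusedSectionVars false

noncomputable section

namespace Vale.Agent.P088.R2.H321.C

open Vale.Agent.P088.R2.H464.EP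
open Vale.Agent.P088.LR Vale.Agent.P088.HY Vale.Agent.P088.R2.H644

variable {n : ℕ}

/-- The direction of `q_i`. -/
def av (n : ℕ) (i : Fin n) : VV n := (Pi.single i (1 / 2), Pi.single i (-(1 / 2)))

/-- The direction of `p_i`. -/
def bv (n : ℕ) (i : Fin n) : VV n := (Pi.single i 1, Pi.single i 1)

theorem av1 (i e : Fin n) : (av n i).1 e = 1 / 2 * de e i := by
  simp only [av, de, Pi.single_apply, eq_comm (a := e)]
  split_ifs <;> norm_num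

theorem av2 (i e : Fin n) : (av n i).2 e = -(1 / 2) * de e i := by
  simp only [av, de, Pi.single_apply, eq_comm (a := e)]
  split_ifs <;> norm_num

theorem bv1 (i e : Fin n) : (bv n i).1 e = de e i := by
  simp only [bv, de, Pi.single_apply, eq_comm (a := e)]

theorem bv2 (i e : Fin n) : (bv n i).2 e = de e i := by
  simp only [bv, de, Pi.single_apply, eq_comm (a := e)]

theorem ds_dd (v : VV n) (f : Sm (VV n)) (z : VV n) :
    (ds v f : VV n → ℝ) z = dd v (f : VV n → ℝ) z := rfl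

/-- The derivative of a smooth function from a formula. -/
theorem ds_of {v : VV n} {f : Sm (VV n)} {F : VV n → ℝ} (h : ∀ z, (f : VV n → ℝ) z = F z)
    {a : ℝ} {z : VV n} (hF : HD v F a z) : (ds v f : VV n → ℝ) z = a := by
  rw [ds_dd, show (f : VV n → ℝ) = F from funext h]
  exact hF.e

theorem dd_a_qq (i : Fin n) (z : VV n) : dd (av n i) qq z = 2 * qv i z := by
  rw [dd_qq', qdot, qdot]
  simp only [av, Pi.single_apply, mul_ite, mul_zero, Finset.sum_ite_eq', Finset.mem_univ,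
    if_true]
  ring

theorem dd_b_qq (i : Fin n) (z : VV n) : dd (bv n i) qq z = 0 := by
  rw [dd_qq']
  simp [bv]

theorem de_sq (e i : Fin n) : de e i * de e i = de e i := by
  unfold de
  split_ifs <;> ring

theorem sum_de1 (e : Fin n) : ∑ i, de e i = 1 := by
  simp [de]

/-- The data of the flat weight. -/
structure Da (n : ℕ) where
  /-- the normal direction -/
  e : Fin n
  /-- the slope function and its derivatives -/
  φ : ℝ → ℝ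
  φ₁ : ℝ → ℝ
  φ₂ : ℝ → ℝ
  φ₃ : ℝ → ℝ
  /-- the profile and its derivatives -/
  Φ : ℝ → ℝ
  Φ₁ : ℝ → ℝ
  Φ₂ : ℝ → ℝ
  cφ : ContDiff ℝ ∞ φ
  cφ₁ : ContDiff ℝ ∞ φ₁
  cφ₂ : ContDiff ℝ ∞ φ₂
  cφ₃ : ContDiff ℝ ∞ φ₃
  cΦ : ContDiff ℝ ∞ Φ
  cΦ₁ : ContDiff ℝ ∞ Φ₁
  cΦ₂ : ContDiff ℝ ∞ Φ₂
  d1 : ∀ s, HasDerivAt φ (φ₁ s) s
  d2 : ∀ s, HasDerivAt φ₁ (φ₂ s) s
  d3 : ∀ s, HasDerivAt φ₂ (φ₃ s) s
  D1 : ∀ s, HasDerivAt Φ (Φ₁ s) s
  D2 : ∀ s, HasDerivAt Φ₁ (Φ₂ s) s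

namespace Da

variable (A : Da n)

/-- `E`. -/
def En : Sm (VV n) := ⟨Ee A.e 1, contDiff_Ee A.e 1⟩

/-- `1 / E`. -/
def Ei : Sm (VV n) := ⟨Ee A.e (-1), contDiff_Ee A.e (-1)⟩

/-- `|x - y|²`. -/
def Q : Sm (VV n) := ⟨qq, contDiff_qq⟩

/-- The weight. -/
def W : Sm (VV n) := ⟨Wt A.e 1 A.φ A.Φ, contDiff_Wt A.e 1 A.cφ A.cΦ⟩

/-- `N`. -/
def N : Sm (VV n) := ⟨fun z => 1 / 2 * (A.φ₁ (z.1 A.e) + A.φ₁ (z.2 A.e)),
  contDiff_const.mul ((A.cφ₁.comp (contDiff_fst' A.e)).add (A.cφ₁.comp (contDiff_snd' A.e)))⟩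

/-- `h = 1/E + |x - y|² + N²/E²`. -/
def h : Sm (VV n) := A.Ei + Q + A.N * A.N * (A.Ei * A.Ei)

theorem En_apply (z : VV n) : (A.En : VV n → ℝ) z = Ee A.e 1 z := rfl

theorem Ei_apply (z : VV n) : (A.Ei : VV n → ℝ) z = Ee A.e (-1) z := rfl

theorem N_apply (z : VV n) :
    (A.N : VV n → ℝ) z = 1 / 2 * (A.φ₁ (z.1 A.e) + A.φ₁ (z.2 A.e)) := rfl

theorem h_apply (z : VV n) : (A.h : VV n → ℝ) z = Ee A.e (-1) z + qq z +
    (A.N : VV n → ℝ) z * (A.N : VV n → ℝ) z * (Ee A.e (-1) z * Ee A.e (-1) z) := rfl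

theorem Ei_En (z : VV n) : Ee A.e (-1) z * Ee A.e 1 z = 1 := by
  unfold Ee
  rw [← Real.exp_add]
  simp

theorem h_pos (z : VV n) : 0 < (A.h : VV n → ℝ) z := by
  rw [h_apply]
  have h1 := Ee_pos A.e (-1) z
  have h2 := qq_nonneg z
  have h3 := mul_self_nonneg ((A.N : VV n → ℝ) z)
  positivity

/-- The weight `g = 1 / h`. -/
def g : Sm (VV n) := ⟨fun z => ((A.h : VV n → ℝ) z)⁻¹,
  (scd A.h).inv fun z => (A.h_pos z).ne'⟩

theorem g_apply (z : VV n) : (A.g : VV n → ℝ) z = ((A.h : VV n → ℝ) z)⁻¹ := rfl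

theorem g_pos (z : VV n) : 0 < (A.g : VV n → ℝ) z := inv_pos.2 (A.h_pos z)

/-- Derivative of `g`. -/
theorem dg (v : VV n) : ds v A.g = -(A.g * A.g * ds v A.h) := by
  ext z
  have h1 : (ds v A.g : VV n → ℝ) z = -dd v (A.h : VV n → ℝ) z / (A.h : VV n → ℝ) z ^ 2 :=
    dd_inv (sdf A.h z) (A.h_pos z).ne'
  rw [h1]
  change _ = -((A.g : VV n → ℝ) z * (A.g : VV n → ℝ) z * (ds v A.h : VV n → ℝ) z)
  rw [g_apply, ds_dd]
  have := (A.h_pos z).ne'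
  field_simp

/-- Second derivative of `g`. -/
theorem ddg (v : VV n) : ds v (ds v A.g) =
    (2 : ℝ) • (A.g * A.g * A.g * (ds v A.h * ds v A.h)) - A.g * A.g * ds v (ds v A.h) := by
  rw [dg, map_neg, ds_mul, ds_mul, dg]
  have e : ∀ x y : Sm (VV n), (2 : ℝ) • x - y = x + x - y := fun x y => by rw [two_smul]
  rw [e]
  ring

/-! ### First derivatives of the pieces -/

theorem HDx (v z : VV n) {f f' : ℝ → ℝ} (hf : ∀ s, HasDerivAt f (f' s) s) :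
    HD v (fun z => f (z.1 A.e)) (f' (z.1 A.e) * v.1 A.e) z := (HD.fst v z A.e).comp (hf _)

theorem HDy (v z : VV n) {f f' : ℝ → ℝ} (hf : ∀ s, HasDerivAt f (f' s) s) :
    HD v (fun z => f (z.2 A.e)) (f' (z.2 A.e) * v.2 A.e) z := (HD.snd v z A.e).comp (hf _)

theorem ds_Ei (v z : VV n) : (ds v A.Ei : VV n → ℝ) z =
    Ee A.e (-1) z * (-1 * (v.1 A.e + v.2 A.e)) := (HD.Ee v z A.e (-1)).e

theorem a_Ei (i : Fin n) : ds (av n i) A.Ei = 0 := by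
  ext z
  rw [ds_Ei, av1, av2]
  change _ = (0 : ℝ)
  ring

theorem b_Ei (i : Fin n) : ds (bv n i) A.Ei = (-2 * de A.e i) • A.Ei := by
  ext z
  rw [ds_Ei, bv1, bv2]
  change _ = (-2 * de A.e i) * Ee A.e (-1) z
  ring

/-- `q_i`. -/
def qi (i : Fin n) : Sm (VV n) := ⟨qv i, contDiff_qv i⟩

theorem a_Q (i : Fin n) : ds (av n i) (Q : Sm (VV n)) = (2 : ℝ) • qi i := by
  ext z
  exact dd_a_qq i z

theorem b_Q (i : Fin n) : ds (bv n i) (Q : Sm (VV n)) = 0 := by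
  ext z
  exact dd_b_qq i z

theorem a_qi (i : Fin n) : ds (av n i) (qi i) = 1 := by
  ext z
  rw [ds_dd]
  change dd (av n i) (qv i) z = 1
  rw [dd_qv]
  simp only [av, Pi.single_eq_same]
  norm_num

theorem b_qi (i : Fin n) : ds (bv n i) (qi i) = 0 := by
  ext z
  rw [ds_dd]
  change dd (bv n i) (qv i) z = 0
  rw [dd_qv]
  simp [bv]

/-- `∂_p N`. -/
def Nb : Sm (VV n) := ⟨fun z => 1 / 2 * (A.φ₂ (z.1 A.e) + A.φ₂ (z.2 A.e)),
  contDiff_const.mul ((A.cφ₂.comp (contDiff_fst' A.e)).add (A.cφ₂.comp (contDiff_snd' A.e)))⟩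

/-- `∂_q N`. -/
def Na : Sm (VV n) := ⟨fun z => 1 / 4 * (A.φ₂ (z.1 A.e) - A.φ₂ (z.2 A.e)),
  contDiff_const.mul ((A.cφ₂.comp (contDiff_fst' A.e)).sub (A.cφ₂.comp (contDiff_snd' A.e)))⟩

/-- `∂_p² N = 4 ∂_q² N`. -/
def Nc : Sm (VV n) := ⟨fun z => 1 / 2 * (A.φ₃ (z.1 A.e) + A.φ₃ (z.2 A.e)),
  contDiff_const.mul ((A.cφ₃.comp (contDiff_fst' A.e)).add (A.cφ₃.comp (contDiff_snd' A.e)))⟩

theorem a_N (i : Fin n) : ds (av n i) A.N = de A.e i • A.Na := by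
  ext z
  have h1 := ((A.HDx (av n i) z A.d2).add (A.HDy (av n i) z A.d2)).cmul (1 / 2)
  rw [ds_of (fun _ => rfl) h1, av1, av2]
  change _ = de A.e i * (1 / 4 * (A.φ₂ (z.1 A.e) - A.φ₂ (z.2 A.e)))
  ring

theorem b_N (i : Fin n) : ds (bv n i) A.N = de A.e i • A.Nb := by
  ext z
  have h1 := ((A.HDx (bv n i) z A.d2).add (A.HDy (bv n i) z A.d2)).cmul (1 / 2)
  rw [ds_of (fun _ => rfl) h1, bv1, bv2]
  change _ = de A.e i * (1 / 2 * (A.φ₂ (z.1 A.e) + A.φ₂ (z.2 A.e)))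
  ring

theorem a_Na (i : Fin n) : ds (av n i) A.Na = (1 / 4 * de A.e i) • A.Nc := by
  ext z
  have h1 := ((A.HDx (av n i) z A.d3).add ((A.HDy (av n i) z A.d3).cmul (-1))).cmul (1 / 4)
  rw [ds_of (fun w => by
    change 1 / 4 * (A.φ₂ (w.1 A.e) - A.φ₂ (w.2 A.e)) = _
    ring) h1, av1, av2]
  change _ = 1 / 4 * de A.e i * (1 / 2 * (A.φ₃ (z.1 A.e) + A.φ₃ (z.2 A.e)))
  ring

theorem b_Nb (i : Fin n) : ds (bv n i) A.Nb = de A.e i • A.Nc := by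
  ext z
  have h1 := ((A.HDx (bv n i) z A.d3).add (A.HDy (bv n i) z A.d3)).cmul (1 / 2)
  rw [ds_of (fun _ => rfl) h1, bv1, bv2]
  change _ = de A.e i * (1 / 2 * (A.φ₃ (z.1 A.e) + A.φ₃ (z.2 A.e)))
  ring

theorem a_En (i : Fin n) : ds (av n i) A.En = 0 := by
  ext z
  have := (HD.Ee (av n i) z A.e 1).e
  rw [ds_dd]
  change dd (av n i) (Ee A.e 1) z = (0 : ℝ)
  rw [this, av1, av2]
  ring

theorem b_En (i : Fin n) : ds (bv n i) A.En = (2 * de A.e i) • A.En := by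
  ext z
  have := (HD.Ee (bv n i) z A.e 1).e
  rw [ds_dd]
  change dd (bv n i) (Ee A.e 1) z = 2 * de A.e i * Ee A.e 1 z
  rw [this, bv1, bv2]
  ring

/-- `Φ(|x - y|²)` and its derivatives. -/
def P0 : Sm (VV n) := ⟨fun z => A.Φ (qq z), contDiff_rad A.cΦ⟩

def P1 : Sm (VV n) := ⟨fun z => A.Φ₁ (qq z), contDiff_rad A.cΦ₁⟩

def P2 : Sm (VV n) := ⟨fun z => A.Φ₂ (qq z), contDiff_rad A.cΦ₂⟩

theorem a_P0 (i : Fin n) : ds (av n i) A.P0 = (2 : ℝ) • (A.P1 * qi i) := by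
  ext z
  rw [ds_of (fun _ => rfl) (HD.rad (A.D1 _)), dd_a_qq]
  change _ = 2 * (A.Φ₁ (qq z) * qv i z)
  ring

theorem a_P1 (i : Fin n) : ds (av n i) A.P1 = (2 : ℝ) • (A.P2 * qi i) := by
  ext z
  rw [ds_of (fun _ => rfl) (HD.rad (A.D2 _)), dd_a_qq]
  change _ = 2 * (A.Φ₂ (qq z) * qv i z)
  ring

theorem b_P0 (i : Fin n) : ds (bv n i) A.P0 = 0 := by
  ext z
  rw [ds_of (fun _ => rfl) (HD.rad (A.D1 _)), dd_b_qq]
  change _ = (0 : ℝ)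
  ring

/-- `φ(x_e) - φ(y_e)` etc. -/
def M : Sm (VV n) := ⟨fun z => A.φ₁ (z.1 A.e) - A.φ₁ (z.2 A.e),
  (A.cφ₁.comp (contDiff_fst' A.e)).sub (A.cφ₁.comp (contDiff_snd' A.e))⟩

theorem a_M (i : Fin n) : ds (av n i) A.M = de A.e i • A.Nb := by
  ext z
  have h1 := (A.HDx (av n i) z A.d2).add ((A.HDy (av n i) z A.d2).cmul (-1))
  rw [ds_of (fun w => by
    change A.φ₁ (w.1 A.e) - A.φ₁ (w.2 A.e) = _
    ring) h1, av1, av2]
  change _ = de A.e i * (1 / 2 * (A.φ₂ (z.1 A.e) + A.φ₂ (z.2 A.e)))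
  ring

/-- `∂_q W`. -/
theorem a_W (i : Fin n) : ds (av n i) A.W =
    (1 / 2 * de A.e i) • A.M + (2 : ℝ) • (A.En * (A.P1 * qi i)) := by
  ext z
  have h1 := dd_Wt (av n i) A.e 1 A.d1 A.D1 z
  rw [ds_dd]
  change dd (av n i) (Wt A.e 1 A.φ A.Φ) z = 1 / 2 * de A.e i *
    (A.φ₁ (z.1 A.e) - A.φ₁ (z.2 A.e)) + 2 * (Ee A.e 1 z * (A.Φ₁ (qq z) * qv i z))
  rw [h1, dd_a_qq, av1, av2]
  ring

/-- `∂_p W`. -/
theorem b_W (i : Fin n) : ds (bv n i) A.W =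
    (2 * de A.e i) • (A.N + A.En * A.P0) := by
  ext z
  have h1 := dd_Wt (bv n i) A.e 1 A.d1 A.D1 z
  rw [ds_dd]
  change dd (bv n i) (Wt A.e 1 A.φ A.Φ) z = 2 * de A.e i *
    (1 / 2 * (A.φ₁ (z.1 A.e) + A.φ₁ (z.2 A.e)) + Ee A.e 1 z * A.Φ (qq z))
  rw [h1, dd_b_qq, bv1, bv2]
  ring

end Da

end Vale.Agent.P088.R2.H321.C
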