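import Vale.Agent.P088.R2.H321.C.AIw

/-!
# Zone C, region I: the margin of `c` for the flat weight, the pointwise bounds
-/

open MeasureTheory Finset
open scoped ContDiff

set_option linter.unusedSectionVars false

noncomputable section

namespace Vale.Agent.P088.R2.H321.C

open Vale.Agent.P088.R2.H464.EP
open Vale.Agent.P088.LR Vale.Agent.P088.HY Vale.Agent.P088.R2.H644

section prod

variable {E : Type} [NormedAddCommGroup E] [NormedSpace ℝ E] {ι : Type} [Fintype ι]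
  (a b : ι → E) (W : Sm E)

/-- The margin function of a product. -/
theorem mg_mul (θ g : Sm E) (ν : ι → Sm E) :
    mg b W (θ * g) ν = θ * mg b W g ν + g * ∑ i, ν i * ds (b i) θ := by
  unfold mg
  rw [mul_sum, mul_sum, ← sum_add_distrib]
  refine sum_congr rfl fun i _ => ?_
  rw [mul_assoc θ g, ds_mul]
  simp only [two_smul]
  ring

/-- `L` of a product. -/
theorem Lp_mul (θ g : Sm E) :
    Lp a b (θ * g) = θ * Lp a b g + g * Lp a b θ + (2 : ℝ) • Gm a b g θ := by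
  unfold Lp Gm
  rw [mul_sum, mul_sum, smul_sum, ← sum_add_distrib, ← sum_add_distrib]
  refine sum_congr rfl fun i _ => ?_
  simp only [ds_mul, map_add, mul_add, smul_add, mul_smul_comm, two_smul]
  have e : ∀ x y : Sm E, x * y = y * x := mul_comm
  rw [e (ds (a i) (ds (a i) θ)) g, e (ds (b i) (ds (b i) θ)) g,
    e (ds (a i) θ) (ds (a i) g), e (ds (b i) θ) (ds (b i) g)]
  abel

end prod

variable {n : ℕ}

namespace Da

variable (A : Da n)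

/-- `∂_p W = 2 (N + E Φ)` in the normal direction. -/
def V : Sm (VV n) := (2 : ℝ) • (A.N + A.En * A.P0)

theorem b_W' (i : Fin n) : ds (bv n i) A.W = de A.e i • A.V := by
  rw [b_W, V, smul_smul, mul_comm]

theorem b_V (i : Fin n) : ds (bv n i) A.V =
    (2 * de A.e i) • (A.Nb + (2 : ℝ) • (A.En * A.P0)) := by
  rw [V, map_smul, map_add, ds_mul, b_N, b_En, b_P0, mul_zero, add_zero]
  ext z
  change 2 * (de A.e i * (A.Nb : VV n → ℝ) z +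
    2 * de A.e i * (A.En : VV n → ℝ) z * (A.P0 : VV n → ℝ) z) =
    2 * de A.e i * ((A.Nb : VV n → ℝ) z + 2 * ((A.En : VV n → ℝ) z * (A.P0 : VV n → ℝ) z))
  ring

/-- The values of all pieces at a point. -/
theorem Lp_W : Lp (av n) (bv n) A.W =
    A.Nb + A.En * ((4 : ℝ) • (A.P2 * Q) + (2 * n : ℝ) • A.P1 + A.P0) := by
  ext z
  have key : ∀ i, ((ds (av n i) (ds (av n i) A.W) +
      (1 / 4 : ℝ) • ds (bv n i) (ds (bv n i) A.W) : Sm (VV n)) : VV n → ℝ) z =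
      de A.e i * ((A.Nb : VV n → ℝ) z + (A.En : VV n → ℝ) z * (A.P0 : VV n → ℝ) z) +
        (A.En : VV n → ℝ) z * (4 * ((A.P2 : VV n → ℝ) z * qv i z ^ 2) +
          2 * (A.P1 : VV n → ℝ) z) := by
    intro i
    rw [b_W', map_smul, b_V, a_W, map_add, map_smul, map_smul, ds_mul, ds_mul, a_En, a_M, a_P1,
      a_qi, zero_mul, zero_add]
    change 1 / 2 * de A.e i * (de A.e i * (A.Nb : VV n → ℝ) z) +
      2 * ((A.En : VV n → ℝ) z * (2 * ((A.P2 : VV n → ℝ) z * qv i z) * qv i z +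
        (A.P1 : VV n → ℝ) z * 1)) +
      1 / 4 * (de A.e i * (2 * de A.e i * ((A.Nb : VV n → ℝ) z +
        2 * ((A.En : VV n → ℝ) z * (A.P0 : VV n → ℝ) z)))) = _
    linear_combination (((A.Nb : VV n → ℝ) z) +
      ((A.En : VV n → ℝ) z * (A.P0 : VV n → ℝ) z)) * de_sq A.e i
  have e1 : (Lp (av n) (bv n) A.W : VV n → ℝ) z = ∑ i, (de A.e i *
      ((A.Nb : VV n → ℝ) z + (A.En : VV n → ℝ) z * (A.P0 : VV n → ℝ) z) +
        (A.En : VV n → ℝ) z * (4 * ((A.P2 : VV n → ℝ) z * qv i z ^ 2) +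
          2 * (A.P1 : VV n → ℝ) z)) := by
    unfold Lp
    rw [show ((∑ i, (ds (av n i) (ds (av n i) A.W) +
      (1 / 4 : ℝ) • ds (bv n i) (ds (bv n i) A.W)) : Sm (VV n)) : VV n → ℝ) z =
      ∑ i, ((ds (av n i) (ds (av n i) A.W) +
      (1 / 4 : ℝ) • ds (bv n i) (ds (bv n i) A.W) : Sm (VV n)) : VV n → ℝ) z by
        rw [AddSubmonoidClass.coe_finset_sum, Finset.sum_apply]]
    exact sum_congr rfl fun i _ => key i
  rw [e1, sum_add_distrib, ← sum_mul, sum_de1, ← mul_sum, sum_add_distrib, ← mul_sum, ← mul_sum,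
    ← qq_eq, sum_const, card_univ, Fintype.card_fin]
  change _ = (A.Nb : VV n → ℝ) z + (A.En : VV n → ℝ) z * (4 * ((A.P2 : VV n → ℝ) z * qq z) +
    2 * n * (A.P1 : VV n → ℝ) z + (A.P0 : VV n → ℝ) z)
  simp only [nsmul_eq_mul]
  ring

/-- The value of a sum. -/
theorem sum_apply' (f : Fin n → Sm (VV n)) (z : VV n) :
    ((∑ i, f i : Sm (VV n)) : VV n → ℝ) z = ∑ i, (f i : VV n → ℝ) z := by
  rw [AddSubmonoidClass.coe_finsetSum, Finset.sum_apply]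

theorem sum_qd (e : Fin n) (z : VV n) (c : ℝ) : ∑ i, c * (de e i * qv i z) = c * qv e z := by
  rw [← mul_sum]
  congr 1
  simp [de]

/-- `|dW|²`. -/
theorem gw_apply (z : VV n) : (gw (av n) (bv n) A.W : VV n → ℝ) z =
    1 / 4 * (A.M : VV n → ℝ) z ^ 2 +
      2 * ((A.En : VV n → ℝ) z * (A.P1 : VV n → ℝ) z * (A.M : VV n → ℝ) z * qv A.e z) +
      4 * ((A.En : VV n → ℝ) z * (A.P1 : VV n → ℝ) z) ^ 2 * qq z +
      1 / 4 * (A.V : VV n → ℝ) z ^ 2 := by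
  have key : ∀ i, ((ds (av n i) A.W * ds (av n i) A.W +
      (1 / 4 : ℝ) • (ds (bv n i) A.W * ds (bv n i) A.W) : Sm (VV n)) : VV n → ℝ) z =
      de A.e i * (1 / 4 * (A.M : VV n → ℝ) z ^ 2 + 1 / 4 * (A.V : VV n → ℝ) z ^ 2) +
        2 * ((A.En : VV n → ℝ) z * (A.P1 : VV n → ℝ) z * (A.M : VV n → ℝ) z) *
          (de A.e i * qv i z) +
        4 * ((A.En : VV n → ℝ) z * (A.P1 : VV n → ℝ) z) ^ 2 * qv i z ^ 2 := by
    intro i
    rw [b_W', a_W]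
    change (1 / 2 * de A.e i * (A.M : VV n → ℝ) z +
        2 * ((A.En : VV n → ℝ) z * ((A.P1 : VV n → ℝ) z * qv i z))) *
      (1 / 2 * de A.e i * (A.M : VV n → ℝ) z +
        2 * ((A.En : VV n → ℝ) z * ((A.P1 : VV n → ℝ) z * qv i z))) +
      1 / 4 * (de A.e i * (A.V : VV n → ℝ) z * (de A.e i * (A.V : VV n → ℝ) z)) = _
    linear_combination (1 / 4 * (A.M : VV n → ℝ) z ^ 2 + 1 / 4 * (A.V : VV n → ℝ) z ^ 2) *
      de_sq A.e i
  unfold gw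
  rw [sum_apply']
  simp only [key]
  rw [sum_add_distrib, sum_add_distrib, ← sum_mul, sum_de1, sum_qd, ← mul_sum, ← qq_eq]
  ring

/-- `∂_p g` in the normal direction, with the sign. -/
def B (z : VV n) : ℝ :=
  -2 * (A.Ei : VV n → ℝ) z + 2 * ((A.N : VV n → ℝ) z * (A.Nb : VV n → ℝ) z) *
    (A.Ei : VV n → ℝ) z ^ 2 - 4 * (A.N : VV n → ℝ) z ^ 2 * (A.Ei : VV n → ℝ) z ^ 2

theorem a_h (i : Fin n) : ds (av n i) A.h =
    (2 : ℝ) • qi i + (2 * de A.e i) • (A.N * A.Na * (A.Ei * A.Ei)) := by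
  rw [h, map_add, map_add, ds_mul, ds_mul, ds_mul, a_Ei, a_Q, a_N]
  ext z
  change (0 : ℝ) + 2 * qv i z +
    ((de A.e i * (A.Na : VV n → ℝ) z * (A.N : VV n → ℝ) z +
      (A.N : VV n → ℝ) z * (de A.e i * (A.Na : VV n → ℝ) z)) *
        ((A.Ei : VV n → ℝ) z * (A.Ei : VV n → ℝ) z) +
      (A.N : VV n → ℝ) z * (A.N : VV n → ℝ) z *
        (0 * (A.Ei : VV n → ℝ) z + (A.Ei : VV n → ℝ) z * 0)) =
    2 * qv i z + 2 * de A.e i * ((A.N : VV n → ℝ) z * (A.Na : VV n → ℝ) z *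
      ((A.Ei : VV n → ℝ) z * (A.Ei : VV n → ℝ) z))
  ring

theorem b_h (i : Fin n) : ds (bv n i) A.h =
    de A.e i • ((-2 : ℝ) • A.Ei + (2 : ℝ) • (A.N * A.Nb * (A.Ei * A.Ei)) -
      (4 : ℝ) • (A.N * A.N * (A.Ei * A.Ei))) := by
  rw [h, map_add, map_add, ds_mul, ds_mul, ds_mul, b_Ei, b_Q, b_N]
  ext z
  change -2 * de A.e i * (A.Ei : VV n → ℝ) z + 0 +
    ((de A.e i * (A.Nb : VV n → ℝ) z * (A.N : VV n → ℝ) z +
      (A.N : VV n → ℝ) z * (de A.e i * (A.Nb : VV n → ℝ) z)) *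
        ((A.Ei : VV n → ℝ) z * (A.Ei : VV n → ℝ) z) +
      (A.N : VV n → ℝ) z * (A.N : VV n → ℝ) z *
        (-2 * de A.e i * (A.Ei : VV n → ℝ) z * (A.Ei : VV n → ℝ) z +
          (A.Ei : VV n → ℝ) z * (-2 * de A.e i * (A.Ei : VV n → ℝ) z))) =
    de A.e i * (-2 * (A.Ei : VV n → ℝ) z +
      2 * ((A.N : VV n → ℝ) z * (A.Nb : VV n → ℝ) z *
        ((A.Ei : VV n → ℝ) z * (A.Ei : VV n → ℝ) z)) -
      4 * ((A.N : VV n → ℝ) z * (A.N : VV n → ℝ) z *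
        ((A.Ei : VV n → ℝ) z * (A.Ei : VV n → ℝ) z)))
  ring

theorem b_h_apply (i : Fin n) (z : VV n) :
    (ds (bv n i) A.h : VV n → ℝ) z = de A.e i * A.B z := by
  rw [b_h]
  change de A.e i * (-2 * (A.Ei : VV n → ℝ) z +
      2 * ((A.N : VV n → ℝ) z * (A.Nb : VV n → ℝ) z *
        ((A.Ei : VV n → ℝ) z * (A.Ei : VV n → ℝ) z)) -
      4 * ((A.N : VV n → ℝ) z * (A.N : VV n → ℝ) z *
        ((A.Ei : VV n → ℝ) z * (A.Ei : VV n → ℝ) z))) = _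
  unfold B
  ring

theorem aa_h (i : Fin n) (z : VV n) : (ds (av n i) (ds (av n i) A.h) : VV n → ℝ) z =
    2 + de A.e i * (2 * ((A.Na : VV n → ℝ) z ^ 2 +
      1 / 4 * ((A.N : VV n → ℝ) z * (A.Nc : VV n → ℝ) z)) * (A.Ei : VV n → ℝ) z ^ 2) := by
  rw [a_h, map_add, map_smul, map_smul, ds_mul, ds_mul, ds_mul, a_Ei, a_qi, a_N, a_Na]
  change 2 * 1 + 2 * de A.e i *
    ((de A.e i * (A.Na : VV n → ℝ) z * (A.Na : VV n → ℝ) z +
      (A.N : VV n → ℝ) z * (1 / 4 * de A.e i * (A.Nc : VV n → ℝ) z)) *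
        ((A.Ei : VV n → ℝ) z * (A.Ei : VV n → ℝ) z) +
      (A.N : VV n → ℝ) z * (A.Na : VV n → ℝ) z *
        (0 * (A.Ei : VV n → ℝ) z + (A.Ei : VV n → ℝ) z * 0)) = _
  linear_combination 2 * (((A.Na : VV n → ℝ) z) ^ 2 +
    1 / 4 * ((A.N : VV n → ℝ) z * (A.Nc : VV n → ℝ) z)) * (A.Ei : VV n → ℝ) z ^ 2 * de_sq A.e i

/-- `∂_p² h` in the normal direction. -/
def BB (z : VV n) : ℝ :=
  4 * (A.Ei : VV n → ℝ) z + (2 * (A.Nb : VV n → ℝ) z ^ 2 +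
    2 * ((A.N : VV n → ℝ) z * (A.Nc : VV n → ℝ) z) -
    16 * ((A.N : VV n → ℝ) z * (A.Nb : VV n → ℝ) z) + 16 * (A.N : VV n → ℝ) z ^ 2) *
      (A.Ei : VV n → ℝ) z ^ 2

theorem bb_h (i : Fin n) (z : VV n) : (ds (bv n i) (ds (bv n i) A.h) : VV n → ℝ) z =
    de A.e i * A.BB z := by
  rw [b_h, map_smul, map_sub, map_add, map_smul, map_smul, map_smul]
  rw [ds_mul (bv n i) (A.N * A.Nb), ds_mul (bv n i) (A.N * A.N), ds_mul (bv n i) A.N A.Nb,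
    ds_mul (bv n i) A.N A.N, ds_mul (bv n i) A.Ei A.Ei, b_Ei, b_N, b_Nb]
  change de A.e i * (-2 * (-2 * de A.e i * (A.Ei : VV n → ℝ) z) +
    2 * ((de A.e i * (A.Nb : VV n → ℝ) z * (A.Nb : VV n → ℝ) z +
      (A.N : VV n → ℝ) z * (de A.e i * (A.Nc : VV n → ℝ) z)) *
        ((A.Ei : VV n → ℝ) z * (A.Ei : VV n → ℝ) z) +
      (A.N : VV n → ℝ) z * (A.Nb : VV n → ℝ) z *
        (-2 * de A.e i * (A.Ei : VV n → ℝ) z * (A.Ei : VV n → ℝ) z +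
          (A.Ei : VV n → ℝ) z * (-2 * de A.e i * (A.Ei : VV n → ℝ) z))) -
    4 * ((de A.e i * (A.Nb : VV n → ℝ) z * (A.N : VV n → ℝ) z +
      (A.N : VV n → ℝ) z * (de A.e i * (A.Nb : VV n → ℝ) z)) *
        ((A.Ei : VV n → ℝ) z * (A.Ei : VV n → ℝ) z) +
      (A.N : VV n → ℝ) z * (A.N : VV n → ℝ) z *
        (-2 * de A.e i * (A.Ei : VV n → ℝ) z * (A.Ei : VV n → ℝ) z +
          (A.Ei : VV n → ℝ) z * (-2 * de A.e i * (A.Ei : VV n → ℝ) z)))) = _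
  unfold BB
  linear_combination (4 * (A.Ei : VV n → ℝ) z + (2 * (A.Nb : VV n → ℝ) z ^ 2 +
    2 * ((A.N : VV n → ℝ) z * (A.Nc : VV n → ℝ) z) -
    16 * ((A.N : VV n → ℝ) z * (A.Nb : VV n → ℝ) z) + 16 * (A.N : VV n → ℝ) z ^ 2) *
      (A.Ei : VV n → ℝ) z ^ 2) * de_sq A.e i

/-- `L g`. -/
theorem Lp_g (z : VV n) : (Lp (av n) (bv n) A.g : VV n → ℝ) z =
    2 * (A.g : VV n → ℝ) z ^ 3 * (4 * qq z + 8 * (qv A.e z * (A.N : VV n → ℝ) z *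
      (A.Na : VV n → ℝ) z * (A.Ei : VV n → ℝ) z ^ 2) + 4 * (A.N : VV n → ℝ) z ^ 2 *
      (A.Na : VV n → ℝ) z ^ 2 * (A.Ei : VV n → ℝ) z ^ 4) -
    (A.g : VV n → ℝ) z ^ 2 * (2 * n + 2 * ((A.Na : VV n → ℝ) z ^ 2 +
      1 / 4 * ((A.N : VV n → ℝ) z * (A.Nc : VV n → ℝ) z)) * (A.Ei : VV n → ℝ) z ^ 2) +
    1 / 4 * (2 * (A.g : VV n → ℝ) z ^ 3 * A.B z ^ 2 - (A.g : VV n → ℝ) z ^ 2 * A.BB z) := by
  have key : ∀ i, ((ds (av n i) (ds (av n i) A.g) +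
      (1 / 4 : ℝ) • ds (bv n i) (ds (bv n i) A.g) : Sm (VV n)) : VV n → ℝ) z =
      2 * (A.g : VV n → ℝ) z ^ 3 * (4 * qv i z ^ 2 + (8 * ((A.N : VV n → ℝ) z *
      (A.Na : VV n → ℝ) z * (A.Ei : VV n → ℝ) z ^ 2)) * (de A.e i * qv i z)) +
      de A.e i * (8 * (A.g : VV n → ℝ) z ^ 3 * (A.N : VV n → ℝ) z ^ 2 *
      (A.Na : VV n → ℝ) z ^ 2 * (A.Ei : VV n → ℝ) z ^ 4 -
    (A.g : VV n → ℝ) z ^ 2 * (2 * ((A.Na : VV n → ℝ) z ^ 2 +
      1 / 4 * ((A.N : VV n → ℝ) z * (A.Nc : VV n → ℝ) z)) * (A.Ei : VV n → ℝ) z ^ 2) +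
    1 / 4 * (2 * (A.g : VV n → ℝ) z ^ 3 * A.B z ^ 2 - (A.g : VV n → ℝ) z ^ 2 * A.BB z)) -
      2 * (A.g : VV n → ℝ) z ^ 2 := by
    intro i
    have h1 := A.aa_h i z
    have h2 := A.bb_h i z
    have h3 := A.b_h_apply i z
    rw [ddg, ddg, a_h]
    rw [a_h] at h1
    generalize hX : (ds (av n i) ((2 : ℝ) • qi i + (2 * de A.e i) • (A.N * A.Na *
      (A.Ei * A.Ei))) : Sm (VV n)) = X at h1 ⊢
    change 2 * ((A.g : VV n → ℝ) z * (A.g : VV n → ℝ) z * (A.g : VV n → ℝ) z *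
        ((2 * qv i z + 2 * de A.e i * ((A.N : VV n → ℝ) z * (A.Na : VV n → ℝ) z *
          ((A.Ei : VV n → ℝ) z * (A.Ei : VV n → ℝ) z))) *
        (2 * qv i z + 2 * de A.e i * ((A.N : VV n → ℝ) z * (A.Na : VV n → ℝ) z *
          ((A.Ei : VV n → ℝ) z * (A.Ei : VV n → ℝ) z))))) -
      (A.g : VV n → ℝ) z * (A.g : VV n → ℝ) z * (X : VV n → ℝ) z +
      1 / 4 * (2 * ((A.g : VV n → ℝ) z * (A.g : VV n → ℝ) z * (A.g : VV n → ℝ) z *
        ((ds (bv n i) A.h : VV n → ℝ) z * (ds (bv n i) A.h : VV n → ℝ) z)) -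
      (A.g : VV n → ℝ) z * (A.g : VV n → ℝ) z *
        (ds (bv n i) (ds (bv n i) A.h) : VV n → ℝ) z) = _
    rw [h1, h2, h3]
    linear_combination (8 * (A.g : VV n → ℝ) z ^ 3 * (A.N : VV n → ℝ) z ^ 2 *
      (A.Na : VV n → ℝ) z ^ 2 * (A.Ei : VV n → ℝ) z ^ 4 +
      1 / 2 * (A.g : VV n → ℝ) z ^ 3 * A.B z ^ 2) * de_sq A.e i
  unfold Lp
  rw [sum_apply']
  simp only [key]
  rw [sum_sub_distrib, sum_add_distrib, ← sum_mul, sum_de1, ← mul_sum, sum_add_distrib, sum_qd,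
    ← mul_sum, ← qq_eq, sum_const, card_univ, Fintype.card_fin, nsmul_eq_mul]
  ring

end Da

end Vale.Agent.P088.R2.H321.C
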