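import Vale.Agent.P088.R2.H321.C.AIw2

/-!
# Zone C, region I: the margin of `c` for the flat weight
-/

open MeasureTheory Finset
open scoped ContDiff

set_option linter.unusedSectionVars false

noncomputable section

namespace Vale.Agent.P088.R2.H321.C

open Vale.Agent.P088.R2.H464.EP
open Vale.Agent.P088.LR Vale.Agent.P088.HY Vale.Agent.P088.R2.H644

variable {n : ℕ}

namespace Da

variable (A : Da n)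

/-- The pointwise hypotheses. -/
structure Rg (C₁ C₃ CΦ : ℝ) (z : VV n) : Prop where
  E1 : 1 ≤ Ee A.e 1 z
  p1 : 0 ≤ A.φ₁ (z.1 A.e)
  p2 : 0 ≤ A.φ₁ (z.2 A.e)
  k1 : 0 ≤ A.φ₂ (z.1 A.e)
  k2 : 0 ≤ A.φ₂ (z.2 A.e)
  kN : A.φ₂ (z.1 A.e) + A.φ₂ (z.2 A.e) ≤ 2 * (A.φ₁ (z.1 A.e) + A.φ₁ (z.2 A.e))
  kE : A.φ₂ (z.1 A.e) + A.φ₂ (z.2 A.e) ≤ 2 * C₁ * Ee A.e 1 z
  kc : |A.φ₃ (z.1 A.e) + A.φ₃ (z.2 A.e)| ≤ C₃ * (A.φ₂ (z.1 A.e) + A.φ₂ (z.2 A.e))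
  s1 : qq z ≤ 1
  b0 : 0 ≤ A.Φ (qq z)
  b0' : A.Φ (qq z) ≤ CΦ * qq z
  b1 : |A.Φ₁ (qq z)| ≤ CΦ
  b2 : |A.Φ₂ (qq z)| ≤ CΦ

variable {A} {C₁ C₃ CΦ : ℝ} {z : VV n}

theorem qe_sq (e : Fin n) (z : VV n) : qv e z ^ 2 ≤ qq z := by
  rw [qq_eq]
  exact single_le_sum (f := fun j => qv j z ^ 2) (fun j _ => by positivity) (mem_univ e)

/-- The values at a point as real numbers. -/
theorem vals (h : A.Rg C₁ C₃ CΦ z) : ∃ G u E s N Nb Na Nc M P0 P1 P2 V q : ℝ,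
    (A.g : VV n → ℝ) z = G ∧ (A.Ei : VV n → ℝ) z = u ∧ (A.En : VV n → ℝ) z = E ∧ qq z = s ∧
    (A.N : VV n → ℝ) z = N ∧ (A.Nb : VV n → ℝ) z = Nb ∧ (A.Na : VV n → ℝ) z = Na ∧
    (A.Nc : VV n → ℝ) z = Nc ∧ (A.M : VV n → ℝ) z = M ∧ (A.P0 : VV n → ℝ) z = P0 ∧
    (A.P1 : VV n → ℝ) z = P1 ∧ (A.P2 : VV n → ℝ) z = P2 ∧ (A.V : VV n → ℝ) z = V ∧
    qv A.e z = q ∧ 0 < G ∧ 0 < u ∧ 1 ≤ E ∧ u * E = 1 ∧ G * (u + s + N ^ 2 * u ^ 2) = 1 ∧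
    0 ≤ s ∧ s ≤ 1 ∧ 0 ≤ N ∧ 0 ≤ Nb ∧ Nb ≤ 2 * N ∧ Nb ≤ C₁ * E ∧ |Na| ≤ 1 / 2 * Nb ∧
    |Nc| ≤ C₃ * Nb ∧ |M| ≤ 2 * N ∧ 0 ≤ P0 ∧ P0 ≤ CΦ * s ∧ |P1| ≤ CΦ ∧ |P2| ≤ CΦ ∧
    V = 2 * (N + E * P0) ∧ q ^ 2 ≤ s := by
  refine ⟨_, _, _, _, _, _, _, _, _, _, _, _, _, _, rfl, rfl, rfl, rfl, rfl, rfl, rfl, rfl, rfl,
    rfl, rfl, rfl, rfl, rfl, A.g_pos z, Ee_pos _ _ _, h.E1, Ei_En A z, ?_, qq_nonneg z, h.s1,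
    ?_, ?_, ?_, ?_, ?_, ?_, ?_, h.b0, h.b0', h.b1, h.b2, rfl, qe_sq _ _⟩
  · rw [A.g_apply, show (A.Ei : VV n → ℝ) z + qq z + (A.N : VV n → ℝ) z ^ 2 *
      (A.Ei : VV n → ℝ) z ^ 2 = (A.h : VV n → ℝ) z by
        rw [A.h_apply, A.Ei_apply]; ring]
    exact inv_mul_cancel₀ (A.h_pos z).ne'
  · change 0 ≤ 1 / 2 * (A.φ₁ (z.1 A.e) + A.φ₁ (z.2 A.e))
    linarith [h.p1, h.p2]
  · change 0 ≤ 1 / 2 * (A.φ₂ (z.1 A.e) + A.φ₂ (z.2 A.e))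
    linarith [h.k1, h.k2]
  · change 1 / 2 * (A.φ₂ (z.1 A.e) + A.φ₂ (z.2 A.e)) ≤
      2 * (1 / 2 * (A.φ₁ (z.1 A.e) + A.φ₁ (z.2 A.e)))
    linarith [h.kN]
  · change 1 / 2 * (A.φ₂ (z.1 A.e) + A.φ₂ (z.2 A.e)) ≤ C₁ * Ee A.e 1 z
    linarith [h.kE]
  · change |1 / 4 * (A.φ₂ (z.1 A.e) - A.φ₂ (z.2 A.e))| ≤
      1 / 2 * (1 / 2 * (A.φ₂ (z.1 A.e) + A.φ₂ (z.2 A.e)))
    rw [abs_le]
    constructor <;> linarith [h.k1, h.k2]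
  · change |1 / 2 * (A.φ₃ (z.1 A.e) + A.φ₃ (z.2 A.e))| ≤
      C₃ * (1 / 2 * (A.φ₂ (z.1 A.e) + A.φ₂ (z.2 A.e)))
    rw [abs_mul, abs_of_pos (by norm_num : (0 : ℝ) < 1 / 2)]
    linarith [h.kc]
  · change |A.φ₁ (z.1 A.e) - A.φ₁ (z.2 A.e)| ≤ 2 * (1 / 2 * (A.φ₁ (z.1 A.e) + A.φ₁ (z.2 A.e)))
    rw [abs_le]
    constructor <;> linarith [h.p1, h.p2]

/-- The fields `ν_i = ∂_{p_i} W`. -/
def νf (A : Da n) (i : Fin n) : Sm (VV n) := de A.e i • A.V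

theorem b_g (A : Da n) (i : Fin n) (z : VV n) : (ds (bv n i) A.g : VV n → ℝ) z =
    -((A.g : VV n → ℝ) z ^ 2 * (de A.e i * A.B z)) := by
  rw [dg]
  change -((A.g : VV n → ℝ) z * (A.g : VV n → ℝ) z * (ds (bv n i) A.h : VV n → ℝ) z) = _
  rw [b_h_apply]
  ring

/-- The margin function, exactly. -/
theorem mg_eq (A : Da n) (z : VV n) : (mg (bv n) A.W A.g A.νf : VV n → ℝ) z =
    -((A.g : VV n → ℝ) z ^ 2 * A.B z * (A.V : VV n → ℝ) z) +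
      2 * (A.g : VV n → ℝ) z * ((A.Nb : VV n → ℝ) z +
        2 * ((A.En : VV n → ℝ) z * (A.P0 : VV n → ℝ) z)) +
      (A.g : VV n → ℝ) z * (A.V : VV n → ℝ) z ^ 2 := by
  have key : ∀ i, ((ds (bv n i) (A.g * A.νf i) + (2 : ℝ) • (A.g * A.νf i * ds (bv n i) A.W) -
      A.g * A.νf i * A.νf i : Sm (VV n)) : VV n → ℝ) z = de A.e i *
      (-((A.g : VV n → ℝ) z ^ 2 * A.B z * (A.V : VV n → ℝ) z) +
      2 * (A.g : VV n → ℝ) z * ((A.Nb : VV n → ℝ) z +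
        2 * ((A.En : VV n → ℝ) z * (A.P0 : VV n → ℝ) z)) +
      (A.g : VV n → ℝ) z * (A.V : VV n → ℝ) z ^ 2) := by
    intro i
    rw [b_W', νf, ds_mul, map_smul, b_V]
    change (ds (bv n i) A.g : VV n → ℝ) z * (de A.e i * (A.V : VV n → ℝ) z) +
      (A.g : VV n → ℝ) z * (de A.e i * (2 * de A.e i * ((A.Nb : VV n → ℝ) z +
        2 * ((A.En : VV n → ℝ) z * (A.P0 : VV n → ℝ) z)))) +
      2 * ((A.g : VV n → ℝ) z * (de A.e i * (A.V : VV n → ℝ) z) *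
        (de A.e i * (A.V : VV n → ℝ) z)) -
      (A.g : VV n → ℝ) z * (de A.e i * (A.V : VV n → ℝ) z) * (de A.e i * (A.V : VV n → ℝ) z) = _
    rw [b_g]
    linear_combination (-((A.g : VV n → ℝ) z ^ 2 * A.B z * (A.V : VV n → ℝ) z) +
      2 * (A.g : VV n → ℝ) z * ((A.Nb : VV n → ℝ) z +
        2 * ((A.En : VV n → ℝ) z * (A.P0 : VV n → ℝ) z)) +
      (A.g : VV n → ℝ) z * (A.V : VV n → ℝ) z ^ 2) * de_sq A.e i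
  unfold mg
  rw [sum_apply']
  simp only [key]
  rw [← sum_mul, sum_de1, one_mul]

/-- **The margin.** -/
theorem mg_ge (h : A.Rg C₁ C₃ CΦ z) :
    (A.g : VV n → ℝ) z * (A.V : VV n → ℝ) z ^ 2 ≤ (mg (bv n) A.W A.g A.νf : VV n → ℝ) z := by
  rw [mg_eq]
  obtain ⟨G, u, E, s, N, Nb, Na, Nc, M, P0, P1, P2, V, q, e1, e2, e3, e4, e5, e6, e7, e8, e9, e10,
    e11, e12, e13, e14, hG, hu, hE, huE, hGh, hs, hs1, hN, hNb, hNbN, hNbE, hNa, hNc, hM, hP0,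
    hP0', hP1, hP2, hV, hq⟩ := vals h
  have hB : A.B z ≤ 0 := by
    unfold B
    rw [e2, e5, e6]
    have : 0 ≤ N * (2 * N - Nb) * u ^ 2 :=
      mul_nonneg (mul_nonneg hN (by linarith)) (sq_nonneg _)
    nlinarith
  have hV0 : 0 ≤ V := by
    rw [hV]
    have : 0 ≤ E * P0 := mul_nonneg (by linarith) hP0
    linarith
  rw [e1, e3, e6, e10, e13]
  have h1 : 0 ≤ -(G ^ 2 * A.B z * V) := by
    have : 0 ≤ G ^ 2 * (-A.B z) * V := mul_nonneg (mul_nonneg (sq_nonneg _) (by linarith)) hV0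
    linarith
  have h2 : 0 ≤ 2 * G * (Nb + 2 * (E * P0)) := by
    have : 0 ≤ E * P0 := mul_nonneg (by linarith) hP0
    positivity
  linarith


section real

variable {G u E s N Nb Na Nc M P0 P1 P2 V q C₁ C₃ CΦ : ℝ}

theorem r_gs (hG : 0 < G) (hu : 0 < u) (hGh : G * (u + s + N ^ 2 * u ^ 2) = 1) : G * s ≤ 1 := by
  have h1 : 0 ≤ G * (u + N ^ 2 * u ^ 2) := by positivity
  have h2 : G * (u + s + N ^ 2 * u ^ 2) = G * s + G * (u + N ^ 2 * u ^ 2) := by ring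
  linarith

theorem r_gn (hG : 0 < G) (hu : 0 < u) (hs : 0 ≤ s) (hGh : G * (u + s + N ^ 2 * u ^ 2) = 1) :
    G * (N ^ 2 * u ^ 2) ≤ 1 := by
  have h1 : 0 ≤ G * (u + s) := by positivity
  have h2 : G * (u + s + N ^ 2 * u ^ 2) = G * (N ^ 2 * u ^ 2) + G * (u + s) := by ring
  linarith

theorem r_gu (hG : 0 < G) (hu : 0 < u) (hs : 0 ≤ s) (hGh : G * (u + s + N ^ 2 * u ^ 2) = 1) :
    G * (u + N ^ 2 * u ^ 2) ≤ 1 := by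
  have h1 : 0 ≤ G * s := by positivity
  have h2 : G * (u + s + N ^ 2 * u ^ 2) = G * (u + N ^ 2 * u ^ 2) + G * s := by ring
  linarith

theorem r_gN (hG : 0 < G) (hu : 0 < u) (hs : 0 ≤ s) (huE : u * E = 1)
    (hGh : G * (u + s + N ^ 2 * u ^ 2) = 1) : G * N ^ 2 ≤ E ^ 2 := by
  have h1 := r_gn hG hu hs hGh
  have h2 : G * N ^ 2 = G * (N ^ 2 * u ^ 2) * E ^ 2 := by
    have : u ^ 2 * E ^ 2 = 1 := by rw [← mul_pow, huE, one_pow]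
    linear_combination -(G * N ^ 2) * this
  rw [h2]
  exact mul_le_of_le_one_left (sq_nonneg _) h1

theorem r_gE (hG : 0 < G) (hu : 0 < u) (hs : 0 ≤ s) (hE : 1 ≤ E) (huE : u * E = 1)
    (hGh : G * (u + s + N ^ 2 * u ^ 2) = 1) : G ≤ E := by
  have h1 : 0 ≤ G * (s + N ^ 2 * u ^ 2) := by positivity
  have h2 : G * (u + s + N ^ 2 * u ^ 2) = G * u + G * (s + N ^ 2 * u ^ 2) := by ring
  have h3 : G * u ≤ 1 := by linarith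
  have h4 : G = G * u * E := by linear_combination -G * huE
  rw [h4]
  exact mul_le_of_le_one_left (by linarith) h3

theorem r_P0 (hs : 0 ≤ s) (hs1 : s ≤ 1) (hP0 : 0 ≤ P0) (hP0' : P0 ≤ CΦ * s) :
    P0 ^ 2 ≤ CΦ ^ 2 * s := by
  have h1 : P0 ^ 2 ≤ (CΦ * s) ^ 2 := pow_le_pow_left₀ hP0 hP0' 2
  have h2 : s ^ 2 ≤ s := by
    have := mul_le_mul_of_nonneg_left hs1 hs
    nlinarith
  have h3 : CΦ ^ 2 * s ^ 2 ≤ CΦ ^ 2 * s := mul_le_mul_of_nonneg_left h2 (sq_nonneg _)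
  calc P0 ^ 2 ≤ (CΦ * s) ^ 2 := h1
    _ = CΦ ^ 2 * s ^ 2 := by ring
    _ ≤ _ := h3

theorem r_gw (hs : 0 ≤ s) (hs1 : s ≤ 1) (hM : |M| ≤ 2 * N)
    (hP0 : 0 ≤ P0) (hP0' : P0 ≤ CΦ * s) (hP1 : |P1| ≤ CΦ) (hV : V = 2 * (N + E * P0))
    (hq : q ^ 2 ≤ s) :
    1 / 4 * M ^ 2 + 2 * (E * P1 * M * q) + 4 * (E * P1) ^ 2 * s + 1 / 4 * V ^ 2 ≤
      4 * N ^ 2 + 10 * (CΦ ^ 2 * (E ^ 2 * s)) := by
  have hM2 : M ^ 2 ≤ (2 * N) ^ 2 := sq_le_sq' (abs_le.1 hM).1 (abs_le.1 hM).2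
  have hP12 : P1 ^ 2 ≤ CΦ ^ 2 := sq_le_sq' (abs_le.1 hP1).1 (abs_le.1 hP1).2
  have hP02 := r_P0 hs hs1 hP0 hP0'
  have c1 : 2 * (E * P1 * M * q) ≤ 1 / 4 * M ^ 2 + 4 * (E * P1) ^ 2 * q ^ 2 := by
    have := sq_nonneg (1 / 2 * M - 2 * (E * P1) * q)
    have e : (1 / 2 * M - 2 * (E * P1) * q) ^ 2 = 1 / 4 * M ^ 2 + 4 * (E * P1) ^ 2 * q ^ 2 -
        2 * (E * P1 * M * q) := by ring
    linarith
  have c1' : 4 * (E * P1) ^ 2 * q ^ 2 ≤ 4 * (E * P1) ^ 2 * s :=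
    mul_le_mul_of_nonneg_left hq (by positivity)
  have c2 : (E * P1) ^ 2 * s ≤ CΦ ^ 2 * (E ^ 2 * s) := by
    have : (E * P1) ^ 2 * s = P1 ^ 2 * (E ^ 2 * s) := by ring
    rw [this]
    exact mul_le_mul_of_nonneg_right hP12 (by positivity)
  have c3 : V ^ 2 ≤ 8 * N ^ 2 + 8 * (CΦ ^ 2 * (E ^ 2 * s)) := by
    have h1 : V ^ 2 ≤ 8 * N ^ 2 + 8 * (E * P0) ^ 2 := by
      rw [hV]
      have := sq_nonneg (N - E * P0)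
      have e : (2 * (N + E * P0)) ^ 2 + 4 * (N - E * P0) ^ 2 = 8 * N ^ 2 + 8 * (E * P0) ^ 2 := by
        ring
      linarith
    have h2 : (E * P0) ^ 2 ≤ CΦ ^ 2 * (E ^ 2 * s) := by
      have : (E * P0) ^ 2 = E ^ 2 * P0 ^ 2 := by ring
      rw [this]
      calc E ^ 2 * P0 ^ 2 ≤ E ^ 2 * (CΦ ^ 2 * s) := mul_le_mul_of_nonneg_left hP02 (sq_nonneg _)
        _ = _ := by ring
    linarith
  have e4 : (2 * N) ^ 2 = 4 * N ^ 2 := by ring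
  linarith

theorem r_gw2 (hG : 0 < G) (hu : 0 < u) (huE : u * E = 1)
    (hGh : G * (u + s + N ^ 2 * u ^ 2) = 1) (hs : 0 ≤ s) (hs1 : s ≤ 1)
    (hM : |M| ≤ 2 * N) (hP0 : 0 ≤ P0) (hP0' : P0 ≤ CΦ * s) (hP1 : |P1| ≤ CΦ)
    (hV : V = 2 * (N + E * P0)) (hq : q ^ 2 ≤ s) :
    2 * (G * (1 / 4 * M ^ 2 + 2 * (E * P1 * M * q) + 4 * (E * P1) ^ 2 * s + 1 / 4 * V ^ 2)) ≤
      (8 + 20 * CΦ ^ 2) * E ^ 2 := by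
  have tot := r_gw hs hs1 hM hP0 hP0' hP1 hV hq
  have g1 := r_gs hG hu hGh
  have g2 := r_gN hG hu hs huE hGh
  have h3 := mul_le_mul_of_nonneg_left tot hG.le
  have h4 : CΦ ^ 2 * E ^ 2 * (G * s) ≤ CΦ ^ 2 * E ^ 2 * 1 :=
    mul_le_mul_of_nonneg_left g1 (by positivity)
  have e : G * (4 * N ^ 2 + 10 * (CΦ ^ 2 * (E ^ 2 * s))) =
      4 * (G * N ^ 2) + 10 * (CΦ ^ 2 * E ^ 2 * (G * s)) := by ring
  linarith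

theorem r_LW {n : ℕ} (hG : 0 < G) (hGE : G ≤ E) (hE : 1 ≤ E) (hs : 0 ≤ s) (hs1 : s ≤ 1)
    (hNb : 0 ≤ Nb) (hNbE : Nb ≤ C₁ * E) (hP0' : P0 ≤ CΦ * s) (hP1 : |P1| ≤ CΦ)
    (hP2 : |P2| ≤ CΦ) (hC : 0 ≤ CΦ) :
    G * (Nb + E * (4 * (P2 * s) + 2 * n * P1 + P0)) ≤ (C₁ + CΦ * (2 * n + 5)) * E ^ 2 := by
  have hn : (0 : ℝ) ≤ n := Nat.cast_nonneg _
  have a1 : P2 * s ≤ CΦ := by
    calc P2 * s ≤ CΦ * s := mul_le_mul_of_nonneg_right (abs_le.1 hP2).2 hs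
      _ ≤ CΦ * 1 := mul_le_mul_of_nonneg_left hs1 hC
      _ = CΦ := mul_one _
  have a2 : (n : ℝ) * P1 ≤ n * CΦ := mul_le_mul_of_nonneg_left (abs_le.1 hP1).2 hn
  have a3 : P0 ≤ CΦ := by
    calc P0 ≤ CΦ * s := hP0'
      _ ≤ CΦ * 1 := mul_le_mul_of_nonneg_left hs1 hC
      _ = CΦ := mul_one _
  have a4 : E * (4 * (P2 * s) + 2 * n * P1 + P0) ≤ E * (CΦ * (2 * n + 5)) :=
    mul_le_mul_of_nonneg_left (by linarith) (by linarith)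
  have a5 : Nb + E * (4 * (P2 * s) + 2 * n * P1 + P0) ≤ (C₁ + CΦ * (2 * n + 5)) * E := by
    linarith
  have a6 : 0 ≤ (C₁ + CΦ * (2 * n + 5)) * E := by
    have h1 : 0 ≤ C₁ * E := hNb.trans hNbE
    have h2 : 0 ≤ CΦ * (2 * n + 5) * E := by positivity
    linarith
  calc G * (Nb + E * (4 * (P2 * s) + 2 * n * P1 + P0))
      ≤ G * ((C₁ + CΦ * (2 * n + 5)) * E) := mul_le_mul_of_nonneg_left a5 hG.le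
    _ ≤ E * ((C₁ + CΦ * (2 * n + 5)) * E) := mul_le_mul_of_nonneg_right hGE a6
    _ = _ := by ring

theorem r_Na (hu : 0 < u) (huE : u * E = 1) (hNb : 0 ≤ Nb) (hNbE : Nb ≤ C₁ * E)
    (hNa : |Na| ≤ 1 / 2 * Nb) : Na ^ 2 * u ^ 2 ≤ 1 / 4 * C₁ ^ 2 := by
  have hNbu : Nb * u ≤ C₁ := by
    calc Nb * u ≤ C₁ * E * u := mul_le_mul_of_nonneg_right hNbE hu.le
      _ = C₁ := by linear_combination C₁ * huE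
  have hNbu0 : 0 ≤ Nb * u := by positivity
  have h1 : Na ^ 2 ≤ (1 / 2 * Nb) ^ 2 := sq_le_sq' (abs_le.1 hNa).1 (abs_le.1 hNa).2
  have h2 : (Nb * u) ^ 2 ≤ C₁ ^ 2 := pow_le_pow_left₀ hNbu0 hNbu 2
  have h4 : Na ^ 2 * u ^ 2 ≤ (1 / 2 * Nb) ^ 2 * u ^ 2 :=
    mul_le_mul_of_nonneg_right h1 (sq_nonneg _)
  have e : (1 / 2 * Nb) ^ 2 * u ^ 2 = 1 / 4 * (Nb * u) ^ 2 := by ring
  linarith

theorem r_t1 (hG : 0 < G) (g1 : G * s ≤ 1) (g2 : G * (N ^ 2 * u ^ 2) ≤ 1)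
    (hNa2 : Na ^ 2 * u ^ 2 ≤ 1 / 4 * C₁ ^ 2) (hq : q ^ 2 ≤ s) :
    2 * G ^ 3 * (4 * s + 8 * (q * N * Na * u ^ 2) + 4 * N ^ 2 * Na ^ 2 * u ^ 4) ≤
      (16 + 4 * C₁ ^ 2) * G ^ 2 := by
  have b1 : 4 * s + 8 * (q * N * Na * u ^ 2) + 4 * N ^ 2 * Na ^ 2 * u ^ 4 ≤
      8 * s + 8 * ((N ^ 2 * u ^ 2) * (Na ^ 2 * u ^ 2)) := by
    have h1 := sq_nonneg (2 * q - 2 * (N * Na * u ^ 2))
    have e : (2 * q - 2 * (N * Na * u ^ 2)) ^ 2 = 4 * q ^ 2 - 8 * (q * N * Na * u ^ 2) +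
        4 * N ^ 2 * Na ^ 2 * u ^ 4 := by ring
    have e2 : (N ^ 2 * u ^ 2) * (Na ^ 2 * u ^ 2) = N ^ 2 * Na ^ 2 * u ^ 4 := by ring
    rw [e2]
    linarith
  have b2 : 2 * G ^ 3 * (8 * s + 8 * ((N ^ 2 * u ^ 2) * (Na ^ 2 * u ^ 2))) =
      16 * (G ^ 2 * (G * s)) + 16 * (G ^ 2 * ((G * (N ^ 2 * u ^ 2)) * (Na ^ 2 * u ^ 2))) := by
    ring
  have b3 : G ^ 2 * (G * s) ≤ G ^ 2 * 1 := mul_le_mul_of_nonneg_left g1 (sq_nonneg _)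
  have b4 : (G * (N ^ 2 * u ^ 2)) * (Na ^ 2 * u ^ 2) ≤ 1 * (1 / 4 * C₁ ^ 2) :=
    mul_le_mul g2 hNa2 (by positivity) zero_le_one
  have b5 : G ^ 2 * ((G * (N ^ 2 * u ^ 2)) * (Na ^ 2 * u ^ 2)) ≤
      G ^ 2 * (1 * (1 / 4 * C₁ ^ 2)) := mul_le_mul_of_nonneg_left b4 (sq_nonneg _)
  have b6 := mul_le_mul_of_nonneg_left b1 (by positivity : 0 ≤ 2 * G ^ 3)
  linarith

theorem r_NN (hN : 0 ≤ N) (hNbN : Nb ≤ 2 * N) : N * Nb * u ^ 2 ≤ 2 * (N ^ 2 * u ^ 2) := by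
  have h1 := mul_le_mul_of_nonneg_left hNbN (by positivity : 0 ≤ N * u ^ 2)
  have e1 : N * u ^ 2 * Nb = N * Nb * u ^ 2 := by ring
  have e2 : N * u ^ 2 * (2 * N) = 2 * (N ^ 2 * u ^ 2) := by ring
  linarith

theorem r_NNc (hN : 0 ≤ N) (hNbN : Nb ≤ 2 * N) (hNc : |Nc| ≤ C₃ * Nb) (h3 : 0 ≤ C₃) :
    -(N * Nc * u ^ 2) ≤ 2 * C₃ * (N ^ 2 * u ^ 2) := by
  have h1 : -Nc ≤ C₃ * Nb := by linarith [(abs_le.1 hNc).1]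
  have h2 := mul_le_mul_of_nonneg_left h1 (by positivity : 0 ≤ N * u ^ 2)
  have h4 := mul_le_mul_of_nonneg_left (r_NN (u := u) hN hNbN) h3
  have e1 : N * u ^ 2 * -Nc = -(N * Nc * u ^ 2) := by ring
  have e2 : N * u ^ 2 * (C₃ * Nb) = C₃ * (N * Nb * u ^ 2) := by ring
  have e3 : C₃ * (2 * (N ^ 2 * u ^ 2)) = 2 * C₃ * (N ^ 2 * u ^ 2) := by ring
  linarith

theorem r_G2 (hG : 0 < G) (g2 : G * (N ^ 2 * u ^ 2) ≤ 1) : G ^ 2 * (N ^ 2 * u ^ 2) ≤ G := by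
  have h := mul_le_mul_of_nonneg_left g2 hG.le
  have e : G * (G * (N ^ 2 * u ^ 2)) = G ^ 2 * (N ^ 2 * u ^ 2) := by ring
  linarith

theorem r_t2 {n : ℕ} (hG2 : G ^ 2 * (N ^ 2 * u ^ 2) ≤ G)
    (hNNc : -(N * Nc * u ^ 2) ≤ 2 * C₃ * (N ^ 2 * u ^ 2)) (h3 : 0 ≤ C₃) :
    -(G ^ 2 * (2 * n + 2 * (Na ^ 2 + 1 / 4 * (N * Nc)) * u ^ 2)) ≤ C₃ * G := by
  have b1 : -(G ^ 2 * (2 * n + 2 * (Na ^ 2 + 1 / 4 * (N * Nc)) * u ^ 2)) =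
      -(G ^ 2 * (2 * n)) - 2 * (G ^ 2 * (Na ^ 2 * u ^ 2)) +
        1 / 2 * (G ^ 2 * (-(N * Nc * u ^ 2))) := by ring
  have b2 := mul_le_mul_of_nonneg_left hNNc (sq_nonneg G)
  have b3 : 0 ≤ G ^ 2 * (2 * n) := by positivity
  have b4 : 0 ≤ G ^ 2 * (Na ^ 2 * u ^ 2) := by positivity
  have b5 := mul_le_mul_of_nonneg_left hG2 h3
  have e : G ^ 2 * (2 * C₃ * (N ^ 2 * u ^ 2)) = 2 * (C₃ * (G ^ 2 * (N ^ 2 * u ^ 2))) := by ring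
  rw [b1]
  linarith

theorem r_t3 (hG : 0 < G) (hu : 0 < u) (hN : 0 ≤ N) (hNb : 0 ≤ Nb)
    (g3 : G * (u + N ^ 2 * u ^ 2) ≤ 1) (hNN : N * Nb * u ^ 2 ≤ 2 * (N ^ 2 * u ^ 2)) :
    1 / 4 * (2 * G ^ 3 * (-2 * u + 2 * (N * Nb) * u ^ 2 - 4 * N ^ 2 * u ^ 2) ^ 2) ≤
      8 * G := by
  have b1 : |G * (-2 * u + 2 * (N * Nb) * u ^ 2 - 4 * N ^ 2 * u ^ 2)| ≤ 4 := by
    have c2 : 0 ≤ G * u := by positivity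
    have c3 : 0 ≤ G * (N ^ 2 * u ^ 2) := by positivity
    have c4 : 0 ≤ G * (N * Nb * u ^ 2) := by positivity
    have c5 := mul_le_mul_of_nonneg_left hNN hG.le
    have e1 : G * (-2 * u + 2 * (N * Nb) * u ^ 2 - 4 * N ^ 2 * u ^ 2) =
        -2 * (G * u) + 2 * (G * (N * Nb * u ^ 2)) - 4 * (G * (N ^ 2 * u ^ 2)) := by ring
    have e2 : G * (u + N ^ 2 * u ^ 2) = G * u + G * (N ^ 2 * u ^ 2) := by ring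
    have e3 : G * (2 * (N ^ 2 * u ^ 2)) = 2 * (G * (N ^ 2 * u ^ 2)) := by ring
    rw [e1, abs_le]
    constructor <;> linarith
  have b2 : (G * (-2 * u + 2 * (N * Nb) * u ^ 2 - 4 * N ^ 2 * u ^ 2)) ^ 2 ≤ 4 ^ 2 :=
    sq_le_sq' (abs_le.1 b1).1 (abs_le.1 b1).2
  have b3 := mul_le_mul_of_nonneg_left b2 hG.le
  have e : 1 / 4 * (2 * G ^ 3 * (-2 * u + 2 * (N * Nb) * u ^ 2 - 4 * N ^ 2 * u ^ 2) ^ 2) =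
      1 / 2 * (G * (G * (-2 * u + 2 * (N * Nb) * u ^ 2 - 4 * N ^ 2 * u ^ 2)) ^ 2) := by ring
  rw [e]
  linarith

theorem r_t4 (hu : 0 < u) (hNN : N * Nb * u ^ 2 ≤ 2 * (N ^ 2 * u ^ 2))
    (hNNc : -(N * Nc * u ^ 2) ≤ 2 * C₃ * (N ^ 2 * u ^ 2)) (h3 : 0 ≤ C₃)
    (hG2 : G ^ 2 * (N ^ 2 * u ^ 2) ≤ G) :
    -(1 / 4 * (G ^ 2 * (4 * u + (2 * Nb ^ 2 + 2 * (N * Nc) - 16 * (N * Nb) +
      16 * N ^ 2) * u ^ 2))) ≤ (C₃ + 8) * G := by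
  have b1 : -(4 * u + (2 * Nb ^ 2 + 2 * (N * Nc) - 16 * (N * Nb) + 16 * N ^ 2) * u ^ 2) ≤
      (4 * C₃ + 32) * (N ^ 2 * u ^ 2) := by
    have c1 : 0 ≤ Nb ^ 2 * u ^ 2 := by positivity
    have c2 : 0 ≤ N ^ 2 * u ^ 2 := by positivity
    have e : -(4 * u + (2 * Nb ^ 2 + 2 * (N * Nc) - 16 * (N * Nb) + 16 * N ^ 2) * u ^ 2) =
        -(4 * u) - 2 * (Nb ^ 2 * u ^ 2) + 2 * (-(N * Nc * u ^ 2)) + 16 * (N * Nb * u ^ 2) -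
          16 * (N ^ 2 * u ^ 2) := by ring
    rw [e]
    linarith
  have b2 := mul_le_mul_of_nonneg_left b1 (sq_nonneg G)
  have b3 := mul_le_mul_of_nonneg_left hG2 (by positivity : 0 ≤ 4 * C₃ + 32)
  have e1 : -(1 / 4 * (G ^ 2 * (4 * u + (2 * Nb ^ 2 + 2 * (N * Nc) - 16 * (N * Nb) +
      16 * N ^ 2) * u ^ 2))) = 1 / 4 * (G ^ 2 * -(4 * u + (2 * Nb ^ 2 + 2 * (N * Nc) -
        16 * (N * Nb) + 16 * N ^ 2) * u ^ 2)) := by ring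
  have e2 : G ^ 2 * ((4 * C₃ + 32) * (N ^ 2 * u ^ 2)) =
      (4 * C₃ + 32) * (G ^ 2 * (N ^ 2 * u ^ 2)) := by ring
  rw [e1]
  linarith

theorem r_Lg {n : ℕ} (hG : 0 < G) (hu : 0 < u) (hE : 1 ≤ E) (huE : u * E = 1)
    (hGh : G * (u + s + N ^ 2 * u ^ 2) = 1) (hs : 0 ≤ s) (hN : 0 ≤ N) (hNb : 0 ≤ Nb)
    (hNbN : Nb ≤ 2 * N) (hNbE : Nb ≤ C₁ * E) (hNa : |Na| ≤ 1 / 2 * Nb) (hNc : |Nc| ≤ C₃ * Nb)
    (hq : q ^ 2 ≤ s) (h3 : 0 ≤ C₃) :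
    1 / 2 * (2 * G ^ 3 * (4 * s + 8 * (q * N * Na * u ^ 2) + 4 * N ^ 2 * Na ^ 2 * u ^ 4) -
      G ^ 2 * (2 * n + 2 * (Na ^ 2 + 1 / 4 * (N * Nc)) * u ^ 2) +
      1 / 4 * (2 * G ^ 3 * (-2 * u + 2 * (N * Nb) * u ^ 2 - 4 * N ^ 2 * u ^ 2) ^ 2 -
        G ^ 2 * (4 * u + (2 * Nb ^ 2 + 2 * (N * Nc) - 16 * (N * Nb) +
      16 * N ^ 2) * u ^ 2))) ≤ (16 + 2 * C₁ ^ 2 + C₃) * E ^ 2 := by
  have g2 := r_gn hG hu hs hGh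
  have hNN := r_NN (u := u) hN hNbN
  have hNNc := r_NNc (u := u) hN hNbN hNc h3
  have hG2 := r_G2 hG g2
  have t1 := r_t1 hG (r_gs hG hu hGh) g2 (r_Na hu huE hNb hNbE hNa) hq
  have t2 := r_t2 (n := n) (Na := Na) hG2 hNNc h3
  have t3 := r_t3 hG hu hN hNb (r_gu hG hu hs hGh) hNN
  have t4 := r_t4 hu hNN hNNc h3 hG2
  have hGE := r_gE hG hu hs hE huE hGh
  have hGE2 : G ^ 2 ≤ E ^ 2 := pow_le_pow_left₀ hG.le hGE 2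
  have hGE3 : G ≤ E ^ 2 := hGE.trans (by nlinarith)
  have f1 : (8 + 2 * C₁ ^ 2) * G ^ 2 ≤ (8 + 2 * C₁ ^ 2) * E ^ 2 :=
    mul_le_mul_of_nonneg_left hGE2 (by positivity)
  have f2 : (C₃ + 8) * G ≤ (C₃ + 8) * E ^ 2 := mul_le_mul_of_nonneg_left hGE3 (by positivity)
  linarith

end real

/-- The bound of `|dW|²`. -/
theorem gw_le (h : A.Rg C₁ C₃ CΦ z) :
    2 * ((A.g : VV n → ℝ) z * (gw (av n) (bv n) A.W : VV n → ℝ) z) ≤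
      (8 + 20 * CΦ ^ 2) * (A.En : VV n → ℝ) z ^ 2 := by
  rw [gw_apply]
  obtain ⟨G, u, E, s, N, Nb, Na, Nc, M, P0, P1, P2, V, q, e1, e2, e3, e4, e5, e6, e7, e8, e9, e10,
    e11, e12, e13, e14, hG, hu, hE, huE, hGh, hs, hs1, hN, hNb, hNbN, hNbE, hNa, hNc, hM, hP0,
    hP0', hP1, hP2, hV, hq⟩ := vals h
  rw [e1, e3, e4, e9, e11, e13, e14]
  exact r_gw2 hG hu huE hGh hs hs1 hM hP0 hP0' hP1 hV hq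

/-- The bound of `L W`. -/
theorem LW_le (h : A.Rg C₁ C₃ CΦ z) (hC : 0 ≤ CΦ) :
    (A.g : VV n → ℝ) z * (Lp (av n) (bv n) A.W : VV n → ℝ) z ≤
      (C₁ + CΦ * (2 * n + 5)) * (A.En : VV n → ℝ) z ^ 2 := by
  rw [Lp_W]
  change (A.g : VV n → ℝ) z * ((A.Nb : VV n → ℝ) z + (A.En : VV n → ℝ) z *
    (4 * ((A.P2 : VV n → ℝ) z * qq z) + 2 * n * (A.P1 : VV n → ℝ) z +
      (A.P0 : VV n → ℝ) z)) ≤ _
  obtain ⟨G, u, E, s, N, Nb, Na, Nc, M, P0, P1, P2, V, q, e1, e2, e3, e4, e5, e6, e7, e8, e9, e10,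
    e11, e12, e13, e14, hG, hu, hE, huE, hGh, hs, hs1, hN, hNb, hNbN, hNbE, hNa, hNc, hM, hP0,
    hP0', hP1, hP2, hV, hq⟩ := vals h
  rw [e1, e3, e4, e6, e10, e11, e12]
  exact r_LW hG (r_gE hG hu hs hE huE hGh) hE hs hs1 hNb hNbE hP0' hP1 hP2 hC

/-- The bound of `L g`. -/
theorem Lg_le (h : A.Rg C₁ C₃ CΦ z) (h3 : 0 ≤ C₃) :
    1 / 2 * (Lp (av n) (bv n) A.g : VV n → ℝ) z ≤
      (16 + 2 * C₁ ^ 2 + C₃) * (A.En : VV n → ℝ) z ^ 2 := by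
  rw [Lp_g]
  obtain ⟨G, u, E, s, N, Nb, Na, Nc, M, P0, P1, P2, V, q, e1, e2, e3, e4, e5, e6, e7, e8, e9, e10,
    e11, e12, e13, e14, hG, hu, hE, huE, hGh, hs, hs1, hN, hNb, hNbN, hNbE, hNa, hNc, hM, hP0,
    hP0', hP1, hP2, hV, hq⟩ := vals h
  unfold B BB
  rw [e1, e2, e3, e4, e5, e6, e7, e8, e14]
  exact r_Lg hG hu hE huE hGh hs hN hNb hNbN hNbE hNa hNc hq h3

theorem g_le_E (h : A.Rg C₁ C₃ CΦ z) : (A.g : VV n → ℝ) z ≤ (A.En : VV n → ℝ) z := by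
  obtain ⟨G, u, E, s, N, Nb, Na, Nc, M, P0, P1, P2, V, q, e1, e2, e3, e4, e5, e6, e7, e8, e9, e10,
    e11, e12, e13, e14, hG, hu, hE, huE, hGh, hs, hs1, hN, hNb, hNbN, hNbE, hNa, hNc, hM, hP0,
    hP0', hP1, hP2, hV, hq⟩ := vals h
  rw [e1, e3]
  exact r_gE hG hu hs hE huE hGh

end Da

end Vale.Agent.P088.R2.H321.C
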