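import Vale.Agent.P088.R2.H321.C.A12

/-!
# Zone C: energy and margin with a cut-off `χ` inside, only first derivatives of `χ`
-/

open MeasureTheory Finset

set_option linter.unusedSectionVars false

noncomputable section

namespace Vale.Agent.P088.R2.H321.C

open Vale.Agent.P088.R2.H464.EP

variable {E : Type} [NormedAddCommGroup E] [NormedSpace ℝ E]
variable [FiniteDimensional ℝ E] [MeasurableSpace E] [BorelSpace E] (μ : Measure E)
  [μ.IsAddHaarMeasure]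

/-- The energy in one direction, the second derivatives fall on `g` only. -/
theorem one_th (W : Sm E) (v : E) (θ g : Sm E) (f : TE E) :
    ip μ (ml (θ * g) (Dm W v f)) (Dm W v f) =
      ip μ (ml ((2 : ℝ) • (θ * g * (ds v W * ds v W)) + θ * g * ds v (ds v W) +
        (1 / 2 : ℝ) • (θ * ds v (ds v g)) + (1 / 2 : ℝ) • (ds v θ * ds v g) -
        g * ds v θ * ds v W) f) f + ip μ (ml (g * ds v θ) f) (Dm W v f) -
        ip μ (ml (θ * g) f) (Dp W v (Dp W v f)) := by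
  have h1 := one μ W v (θ * g) f
  have h2 := ip_h μ v (g * ds v θ) f
  have h3 : ds v (ds v (θ * g)) = θ * ds v (ds v g) + ds v θ * ds v g + ds v (g * ds v θ) := by
    rw [ds_mul v θ g, map_add, ds_mul v (ds v θ) g, ds_mul v θ (ds v g),
      ds_mul v g (ds v θ)]
    ring
  have h4 : ip μ (ml (g * ds v θ) f) (dv v f) = ip μ (ml (g * ds v θ * ds v W) f) f -
      ip μ (ml (g * ds v θ) f) (Dm W v f) := by
    rw [Dm_apply, map_add, map_neg, ip_fg]
    ring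
  rw [h1, h3]
  simp only [map_add, map_sub, map_smul, LinearMap.add_apply, LinearMap.sub_apply,
    LinearMap.smul_apply, smul_eq_mul]
  linarith

theorem ip_ml3 (g χ : Sm E) (u w : TE E) :
    ip μ (ml g (ml χ u)) w = ip μ (ml (χ * g) u) w := by
  rw [ml_ml, mul_comm]

/-- A square with weight. -/
theorem sq_w {g : Sm E} (hg : ∀ z, 0 ≤ (g : E → ℝ) z) (χ η : Sm E) (u f : TE E) :
    0 ≤ ip μ (ml (χ * χ * g) u) u - 4 * ip μ (ml (χ * η * g) f) u +
      4 * ip μ (ml (η * η * g) f) f := by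
  have h := ip_ml_nonneg μ hg (ml χ u - (2 : ℝ) • ml η f)
  have e1 : ip μ (ml g (ml χ u)) (ml χ u) = ip μ (ml (χ * χ * g) u) u := by
    rw [ml_ml, ip_fg]
    congr 3
    rw [mul_comm g χ, mul_assoc, mul_comm g χ, ← mul_assoc]
  have e2 : ip μ (ml g (ml χ u)) (ml η f) = ip μ (ml (χ * η * g) f) u := by
    rw [ml_ml, ip_ml, ip_comm, ml_ml, show g * χ * η = χ * η * g by ring]
  have e3 : ip μ (ml g (ml η f)) (ml χ u) = ip μ (ml (χ * η * g) f) u := by
    rw [ml_ml, ← ip_ml, ml_ml, show χ * (g * η) = χ * η * g by ring]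
  have e4 : ip μ (ml g (ml η f)) (ml η f) = ip μ (ml (η * η * g) f) f := by
    rw [ml_ml, ip_fg]
    congr 3
    rw [mul_comm g η, mul_assoc, mul_comm g η, ← mul_assoc]
  simp only [map_sub, LinearMap.sub_apply, map_smul, LinearMap.smul_apply, smul_eq_mul] at h
  rw [e1, e2, e3, e4] at h
  linarith

theorem ds_sq (v : E) (χ : Sm E) : ds v (χ * χ) = (2 : ℝ) • (χ * ds v χ) := by
  rw [ds_mul, mul_comm (ds v χ) χ, two_smul]

/-- The pointwise part: a weight which is a square times `g`. -/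
theorem sq_pt {g : Sm E} (hg : ∀ z, 0 ≤ (g : E → ℝ) z) (x y : Sm E) (f : TE E) :
    0 ≤ ip μ (ml (g * (x * x)) f) f + 2 * ip μ (ml (g * (x * y)) f) f +
      ip μ (ml (g * (y * y)) f) f := by
  have h1 : ∀ z, 0 ≤ ((g * ((x + y) * (x + y)) : Sm E) : E → ℝ) z := fun z => by
    change 0 ≤ (g : E → ℝ) z * (((x : E → ℝ) z + (y : E → ℝ) z) *
      ((x : E → ℝ) z + (y : E → ℝ) z))
    exact mul_nonneg (hg z) (mul_self_nonneg _)
  have h := ip_ml_nonneg μ h1 f
  have e : g * ((x + y) * (x + y)) = g * (x * x) + (2 : ℝ) • (g * (x * y)) + g * (y * y) := by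
    rw [two_smul]; ring
  rw [e] at h
  simp only [map_add, LinearMap.add_apply, map_smul, LinearMap.smul_apply, smul_eq_mul] at h
  linarith

/-- The energy in one direction with the weight `χ² g`, `∂ g = g k`. -/
theorem one_chi (W : Sm E) (v : E) {χ g k : Sm E} (hg : ∀ z, 0 ≤ (g : E → ℝ) z)
    (hk : ds v g = g * k) (f : TE E) :
    1 / 2 * ip μ (ml (χ * χ * g) (Dm W v f)) (Dm W v f) ≤
      ip μ (ml (χ * χ * ((3 : ℝ) • (g * (ds v W * ds v W)) + g * ds v (ds v W) +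
        (1 / 2 : ℝ) • ds v (ds v g) + (1 / 2 : ℝ) • (g * (k * k)))) f) f +
      7 / 2 * ip μ (ml (g * (ds v χ * ds v χ)) f) f -
        ip μ (ml (χ * χ * g) f) (Dp W v (Dp W v f)) := by
  have h0 := one_th μ W v (χ * χ) g f
  have h1 := sq_w μ hg χ (ds v χ) (Dm W v f) f
  have h2 := sq_pt μ hg (χ * ds v W) (ds v χ) f
  have h3 := sq_pt μ hg (χ * k) (-ds v χ) f
  have e1 : g * ds v (χ * χ) = (2 : ℝ) • (χ * ds v χ * g) := by
    rw [ds_sq, mul_smul_comm, mul_comm g]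
  have e2 : ds v (χ * χ) * ds v g = (2 : ℝ) • (χ * ds v χ * (g * k)) := by
    rw [ds_sq, hk, smul_mul_assoc]
  have e3 : g * ds v (χ * χ) * ds v W = (2 : ℝ) • (χ * ds v χ * g * ds v W) := by
    rw [e1, smul_mul_assoc]
  rw [e1, e2] at h0
  rw [show (2 : ℝ) • (χ * ds v χ * g) * ds v W = (2 : ℝ) • (χ * ds v χ * g * ds v W) from
    smul_mul_assoc _ _ _] at h0
  have f1 : g * (χ * ds v W * (χ * ds v W)) = χ * χ * (g * (ds v W * ds v W)) := by ring
  have f2 : g * (χ * ds v W * ds v χ) = χ * ds v χ * g * ds v W := by ring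
  have f3 : g * (χ * k * (χ * k)) = χ * χ * (g * (k * k)) := by ring
  have f4 : g * (χ * k * -ds v χ) = -(χ * ds v χ * (g * k)) := by ring
  have f5 : g * (-ds v χ * -ds v χ) = g * (ds v χ * ds v χ) := by ring
  have f6 : ds v χ * ds v χ * g = g * (ds v χ * ds v χ) := by ring
  have f7 : χ * χ * g * (ds v W * ds v W) = χ * χ * (g * (ds v W * ds v W)) := by ring
  have f8 : χ * χ * g * ds v (ds v W) = χ * χ * (g * ds v (ds v W)) := by ring
  rw [f1, f2] at h2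
  rw [f3, f4, f5] at h3
  rw [f6] at h1
  rw [f7, f8] at h0
  simp only [mul_add, mul_smul_comm, map_add, map_sub, map_neg, map_smul, LinearMap.add_apply,
    LinearMap.sub_apply, LinearMap.neg_apply, LinearMap.smul_apply, smul_eq_mul]
    at h0 h1 h2 h3 ⊢
  linarith

variable {ι : Type} [Fintype ι] (a b : ι → E) (W : Sm E)

/-- The weight of `f²` in the energy bound with a cut-off. -/
def Mc (g : Sm E) (ka kb : ι → Sm E) (κ : ℝ) : Sm E :=
  (3 : ℝ) • (g * gw a b W) + g * Lp a b W + (1 / 2 : ℝ) • Lp a b g +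
    (1 / 2 : ℝ) • (g * ∑ i, (ka i * ka i + (1 / 4 : ℝ) • (kb i * kb i))) +
    (1 / (4 * κ)) • (g * g)

/-- **The energy bound with a cut-off inside.** -/
theorem A1_chi {χ g : Sm E} {ka kb : ι → Sm E} (hg : ∀ z, 0 ≤ (g : E → ℝ) z)
    (hka : ∀ i, ds (a i) g = g * ka i) (hkb : ∀ i, ds (b i) g = g * kb i)
    {κ : ℝ} (hκ : 0 < κ) (f : TE E) :
    1 / 2 * ∑ i, (ip μ (ml (χ * χ * g) (Dm W (a i) f)) (Dm W (a i) f) +
        1 / 4 * ip μ (ml (χ * χ * g) (Dm W (b i) f)) (Dm W (b i) f)) ≤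
      ip μ (ml (χ * χ * Mc a b W g ka kb κ) f) f + 7 / 2 * ip μ (ml (g * gw a b χ) f) f +
        κ * ip μ (ml (χ * χ) (Sop a b W f)) (Sop a b W f) := by
  have hχ : ∀ z, 0 ≤ ((χ * χ : Sm E) : E → ℝ) z := fun z => mul_self_nonneg _
  have hy : -ip μ (ml (χ * χ * g) f) (Sop a b W f) ≤
      κ * ip μ (ml (χ * χ) (Sop a b W f)) (Sop a b W f) +
        1 / (4 * κ) * ip μ (ml (χ * χ * (g * g)) f) f := by
    have h1 := ip_ml_nonneg μ hχ (ml g f + (2 * κ) • Sop a b W f)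
    have e1 : ip μ (ml (χ * χ) (ml g f)) (Sop a b W f) =
        ip μ (ml (χ * χ * g) f) (Sop a b W f) := by rw [ml_ml]
    have e2 : ip μ (ml (χ * χ) (Sop a b W f)) (ml g f) =
        ip μ (ml (χ * χ * g) f) (Sop a b W f) := by rw [ip_ml, ip_comm, ml_ml]
    have e3 : ip μ (ml (χ * χ) (ml g f)) (ml g f) = ip μ (ml (χ * χ * (g * g)) f) f := by
      rw [ml_ml, ip_fg, mul_assoc]
    simp only [map_add, LinearMap.add_apply, map_smul, LinearMap.smul_apply, smul_eq_mul] at h1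
    rw [e1, e2, e3] at h1
    have h2 := mul_nonneg (by positivity : 0 ≤ 1 / (4 * κ)) h1
    have e : 1 / (4 * κ) * (ip μ (ml (χ * χ * (g * g)) f) f +
        2 * κ * ip μ (ml (χ * χ * g) f) (Sop a b W f) +
        (2 * κ * ip μ (ml (χ * χ * g) f) (Sop a b W f) +
          2 * κ * (2 * κ * ip μ (ml (χ * χ) (Sop a b W f)) (Sop a b W f)))) =
        1 / (4 * κ) * ip μ (ml (χ * χ * (g * g)) f) f +
          ip μ (ml (χ * χ * g) f) (Sop a b W f) +
          κ * ip μ (ml (χ * χ) (Sop a b W f)) (Sop a b W f) := by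
      field_simp
      ring
    linarith
  have hs : 1 / 2 * ∑ i, (ip μ (ml (χ * χ * g) (Dm W (a i) f)) (Dm W (a i) f) +
        1 / 4 * ip μ (ml (χ * χ * g) (Dm W (b i) f)) (Dm W (b i) f)) ≤
      ∑ i, ((ip μ (ml (χ * χ * ((3 : ℝ) • (g * (ds (a i) W * ds (a i) W)) +
        g * ds (a i) (ds (a i) W) + (1 / 2 : ℝ) • ds (a i) (ds (a i) g) +
        (1 / 2 : ℝ) • (g * (ka i * ka i)))) f) f +
      7 / 2 * ip μ (ml (g * (ds (a i) χ * ds (a i) χ)) f) f -
        ip μ (ml (χ * χ * g) f) (Dp W (a i) (Dp W (a i) f))) +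
      1 / 4 * (ip μ (ml (χ * χ * ((3 : ℝ) • (g * (ds (b i) W * ds (b i) W)) +
        g * ds (b i) (ds (b i) W) + (1 / 2 : ℝ) • ds (b i) (ds (b i) g) +
        (1 / 2 : ℝ) • (g * (kb i * kb i)))) f) f +
      7 / 2 * ip μ (ml (g * (ds (b i) χ * ds (b i) χ)) f) f -
        ip μ (ml (χ * χ * g) f) (Dp W (b i) (Dp W (b i) f)))) := by
    rw [mul_sum]
    refine sum_le_sum fun i _ => ?_
    have h1 := one_chi μ W (a i) (χ := χ) hg (hka i) f
    have h2 := one_chi μ W (b i) (χ := χ) hg (hkb i) f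
    linarith
  refine hs.trans (le_of_eq_of_le ?_ (add_le_add_right hy
    (ip μ (ml (χ * χ * ((3 : ℝ) • (g * gw a b W) + g * Lp a b W + (1 / 2 : ℝ) • Lp a b g +
    (1 / 2 : ℝ) • (g * ∑ i, (ka i * ka i + (1 / 4 : ℝ) • (kb i * kb i))))) f) f +
      7 / 2 * ip μ (ml (g * gw a b χ) f) f)) |>.trans (le_of_eq ?_))
  · rw [Sop_apply]
    simp only [gw, Lp, mul_sum, smul_sum, map_add, map_sum, map_smul, LinearMap.add_apply,
      LinearMap.sum_apply, LinearMap.smul_apply, smul_eq_mul, mul_add, mul_smul_comm, smul_add,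
      sum_add_distrib, sum_sub_distrib, mul_sub, smul_smul]
    simp only [← sum_add_distrib, ← sum_sub_distrib]
    rw [← sum_neg_distrib]
    simp only [← sum_add_distrib]
    refine sum_congr rfl fun i _ => ?_
    ring
  · unfold Mc
    simp only [mul_add, mul_smul_comm, map_add, map_smul, LinearMap.add_apply,
      LinearMap.smul_apply, smul_eq_mul]
    ring

/-- The value of a sum. -/
theorem sum_app (f : ι → Sm E) (z : E) :
    ((∑ i, f i : Sm E) : E → ℝ) z = ∑ i, (f i : E → ℝ) z := by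
  rw [AddSubmonoidClass.coe_finsetSum, Finset.sum_apply]

/-- **The margin with a cut-off inside.** -/
theorem marg_chi {χ g : Sm E} (hg : ∀ z, 0 ≤ (g : E → ℝ) z) (ν : ι → Sm E) (c : TE E) :
    ip μ (ml (χ * χ * (mg b W g ν - (1 / 2 : ℝ) • (g * ∑ i, ν i * ν i))) c) c ≤
      ∑ i, ip μ (ml (χ * χ * g) (Dm W (b i) c)) (Dm W (b i) c) +
        2 * ip μ (ml (g * ∑ i, ds (b i) χ * ds (b i) χ) c) c := by
  have hχg : ∀ z, 0 ≤ ((χ * χ * g : Sm E) : E → ℝ) z := fun z =>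
    mul_nonneg (mul_self_nonneg _) (hg z)
  have h1 := sum_marg μ b W hχg ν c
  have e1 : mg b W (χ * χ * g) ν = χ * χ * mg b W g ν + g * ∑ i, ν i * ds (b i) (χ * χ) := by
    unfold mg
    rw [mul_sum, mul_sum, ← sum_add_distrib]
    refine sum_congr rfl fun i _ => ?_
    rw [mul_assoc (χ * χ) g, ds_mul]
    simp only [two_smul]
    ring
  have h2 : ip μ (ml (χ * χ * (mg b W g ν - (1 / 2 : ℝ) • (g * ∑ i, ν i * ν i))) c) c ≤
      ip μ (ml (mg b W (χ * χ * g) ν + (2 : ℝ) • (g * ∑ i, ds (b i) χ * ds (b i) χ)) c) c := by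
    refine ml_mono μ (fun z => ?_) c
    rw [e1]
    change (χ : E → ℝ) z * (χ : E → ℝ) z * ((mg b W g ν : E → ℝ) z -
      1 / 2 * ((g : E → ℝ) z * ((∑ i, ν i * ν i : Sm E) : E → ℝ) z)) ≤
      (χ : E → ℝ) z * (χ : E → ℝ) z * (mg b W g ν : E → ℝ) z +
      (g : E → ℝ) z * ((∑ i, ν i * ds (b i) (χ * χ) : Sm E) : E → ℝ) z +
      2 * ((g : E → ℝ) z * ((∑ i, ds (b i) χ * ds (b i) χ : Sm E) : E → ℝ) z)
    simp only [sum_app, ds_sq]
    have e3 : 0 ≤ (g : E → ℝ) z * ∑ i, ((χ : E → ℝ) z * (ν i : E → ℝ) z +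
        2 * (ds (b i) χ : E → ℝ) z) ^ 2 :=
      mul_nonneg (hg z) (sum_nonneg fun i _ => sq_nonneg _)
    have e4 : ∑ i, ((χ : E → ℝ) z * (ν i : E → ℝ) z + 2 * (ds (b i) χ : E → ℝ) z) ^ 2 =
        (χ : E → ℝ) z * (χ : E → ℝ) z * ∑ i, (ν i : E → ℝ) z * (ν i : E → ℝ) z +
        2 * ∑ i, (ν i : E → ℝ) z * (2 * ((χ : E → ℝ) z * (ds (b i) χ : E → ℝ) z)) +
        4 * ∑ i, (ds (b i) χ : E → ℝ) z * (ds (b i) χ : E → ℝ) z := by
      rw [mul_sum, mul_sum, mul_sum, ← sum_add_distrib, ← sum_add_distrib]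
      exact sum_congr rfl fun i _ => by ring
    rw [e4] at e3
    change (χ : E → ℝ) z * (χ : E → ℝ) z * ((mg b W g ν : E → ℝ) z -
      1 / 2 * ((g : E → ℝ) z * ∑ i, (ν i : E → ℝ) z * (ν i : E → ℝ) z)) ≤
      (χ : E → ℝ) z * (χ : E → ℝ) z * (mg b W g ν : E → ℝ) z +
      (g : E → ℝ) z * (∑ i, (ν i : E → ℝ) z * (2 * ((χ : E → ℝ) z *
        (ds (b i) χ : E → ℝ) z))) +
      2 * ((g : E → ℝ) z * ∑ i, (ds (b i) χ : E → ℝ) z * (ds (b i) χ : E → ℝ) z)
    nlinarith [e3]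
  refine h2.trans ?_
  simp only [map_add, LinearMap.add_apply, map_smul, LinearMap.smul_apply, smul_eq_mul]
  linarith

/-- **The margin of `c` with a cut-off inside**, all costs explicit. -/
theorem AW {χ g : Sm E} {ka kb : ι → Sm E} (hg : ∀ z, 0 ≤ (g : E → ℝ) z)
    (hka : ∀ i, ds (a i) g = g * ka i) (hkb : ∀ i, ds (b i) g = g * kb i)
    {κ : ℝ} (hκ : 0 < κ) (ν : ι → Sm E) (f c : TE E) :
    ip μ (ml (χ * χ * (mg b W g ν - (1 / 2 : ℝ) • (g * ∑ i, ν i * ν i))) c) c ≤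
      2 * ∑ i, ip μ (ml (χ * χ * g) (Y a b W f c i)) (Y a b W f c i) +
        16 * (ip μ (ml (χ * χ * Mc a b W g ka kb κ) f) f +
          7 / 2 * ip μ (ml (g * gw a b χ) f) f +
          κ * ip μ (ml (χ * χ) (Sop a b W f)) (Sop a b W f)) +
        2 * ip μ (ml (g * ∑ i, ds (b i) χ * ds (b i) χ) c) c := by
  have hχg : ∀ z, 0 ≤ ((χ * χ * g : Sm E) : E → ℝ) z := fun z =>
    mul_nonneg (mul_self_nonneg _) (hg z)
  have h1 := marg_chi μ b W (χ := χ) hg ν c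
  have h2 := sum_K_le μ a b W hχg one_pos f c
  have h3 := A1_chi μ a b W (χ := χ) hg hka hkb hκ f
  have h4 : ∑ i, ip μ (ml (χ * χ * g) (Dm W (a i) f)) (Dm W (a i) f) ≤
      ∑ i, (ip μ (ml (χ * χ * g) (Dm W (a i) f)) (Dm W (a i) f) +
        1 / 4 * ip μ (ml (χ * χ * g) (Dm W (b i) f)) (Dm W (b i) f)) := by
    refine sum_le_sum fun i _ => ?_
    have := ip_ml_nonneg μ hχg (Dm W (b i) f)
    linarith
  rw [show (4 : ℝ) * (1 + 1 / 1) = 8 by norm_num, show (1 : ℝ) + 1 = 2 by norm_num] at h2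
  linarith

end Vale.Agent.P088.R2.H321.C
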