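import Vale.Agent.P088.R2.H321.C.AIw3
import Vale.Agent.P088.R2.H321.C.AW0

/-!
# Zone C: the flat weight `φ(u) + e^u Φ(|x - y|²)`, `u = x_e + y_e`: all quantities of (AW)
-/

open MeasureTheory Finset
open scoped ContDiff

set_option linter.unusedSectionVars false

noncomputable section

namespace Vale.Agent.P088.R2.H321.C

open Vale.Agent.P088.R2.H464.EP
open Vale.Agent.P088.LR Vale.Agent.P088.HY Vale.Agent.P088.R2.H644

variable {n : ℕ}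

/-- The data of the flat weight. -/
structure Du (n : ℕ) where
  /-- the normal direction -/
  e : Fin n
  /-- the slope function and its derivatives -/
  φ : ℝ → ℝ
  φ₁ : ℝ → ℝ
  φ₂ : ℝ → ℝ
  φ₃ : ℝ → ℝ
  /-- the profile and its derivatives -/
  Φ : ℝ → ℝ
  Φ₁ : ℝ → ℝ
  Φ₂ : ℝ → ℝ
  cφ : ContDiff ℝ ∞ φ
  cφ₁ : ContDiff ℝ ∞ φ₁
  cφ₂ : ContDiff ℝ ∞ φ₂
  cφ₃ : ContDiff ℝ ∞ φ₃
  cΦ : ContDiff ℝ ∞ Φ
  cΦ₁ : ContDiff ℝ ∞ Φ₁
  cΦ₂ : ContDiff ℝ ∞ Φ₂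
  d1 : ∀ s, HasDerivAt φ (φ₁ s) s
  d2 : ∀ s, HasDerivAt φ₁ (φ₂ s) s
  d3 : ∀ s, HasDerivAt φ₂ (φ₃ s) s
  D1 : ∀ s, HasDerivAt Φ (Φ₁ s) s
  D2 : ∀ s, HasDerivAt Φ₁ (Φ₂ s) s

/-- `u = x_e + y_e`. -/
def uu (e : Fin n) (z : VV n) : ℝ := z.1 e + z.2 e

theorem contDiff_uu (e : Fin n) : ContDiff ℝ ∞ (uu e : VV n → ℝ) :=
  (contDiff_fst' e).add (contDiff_snd' e)

theorem HD_uu (e : Fin n) (v z : VV n) : HD v (uu e) (v.1 e + v.2 e) z :=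
  (HD.fst v z e).add (HD.snd v z e)

namespace Du

variable (A : Du n)

/-- A function of `u`. -/
def fu {f : ℝ → ℝ} (hf : ContDiff ℝ ∞ f) : Sm (VV n) := ⟨fun z => f (uu A.e z),
  hf.comp (contDiff_uu A.e)⟩

theorem a_fu {f f' : ℝ → ℝ} (hf : ContDiff ℝ ∞ f) (h : ∀ s, HasDerivAt f (f' s) s)
    (i : Fin n) : ds (av n i) (A.fu hf) = 0 := by
  ext z
  rw [ds_of (fun _ => rfl) (HD.comp (h _) (HD_uu A.e (av n i) z)), av1, av2]
  change _ = (0 : ℝ)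
  ring

theorem b_fu {f f' : ℝ → ℝ} (hf : ContDiff ℝ ∞ f) (hf' : ContDiff ℝ ∞ f')
    (h : ∀ s, HasDerivAt f (f' s) s) (i : Fin n) :
    ds (bv n i) (A.fu hf) = (2 * de A.e i) • A.fu hf' := by
  ext z
  rw [ds_of (fun _ => rfl) (HD.comp (h _) (HD_uu A.e (bv n i) z)), bv1, bv2]
  change _ = 2 * de A.e i * f' (uu A.e z)
  ring

/-- `E`. -/
def En : Sm (VV n) := ⟨Ee A.e 1, contDiff_Ee A.e 1⟩

/-- `1 / E`. -/
def Ei : Sm (VV n) := ⟨Ee A.e (-1), contDiff_Ee A.e (-1)⟩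

/-- `N`. -/
def N : Sm (VV n) := A.fu A.cφ₁

/-- `K`. -/
def K : Sm (VV n) := A.fu A.cφ₂

/-- `K'`. -/
def K' : Sm (VV n) := A.fu A.cφ₃

/-- The weight. -/
def W : Sm (VV n) := A.fu A.cφ + A.En * ⟨fun z => A.Φ (qq z), contDiff_rad A.cΦ⟩

/-- `h = 1/E + |x - y|² + N²/E²`. -/
def h : Sm (VV n) := A.Ei + Da.Q + A.N * A.N * (A.Ei * A.Ei)

theorem h_apply (z : VV n) : (A.h : VV n → ℝ) z = Ee A.e (-1) z + qq z +
    (A.N : VV n → ℝ) z * (A.N : VV n → ℝ) z * (Ee A.e (-1) z * Ee A.e (-1) z) := rfl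

theorem Ei_En (z : VV n) : Ee A.e (-1) z * Ee A.e 1 z = 1 := by
  unfold Ee
  rw [← Real.exp_add]
  simp

theorem h_pos (z : VV n) : 0 < (A.h : VV n → ℝ) z := by
  rw [h_apply]
  have h1 := Ee_pos A.e (-1) z
  have h2 := qq_nonneg z
  have h3 := mul_self_nonneg ((A.N : VV n → ℝ) z)
  positivity

/-- The weight `g = 1 / h`. -/
def g : Sm (VV n) := ⟨fun z => ((A.h : VV n → ℝ) z)⁻¹,
  (scd A.h).inv fun z => (A.h_pos z).ne'⟩

theorem g_apply (z : VV n) : (A.g : VV n → ℝ) z = ((A.h : VV n → ℝ) z)⁻¹ := rfl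

theorem g_pos (z : VV n) : 0 < (A.g : VV n → ℝ) z := inv_pos.2 (A.h_pos z)

/-- Derivative of `g`. -/
theorem dg (v : VV n) : ds v A.g = A.g * (-(A.g * ds v A.h)) := by
  ext z
  have h1 : (ds v A.g : VV n → ℝ) z = -dd v (A.h : VV n → ℝ) z / (A.h : VV n → ℝ) z ^ 2 :=
    dd_inv (sdf A.h z) (A.h_pos z).ne'
  rw [h1]
  change _ = (A.g : VV n → ℝ) z * (-((A.g : VV n → ℝ) z * (ds v A.h : VV n → ℝ) z))
  rw [g_apply, ds_dd]
  have := (A.h_pos z).ne'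
  field_simp

/-- Second derivative of `g`. -/
theorem ddg (v : VV n) : ds v (ds v A.g) =
    (2 : ℝ) • (A.g * A.g * A.g * (ds v A.h * ds v A.h)) - A.g * A.g * ds v (ds v A.h) := by
  rw [dg, ds_mul, map_neg, ds_mul, dg, two_smul]
  ring

theorem a_En (i : Fin n) : ds (av n i) A.En = 0 := by
  ext z
  have := (HD.Ee (av n i) z A.e 1).e
  rw [ds_dd]
  change dd (av n i) (Ee A.e 1) z = (0 : ℝ)
  rw [this, av1, av2]
  ring

theorem b_En (i : Fin n) : ds (bv n i) A.En = (2 * de A.e i) • A.En := by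
  ext z
  have := (HD.Ee (bv n i) z A.e 1).e
  rw [ds_dd]
  change dd (bv n i) (Ee A.e 1) z = 2 * de A.e i * Ee A.e 1 z
  rw [this, bv1, bv2]
  ring

theorem a_Ei (i : Fin n) : ds (av n i) A.Ei = 0 := by
  ext z
  have := (HD.Ee (av n i) z A.e (-1)).e
  rw [ds_dd]
  change dd (av n i) (Ee A.e (-1)) z = (0 : ℝ)
  rw [this, av1, av2]
  ring

theorem b_Ei (i : Fin n) : ds (bv n i) A.Ei = (-2 * de A.e i) • A.Ei := by
  ext z
  have := (HD.Ee (bv n i) z A.e (-1)).e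
  rw [ds_dd]
  change dd (bv n i) (Ee A.e (-1)) z = -2 * de A.e i * Ee A.e (-1) z
  rw [this, bv1, bv2]
  ring

theorem a_N (i : Fin n) : ds (av n i) A.N = 0 := A.a_fu A.cφ₁ A.d2 i

theorem b_N (i : Fin n) : ds (bv n i) A.N = (2 * de A.e i) • A.K := A.b_fu A.cφ₁ A.cφ₂ A.d2 i

theorem b_K (i : Fin n) : ds (bv n i) A.K = (2 * de A.e i) • A.K' := A.b_fu A.cφ₂ A.cφ₃ A.d3 i

/-- `Φ(|x - y|²)` and its derivatives. -/
def P0 : Sm (VV n) := ⟨fun z => A.Φ (qq z), contDiff_rad A.cΦ⟩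

def P1 : Sm (VV n) := ⟨fun z => A.Φ₁ (qq z), contDiff_rad A.cΦ₁⟩

def P2 : Sm (VV n) := ⟨fun z => A.Φ₂ (qq z), contDiff_rad A.cΦ₂⟩

theorem a_P0 (i : Fin n) : ds (av n i) A.P0 = (2 : ℝ) • (A.P1 * Da.qi i) := by
  ext z
  rw [ds_of (fun _ => rfl) (HD.rad (A.D1 _)), dd_a_qq]
  change _ = 2 * (A.Φ₁ (qq z) * qv i z)
  ring

theorem a_P1 (i : Fin n) : ds (av n i) A.P1 = (2 : ℝ) • (A.P2 * Da.qi i) := by
  ext z
  rw [ds_of (fun _ => rfl) (HD.rad (A.D2 _)), dd_a_qq]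
  change _ = 2 * (A.Φ₂ (qq z) * qv i z)
  ring

theorem b_P0 (i : Fin n) : ds (bv n i) A.P0 = 0 := by
  ext z
  rw [ds_of (fun _ => rfl) (HD.rad (A.D1 _)), dd_b_qq]
  change _ = (0 : ℝ)
  ring

theorem W_eq : A.W = A.fu A.cφ + A.En * A.P0 := rfl

/-- `∂_p W = 2 (N + E Φ)` in the normal direction. -/
def V : Sm (VV n) := (2 : ℝ) • (A.N + A.En * A.P0)

/-- `∂_q W`. -/
theorem a_W (i : Fin n) : ds (av n i) A.W = (2 : ℝ) • (A.En * (A.P1 * Da.qi i)) := by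
  rw [W_eq, map_add, A.a_fu A.cφ A.d1, ds_mul, a_En, a_P0, zero_mul, zero_add, zero_add,
    mul_smul_comm]

/-- `∂_p W`. -/
theorem b_W (i : Fin n) : ds (bv n i) A.W = de A.e i • A.V := by
  rw [W_eq, map_add, A.b_fu A.cφ A.cφ₁ A.d1, ds_mul, b_En, b_P0, mul_zero, add_zero]
  ext z
  change 2 * de A.e i * (A.N : VV n → ℝ) z +
    2 * de A.e i * (A.En : VV n → ℝ) z * (A.P0 : VV n → ℝ) z =
    de A.e i * (2 * ((A.N : VV n → ℝ) z + (A.En : VV n → ℝ) z * (A.P0 : VV n → ℝ) z))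
  ring

theorem b_V (i : Fin n) : ds (bv n i) A.V =
    (4 * de A.e i) • (A.K + A.En * A.P0) := by
  rw [V, map_smul, map_add, ds_mul, b_N, b_En, b_P0, mul_zero, add_zero]
  ext z
  change 2 * (2 * de A.e i * (A.K : VV n → ℝ) z +
    2 * de A.e i * (A.En : VV n → ℝ) z * (A.P0 : VV n → ℝ) z) =
    4 * de A.e i * ((A.K : VV n → ℝ) z + (A.En : VV n → ℝ) z * (A.P0 : VV n → ℝ) z)
  ring

/-- `L W`. -/
theorem Lp_W (z : VV n) : (Lp (av n) (bv n) A.W : VV n → ℝ) z =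
    (A.K : VV n → ℝ) z + (A.En : VV n → ℝ) z * (4 * ((A.P2 : VV n → ℝ) z * qq z) +
      2 * n * (A.P1 : VV n → ℝ) z + (A.P0 : VV n → ℝ) z) := by
  have key : ∀ i, ((ds (av n i) (ds (av n i) A.W) +
      (1 / 4 : ℝ) • ds (bv n i) (ds (bv n i) A.W) : Sm (VV n)) : VV n → ℝ) z =
      de A.e i * ((A.K : VV n → ℝ) z + (A.En : VV n → ℝ) z * (A.P0 : VV n → ℝ) z) +
        (A.En : VV n → ℝ) z * (4 * ((A.P2 : VV n → ℝ) z * qv i z ^ 2) +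
          2 * (A.P1 : VV n → ℝ) z) := by
    intro i
    rw [b_W, map_smul, b_V, a_W, map_smul, ds_mul, ds_mul, a_En, a_P1, Da.a_qi, zero_mul,
      zero_add]
    change 2 * ((A.En : VV n → ℝ) z * (2 * ((A.P2 : VV n → ℝ) z * qv i z) * qv i z +
        (A.P1 : VV n → ℝ) z * 1)) +
      1 / 4 * (de A.e i * (4 * de A.e i * ((A.K : VV n → ℝ) z +
        (A.En : VV n → ℝ) z * (A.P0 : VV n → ℝ) z))) = _
    linear_combination (((A.K : VV n → ℝ) z) +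
      ((A.En : VV n → ℝ) z * (A.P0 : VV n → ℝ) z)) * de_sq A.e i
  unfold Lp
  rw [sum_app]
  simp only [key]
  rw [sum_add_distrib, ← sum_mul, sum_de1, ← mul_sum, sum_add_distrib, ← mul_sum, ← mul_sum,
    ← qq_eq, sum_const, card_univ, Fintype.card_fin]
  simp only [nsmul_eq_mul]
  ring

/-- `|dW|²`. -/
theorem gw_apply (z : VV n) : (gw (av n) (bv n) A.W : VV n → ℝ) z =
      4 * ((A.En : VV n → ℝ) z * (A.P1 : VV n → ℝ) z) ^ 2 * qq z +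
      1 / 4 * (A.V : VV n → ℝ) z ^ 2 := by
  have key : ∀ i, ((ds (av n i) A.W * ds (av n i) A.W +
      (1 / 4 : ℝ) • (ds (bv n i) A.W * ds (bv n i) A.W) : Sm (VV n)) : VV n → ℝ) z =
      de A.e i * (1 / 4 * (A.V : VV n → ℝ) z ^ 2) +
        4 * ((A.En : VV n → ℝ) z * (A.P1 : VV n → ℝ) z) ^ 2 * qv i z ^ 2 := by
    intro i
    rw [b_W, a_W]
    change 2 * ((A.En : VV n → ℝ) z * ((A.P1 : VV n → ℝ) z * qv i z)) *
      (2 * ((A.En : VV n → ℝ) z * ((A.P1 : VV n → ℝ) z * qv i z))) +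
      1 / 4 * (de A.e i * (A.V : VV n → ℝ) z * (de A.e i * (A.V : VV n → ℝ) z)) = _
    linear_combination (1 / 4 * (A.V : VV n → ℝ) z ^ 2) * de_sq A.e i
  unfold gw
  rw [sum_app]
  simp only [key]
  rw [sum_add_distrib, ← sum_mul, sum_de1, ← mul_sum, ← qq_eq]
  ring

/-- `∂_p h` in the normal direction. -/
def B (z : VV n) : ℝ :=
  -2 * (A.Ei : VV n → ℝ) z + 4 * ((A.N : VV n → ℝ) z * (A.K : VV n → ℝ) z) *
    (A.Ei : VV n → ℝ) z ^ 2 - 4 * (A.N : VV n → ℝ) z ^ 2 * (A.Ei : VV n → ℝ) z ^ 2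

theorem a_h (i : Fin n) : ds (av n i) A.h = (2 : ℝ) • Da.qi i := by
  rw [h, map_add, map_add, ds_mul, ds_mul, ds_mul, a_Ei, Da.a_Q, a_N]
  simp

theorem b_h (i : Fin n) : ds (bv n i) A.h =
    de A.e i • ((-2 : ℝ) • A.Ei + (4 : ℝ) • (A.N * A.K * (A.Ei * A.Ei)) -
      (4 : ℝ) • (A.N * A.N * (A.Ei * A.Ei))) := by
  rw [h, map_add, map_add, ds_mul, ds_mul, ds_mul, b_Ei, Da.b_Q, b_N]
  ext z
  change -2 * de A.e i * (A.Ei : VV n → ℝ) z + 0 +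
    ((2 * de A.e i * (A.K : VV n → ℝ) z * (A.N : VV n → ℝ) z +
      (A.N : VV n → ℝ) z * (2 * de A.e i * (A.K : VV n → ℝ) z)) *
        ((A.Ei : VV n → ℝ) z * (A.Ei : VV n → ℝ) z) +
      (A.N : VV n → ℝ) z * (A.N : VV n → ℝ) z *
        (-2 * de A.e i * (A.Ei : VV n → ℝ) z * (A.Ei : VV n → ℝ) z +
          (A.Ei : VV n → ℝ) z * (-2 * de A.e i * (A.Ei : VV n → ℝ) z))) =
    de A.e i * (-2 * (A.Ei : VV n → ℝ) z +
      4 * ((A.N : VV n → ℝ) z * (A.K : VV n → ℝ) z *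
        ((A.Ei : VV n → ℝ) z * (A.Ei : VV n → ℝ) z)) -
      4 * ((A.N : VV n → ℝ) z * (A.N : VV n → ℝ) z *
        ((A.Ei : VV n → ℝ) z * (A.Ei : VV n → ℝ) z)))
  ring

theorem b_h_apply (i : Fin n) (z : VV n) :
    (ds (bv n i) A.h : VV n → ℝ) z = de A.e i * A.B z := by
  rw [b_h]
  change de A.e i * (-2 * (A.Ei : VV n → ℝ) z +
      4 * ((A.N : VV n → ℝ) z * (A.K : VV n → ℝ) z *
        ((A.Ei : VV n → ℝ) z * (A.Ei : VV n → ℝ) z)) -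
      4 * ((A.N : VV n → ℝ) z * (A.N : VV n → ℝ) z *
        ((A.Ei : VV n → ℝ) z * (A.Ei : VV n → ℝ) z))) = _
  unfold B
  ring

theorem aa_h (i : Fin n) (z : VV n) : (ds (av n i) (ds (av n i) A.h) : VV n → ℝ) z = 2 := by
  rw [a_h, map_smul, Da.a_qi]
  change 2 * (1 : ℝ) = 2
  norm_num

/-- `∂_p² h` in the normal direction. -/
def BB (z : VV n) : ℝ :=
  4 * (A.Ei : VV n → ℝ) z + (8 * (A.K : VV n → ℝ) z ^ 2 +
    8 * ((A.N : VV n → ℝ) z * (A.K' : VV n → ℝ) z) -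
    32 * ((A.N : VV n → ℝ) z * (A.K : VV n → ℝ) z) + 16 * (A.N : VV n → ℝ) z ^ 2) *
      (A.Ei : VV n → ℝ) z ^ 2

theorem bb_h (i : Fin n) (z : VV n) : (ds (bv n i) (ds (bv n i) A.h) : VV n → ℝ) z =
    de A.e i * A.BB z := by
  rw [b_h, map_smul, map_sub, map_add, map_smul, map_smul, map_smul]
  rw [ds_mul (bv n i) (A.N * A.K), ds_mul (bv n i) (A.N * A.N), ds_mul (bv n i) A.N A.K,
    ds_mul (bv n i) A.N A.N, ds_mul (bv n i) A.Ei A.Ei, b_Ei, b_N, b_K]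
  change de A.e i * (-2 * (-2 * de A.e i * (A.Ei : VV n → ℝ) z) +
    4 * ((2 * de A.e i * (A.K : VV n → ℝ) z * (A.K : VV n → ℝ) z +
      (A.N : VV n → ℝ) z * (2 * de A.e i * (A.K' : VV n → ℝ) z)) *
        ((A.Ei : VV n → ℝ) z * (A.Ei : VV n → ℝ) z) +
      (A.N : VV n → ℝ) z * (A.K : VV n → ℝ) z *
        (-2 * de A.e i * (A.Ei : VV n → ℝ) z * (A.Ei : VV n → ℝ) z +
          (A.Ei : VV n → ℝ) z * (-2 * de A.e i * (A.Ei : VV n → ℝ) z))) -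
    4 * ((2 * de A.e i * (A.K : VV n → ℝ) z * (A.N : VV n → ℝ) z +
      (A.N : VV n → ℝ) z * (2 * de A.e i * (A.K : VV n → ℝ) z)) *
        ((A.Ei : VV n → ℝ) z * (A.Ei : VV n → ℝ) z) +
      (A.N : VV n → ℝ) z * (A.N : VV n → ℝ) z *
        (-2 * de A.e i * (A.Ei : VV n → ℝ) z * (A.Ei : VV n → ℝ) z +
          (A.Ei : VV n → ℝ) z * (-2 * de A.e i * (A.Ei : VV n → ℝ) z)))) = _
  unfold BB
  linear_combination (4 * (A.Ei : VV n → ℝ) z + (8 * (A.K : VV n → ℝ) z ^ 2 +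
    8 * ((A.N : VV n → ℝ) z * (A.K' : VV n → ℝ) z) -
    32 * ((A.N : VV n → ℝ) z * (A.K : VV n → ℝ) z) + 16 * (A.N : VV n → ℝ) z ^ 2) *
      (A.Ei : VV n → ℝ) z ^ 2) * de_sq A.e i

/-- `L g`. -/
theorem Lp_g (z : VV n) : (Lp (av n) (bv n) A.g : VV n → ℝ) z =
    8 * (A.g : VV n → ℝ) z ^ 3 * qq z - 2 * n * (A.g : VV n → ℝ) z ^ 2 +
    1 / 4 * (2 * (A.g : VV n → ℝ) z ^ 3 * A.B z ^ 2 - (A.g : VV n → ℝ) z ^ 2 * A.BB z) := by
  have key : ∀ i, ((ds (av n i) (ds (av n i) A.g) +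
      (1 / 4 : ℝ) • ds (bv n i) (ds (bv n i) A.g) : Sm (VV n)) : VV n → ℝ) z =
      8 * (A.g : VV n → ℝ) z ^ 3 * qv i z ^ 2 + de A.e i * (
    1 / 4 * (2 * (A.g : VV n → ℝ) z ^ 3 * A.B z ^ 2 - (A.g : VV n → ℝ) z ^ 2 * A.BB z)) -
      2 * (A.g : VV n → ℝ) z ^ 2 := by
    intro i
    have h1 := A.aa_h i z
    have h2 := A.bb_h i z
    have h3 := A.b_h_apply i z
    rw [ddg, ddg, a_h]
    rw [a_h] at h1
    generalize hX : (ds (av n i) ((2 : ℝ) • Da.qi i) : Sm (VV n)) = X at h1 ⊢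
    change 2 * ((A.g : VV n → ℝ) z * (A.g : VV n → ℝ) z * (A.g : VV n → ℝ) z *
        (2 * qv i z * (2 * qv i z))) -
      (A.g : VV n → ℝ) z * (A.g : VV n → ℝ) z * (X : VV n → ℝ) z +
      1 / 4 * (2 * ((A.g : VV n → ℝ) z * (A.g : VV n → ℝ) z * (A.g : VV n → ℝ) z *
        ((ds (bv n i) A.h : VV n → ℝ) z * (ds (bv n i) A.h : VV n → ℝ) z)) -
      (A.g : VV n → ℝ) z * (A.g : VV n → ℝ) z *
        (ds (bv n i) (ds (bv n i) A.h) : VV n → ℝ) z) = _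
    rw [h1, h2, h3]
    linear_combination (1 / 2 * (A.g : VV n → ℝ) z ^ 3 * A.B z ^ 2) * de_sq A.e i
  unfold Lp
  rw [sum_app]
  simp only [key]
  rw [sum_sub_distrib, sum_add_distrib, ← sum_mul, sum_de1, ← mul_sum, ← qq_eq, sum_const,
    card_univ, Fintype.card_fin, nsmul_eq_mul]
  ring

/-- The logarithmic derivatives of `g`. -/
def ka (i : Fin n) : Sm (VV n) := -(A.g * ds (av n i) A.h)

def kb (i : Fin n) : Sm (VV n) := -(A.g * ds (bv n i) A.h)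

/-- `|d log g|²`. -/
theorem kk_apply (z : VV n) :
    ((∑ i, (A.ka i * A.ka i + (1 / 4 : ℝ) • (A.kb i * A.kb i)) : Sm (VV n)) : VV n → ℝ) z =
      4 * (A.g : VV n → ℝ) z ^ 2 * qq z + 1 / 4 * (A.g : VV n → ℝ) z ^ 2 * A.B z ^ 2 := by
  have key : ∀ i, ((A.ka i * A.ka i + (1 / 4 : ℝ) • (A.kb i * A.kb i) : Sm (VV n)) :
      VV n → ℝ) z = 4 * (A.g : VV n → ℝ) z ^ 2 * qv i z ^ 2 +
        de A.e i * (1 / 4 * (A.g : VV n → ℝ) z ^ 2 * A.B z ^ 2) := by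
    intro i
    have h3 := A.b_h_apply i z
    unfold ka kb
    rw [a_h]
    change -((A.g : VV n → ℝ) z * (2 * qv i z)) * -((A.g : VV n → ℝ) z * (2 * qv i z)) +
      1 / 4 * (-((A.g : VV n → ℝ) z * (ds (bv n i) A.h : VV n → ℝ) z) *
        -((A.g : VV n → ℝ) z * (ds (bv n i) A.h : VV n → ℝ) z)) = _
    rw [h3]
    linear_combination (1 / 4 * (A.g : VV n → ℝ) z ^ 2 * A.B z ^ 2) * de_sq A.e i
  rw [sum_app]
  simp only [key]
  rw [sum_add_distrib, ← sum_mul, sum_de1, ← mul_sum, ← qq_eq]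
  ring

/-- The fields `ν_i = ∂_{p_i} W`. -/
def νf (i : Fin n) : Sm (VV n) := de A.e i • A.V

theorem b_g (i : Fin n) (z : VV n) : (ds (bv n i) A.g : VV n → ℝ) z =
    -((A.g : VV n → ℝ) z ^ 2 * (de A.e i * A.B z)) := by
  rw [dg]
  change (A.g : VV n → ℝ) z * (-((A.g : VV n → ℝ) z * (ds (bv n i) A.h : VV n → ℝ) z)) = _
  rw [b_h_apply]
  ring

/-- The margin function, exactly. -/
theorem mg_eq (z : VV n) : (mg (bv n) A.W A.g A.νf : VV n → ℝ) z =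
    -((A.g : VV n → ℝ) z ^ 2 * A.B z * (A.V : VV n → ℝ) z) +
      4 * (A.g : VV n → ℝ) z * ((A.K : VV n → ℝ) z +
        (A.En : VV n → ℝ) z * (A.P0 : VV n → ℝ) z) +
      (A.g : VV n → ℝ) z * (A.V : VV n → ℝ) z ^ 2 := by
  have key : ∀ i, ((ds (bv n i) (A.g * A.νf i) + (2 : ℝ) • (A.g * A.νf i * ds (bv n i) A.W) -
      A.g * A.νf i * A.νf i : Sm (VV n)) : VV n → ℝ) z = de A.e i *
      (-((A.g : VV n → ℝ) z ^ 2 * A.B z * (A.V : VV n → ℝ) z) +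
      4 * (A.g : VV n → ℝ) z * ((A.K : VV n → ℝ) z +
        (A.En : VV n → ℝ) z * (A.P0 : VV n → ℝ) z) +
      (A.g : VV n → ℝ) z * (A.V : VV n → ℝ) z ^ 2) := by
    intro i
    rw [b_W, νf, ds_mul, map_smul, b_V]
    change (ds (bv n i) A.g : VV n → ℝ) z * (de A.e i * (A.V : VV n → ℝ) z) +
      (A.g : VV n → ℝ) z * (de A.e i * (4 * de A.e i * ((A.K : VV n → ℝ) z +
        (A.En : VV n → ℝ) z * (A.P0 : VV n → ℝ) z))) +
      2 * ((A.g : VV n → ℝ) z * (de A.e i * (A.V : VV n → ℝ) z) *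
        (de A.e i * (A.V : VV n → ℝ) z)) -
      (A.g : VV n → ℝ) z * (de A.e i * (A.V : VV n → ℝ) z) * (de A.e i * (A.V : VV n → ℝ) z) = _
    rw [b_g]
    linear_combination (-((A.g : VV n → ℝ) z ^ 2 * A.B z * (A.V : VV n → ℝ) z) +
      4 * (A.g : VV n → ℝ) z * ((A.K : VV n → ℝ) z +
        (A.En : VV n → ℝ) z * (A.P0 : VV n → ℝ) z) +
      (A.g : VV n → ℝ) z * (A.V : VV n → ℝ) z ^ 2) * de_sq A.e i
  unfold mg
  rw [sum_app]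
  simp only [key]
  rw [← sum_mul, sum_de1, one_mul]

theorem sum_ν (z : VV n) : ((∑ i, A.νf i * A.νf i : Sm (VV n)) : VV n → ℝ) z =
    (A.V : VV n → ℝ) z ^ 2 := by
  have key : ∀ i, ((A.νf i * A.νf i : Sm (VV n)) : VV n → ℝ) z =
      de A.e i * (A.V : VV n → ℝ) z ^ 2 := by
    intro i
    change de A.e i * (A.V : VV n → ℝ) z * (de A.e i * (A.V : VV n → ℝ) z) = _
    linear_combination (A.V : VV n → ℝ) z ^ 2 * de_sq A.e i
  rw [sum_app]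
  simp only [key]
  rw [← sum_mul, sum_de1, one_mul]

end Du

end Vale.Agent.P088.R2.H321.C
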