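import Vale.Agent.P088.R2.H321.C.AW1

/-!
# Zone C: the pointwise bounds of (AW)
-/

open MeasureTheory Finset
open scoped ContDiff

set_option linter.unusedSectionVars false

noncomputable section

namespace Vale.Agent.P088.R2.H321.C

open Vale.Agent.P088.R2.H464.EP
open Vale.Agent.P088.LR Vale.Agent.P088.HY Vale.Agent.P088.R2.H644

variable {n : ℕ}

namespace Du

variable (A : Du n)

/-- The pointwise hypotheses. -/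
structure Rg (C₃ CΦ : ℝ) (z : VV n) : Prop where
  E1 : 1 ≤ Ee A.e 1 z
  N0 : 0 ≤ A.φ₁ (uu A.e z)
  K0 : 0 ≤ A.φ₂ (uu A.e z)
  KN : A.φ₂ (uu A.e z) ≤ A.φ₁ (uu A.e z)
  KE : A.φ₂ (uu A.e z) ≤ Ee A.e 1 z
  kc : |A.φ₃ (uu A.e z)| ≤ C₃ * A.φ₂ (uu A.e z)
  s1 : qq z ≤ 1
  b0 : 0 ≤ A.Φ (qq z)
  b0' : A.Φ (qq z) ≤ CΦ * qq z
  b1 : |A.Φ₁ (qq z)| ≤ CΦ
  b2 : |A.Φ₂ (qq z)| ≤ CΦ

variable {A} {C₃ CΦ : ℝ} {z : VV n}

/-- The values at a point as real numbers. -/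
theorem vals (h : A.Rg C₃ CΦ z) : ∃ G u E s N K K' P0 P1 P2 V : ℝ,
    (A.g : VV n → ℝ) z = G ∧ (A.Ei : VV n → ℝ) z = u ∧ (A.En : VV n → ℝ) z = E ∧ qq z = s ∧
    (A.N : VV n → ℝ) z = N ∧ (A.K : VV n → ℝ) z = K ∧ (A.K' : VV n → ℝ) z = K' ∧
    (A.P0 : VV n → ℝ) z = P0 ∧
    (A.P1 : VV n → ℝ) z = P1 ∧ (A.P2 : VV n → ℝ) z = P2 ∧ (A.V : VV n → ℝ) z = V ∧
    0 < G ∧ 0 < u ∧ 1 ≤ E ∧ u * E = 1 ∧ G * (u + s + N ^ 2 * u ^ 2) = 1 ∧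
    0 ≤ s ∧ s ≤ 1 ∧ 0 ≤ N ∧ 0 ≤ K ∧ K ≤ N ∧ K ≤ E ∧
    |K'| ≤ C₃ * K ∧ 0 ≤ P0 ∧ P0 ≤ CΦ * s ∧ |P1| ≤ CΦ ∧ |P2| ≤ CΦ ∧
    V = 2 * (N + E * P0) := by
  refine ⟨_, _, _, _, _, _, _, _, _, _, _, rfl, rfl, rfl, rfl, rfl, rfl, rfl, rfl, rfl,
    rfl, rfl, A.g_pos z, Ee_pos _ _ _, h.E1, Ei_En A z, ?_, qq_nonneg z, h.s1,
    h.N0, h.K0, h.KN, h.KE, h.kc, h.b0, h.b0', h.b1, h.b2, rfl⟩
  rw [A.g_apply, show (A.Ei : VV n → ℝ) z + qq z + (A.N : VV n → ℝ) z ^ 2 *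
    (A.Ei : VV n → ℝ) z ^ 2 = (A.h : VV n → ℝ) z by
      rw [A.h_apply]
      change Ee A.e (-1) z + qq z + (A.N : VV n → ℝ) z ^ 2 * Ee A.e (-1) z ^ 2 = _
      ring]
  exact inv_mul_cancel₀ (A.h_pos z).ne'

open Da in
/-- **The pointwise bound of the weight `M`.** -/
theorem Mc_le (h : A.Rg C₃ CΦ z) (h3 : 0 ≤ C₃) (hC : 0 ≤ CΦ) {κ : ℝ} (hκ : 0 < κ) :
    (Mc (av n) (bv n) A.W A.g A.ka A.kb κ : VV n → ℝ) z ≤
      (30 + 30 * CΦ ^ 2 + CΦ * (2 * n + 5) + C₃ + 1 / (4 * κ)) * (A.En : VV n → ℝ) z ^ 2 := by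
  have e0 : (Mc (av n) (bv n) A.W A.g A.ka A.kb κ : VV n → ℝ) z =
      3 * ((A.g : VV n → ℝ) z * (gw (av n) (bv n) A.W : VV n → ℝ) z) +
      (A.g : VV n → ℝ) z * (Lp (av n) (bv n) A.W : VV n → ℝ) z +
      1 / 2 * (Lp (av n) (bv n) A.g : VV n → ℝ) z +
      1 / 2 * ((A.g : VV n → ℝ) z * ((∑ i, (A.ka i * A.ka i +
        (1 / 4 : ℝ) • (A.kb i * A.kb i)) : Sm (VV n)) : VV n → ℝ) z) +
      1 / (4 * κ) * ((A.g : VV n → ℝ) z * (A.g : VV n → ℝ) z) := rfl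
  rw [e0, gw_apply, Lp_W, Lp_g, kk_apply]
  obtain ⟨G, u, E, s, N, K, K', P0, P1, P2, V, e1, e2, e3, e4, e5, e6, e7, e8, e9, e10,
    e11, hG, hu, hE, huE, hGh, hs, hs1, hN, hK, hKN, hKE, hKc, hP0, hP0', hP1, hP2, hV⟩ := vals h
  unfold B BB
  rw [e1, e2, e3, e4, e5, e6, e7, e8, e9, e10, e11]
  have hGE := r_gE hG hu hs hE huE hGh
  have hGE2 : G ^ 2 ≤ E ^ 2 := pow_le_pow_left₀ hG.le hGE 2
  have hEE : E ≤ E ^ 2 := by nlinarith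
  have hGE3 : G ≤ E ^ 2 := hGE.trans hEE
  have g1 := r_gs hG hu hGh
  have g2 := r_gn hG hu hs hGh
  have a1 := r_gw2 (M := 0) (q := 0) hG hu huE hGh hs hs1 (by simpa using hN) hP0 hP0' hP1 hV
    (by simpa using hs)
  have a2 := r_LW (n := n) (C₁ := 1) (Nb := K) hG hGE hE hs hs1 hK (by linarith) hP0' hP1 hP2 hC
  have hNbN : 2 * K ≤ 2 * N := by linarith
  have hNb : 0 ≤ 2 * K := by linarith
  have hNc : |4 * K'| ≤ 2 * C₃ * (2 * K) := by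
    rw [abs_mul, abs_of_pos (by norm_num : (0 : ℝ) < 4)]
    linarith
  have hNN := r_NN (u := u) hN hNbN
  have hNNc := r_NNc (u := u) hN hNbN hNc (by positivity)
  have hG2 := r_G2 hG g2
  have t3 := r_t3 hG hu hN hNb (r_gu hG hu hs hGh) hNN
  have t4 := r_t4 hu hNN hNNc (by positivity) hG2
  have t5 : G ^ 3 * s ≤ G ^ 2 := by
    have := mul_le_mul_of_nonneg_left g1 (sq_nonneg G)
    have e : G ^ 2 * (G * s) = G ^ 3 * s := by ring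
    linarith
  have hn : (0 : ℝ) ≤ n := Nat.cast_nonneg _
  have t6 : 0 ≤ 2 * n * G ^ 2 := by positivity
  have t7 : 1 / (4 * κ) * (G * G) ≤ 1 / (4 * κ) * E ^ 2 := by
    refine mul_le_mul_of_nonneg_left ?_ (by positivity)
    calc G * G = G ^ 2 := by ring
      _ ≤ _ := hGE2
  have t8 : C₃ * G ≤ C₃ * E ^ 2 := mul_le_mul_of_nonneg_left hGE3 h3
  have f1 : (-2 * u + 4 * (N * K) * u ^ 2 - 4 * N ^ 2 * u ^ 2) =
      (-2 * u + 2 * (N * (2 * K)) * u ^ 2 - 4 * N ^ 2 * u ^ 2) := by ring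
  have f2 : (8 * K ^ 2 + 8 * (N * K') - 32 * (N * K) + 16 * N ^ 2) =
      (2 * (2 * K) ^ 2 + 2 * (N * (4 * K')) - 16 * (N * (2 * K)) + 16 * N ^ 2) := by ring
  rw [f1, f2]
  generalize (-2 * u + 2 * (N * (2 * K)) * u ^ 2 - 4 * N ^ 2 * u ^ 2) = B at t3 ⊢
  generalize (4 * u + (2 * (2 * K) ^ 2 + 2 * (N * (4 * K')) - 16 * (N * (2 * K)) +
    16 * N ^ 2) * u ^ 2) = BB at t4 ⊢
  have c1 : 3 * (G * (4 * (E * P1) ^ 2 * s + 1 / 4 * V ^ 2)) ≤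
      3 / 2 * ((8 + 20 * CΦ ^ 2) * E ^ 2) := by
    have e : 2 * (G * (1 / 4 * (0 : ℝ) ^ 2 + 2 * (E * P1 * 0 * 0) + 4 * (E * P1) ^ 2 * s +
        1 / 4 * V ^ 2)) = 2 * (G * (4 * (E * P1) ^ 2 * s + 1 / 4 * V ^ 2)) := by ring
    rw [e] at a1
    linarith
  have c2 : 1 / 2 * (8 * G ^ 3 * s - 2 * n * G ^ 2 + 1 / 4 * (2 * G ^ 3 * B ^ 2 - G ^ 2 * BB)) ≤
      4 * G ^ 2 + 8 * G + C₃ * G := by linarith
  have c3 : 1 / 2 * (G * (4 * G ^ 2 * s + 1 / 4 * G ^ 2 * B ^ 2)) ≤ 2 * G ^ 2 + 2 * G := by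
    have e : 1 / 2 * (G * (4 * G ^ 2 * s + 1 / 4 * G ^ 2 * B ^ 2)) =
        2 * (G ^ 3 * s) + 1 / 4 * (1 / 4 * (2 * G ^ 3 * B ^ 2)) := by ring
    rw [e]
    linarith
  have c4 : (1 + CΦ * (2 * n + 5)) * E ^ 2 = E ^ 2 + CΦ * (2 * n + 5) * E ^ 2 := by ring
  rw [c4] at a2
  linarith

/-- **The margin.** -/
theorem mg_ge (h : A.Rg C₃ CΦ z) :
    (A.N : VV n → ℝ) z * (A.N : VV n → ℝ) z * (A.g : VV n → ℝ) z ≤
      (mg (bv n) A.W A.g A.νf : VV n → ℝ) z - 1 / 2 * ((A.g : VV n → ℝ) z *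
        ((∑ i, A.νf i * A.νf i : Sm (VV n)) : VV n → ℝ) z) := by
  rw [mg_eq, sum_ν]
  obtain ⟨G, u, E, s, N, K, K', P0, P1, P2, V, e1, e2, e3, e4, e5, e6, e7, e8, e9, e10,
    e11, hG, hu, hE, huE, hGh, hs, hs1, hN, hK, hKN, hKE, hKc, hP0, hP0', hP1, hP2, hV⟩ := vals h
  have hB : A.B z ≤ 0 := by
    unfold B
    rw [e2, e5, e6]
    have h1 : 0 ≤ N * (N - K) * u ^ 2 :=
      mul_nonneg (mul_nonneg hN (by linarith)) (sq_nonneg _)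
    have e : -2 * u + 4 * (N * K) * u ^ 2 - 4 * N ^ 2 * u ^ 2 =
        -2 * u - 4 * (N * (N - K) * u ^ 2) := by ring
    rw [e]
    linarith
  rw [e1, e3, e5, e6, e8, e11]
  have hEP : 0 ≤ E * P0 := mul_nonneg (by linarith) hP0
  have hV0 : 0 ≤ V := by rw [hV]; linarith
  have hVN : 2 * N ≤ V := by rw [hV]; linarith
  have h1 : 0 ≤ -(G ^ 2 * A.B z * V) := by
    have : 0 ≤ G ^ 2 * (-A.B z) * V := mul_nonneg (mul_nonneg (sq_nonneg _) (by linarith)) hV0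
    linarith
  have h2 : 0 ≤ 4 * G * (K + E * P0) := by positivity
  have h3 : 4 * (N * N) ≤ V ^ 2 := by
    have := mul_le_mul hVN hVN (by positivity) hV0
    have e : 2 * N * (2 * N) = 4 * (N * N) := by ring
    have e' : V * V = V ^ 2 := by ring
    linarith
  have h4 := mul_le_mul_of_nonneg_left h3 hG.le
  have h5 : 0 ≤ G * (N * N) := by positivity
  have e4' : N * N * G = G * (N * N) := by ring
  have e5' : G * (4 * (N * N)) = 4 * (G * (N * N)) := by ring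
  rw [e4']
  linarith

theorem g_le (A : Du n) (z : VV n) : (A.g : VV n → ℝ) z ≤ (A.En : VV n → ℝ) z := by
  rw [A.g_apply, A.h_apply]
  have h1 := Ei_En A z
  have h2 := Ee_pos A.e (-1) z
  have h3 := qq_nonneg z
  have h4 := mul_self_nonneg ((A.N : VV n → ℝ) z)
  have h5 : (Ee A.e (-1) z)⁻¹ = Ee A.e 1 z := inv_eq_of_mul_eq_one_right h1
  have h6 : (Ee A.e (-1) z + qq z + (A.N : VV n → ℝ) z * (A.N : VV n → ℝ) z *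
      (Ee A.e (-1) z * Ee A.e (-1) z))⁻¹ ≤ (Ee A.e (-1) z)⁻¹ := by
    refine inv_anti₀ h2 ?_
    have : 0 ≤ (A.N : VV n → ℝ) z * (A.N : VV n → ℝ) z * (Ee A.e (-1) z * Ee A.e (-1) z) :=
      mul_nonneg h4 (mul_self_nonneg _)
    linarith
  rw [h5] at h6
  exact h6

end Du

end Vale.Agent.P088.R2.H321.C
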