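import Vale.Agent.P088.R2.H321.C.AW2
import Vale.Agent.P088.R2.H205.C.Spec

/-!
# Zone C: row (AW)
-/

open MeasureTheory Finset
open scoped ContDiff

set_option linter.unusedSectionVars false

noncomputable section

namespace Vale.Agent.P088.R2.H321.C

open Vale.Agent.P088.R2.H464.EP
open Vale.Agent.P088.LR Vale.Agent.P088.HY Vale.Agent.P088.R2.H644
open Vale.Agent.P088.R2.H961.GW (Te In)
open Vale.Agent.P088.R2.H205.C
open Vale.Agent.P088.R2.H644.Ch (fx fy haar_VV)

variable {n : ℕ}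

/-- The direction of `x_i`. -/
def ex (n : ℕ) (i : Fin n) : VV n := (Pi.single i 1, 0)

/-- The direction of `y_i`. -/
def ey (n : ℕ) (i : Fin n) : VV n := (0, Pi.single i 1)

theorem av_eq (i : Fin n) : av n i = (1 / 2 : ℝ) • ex n i - (1 / 2 : ℝ) • ey n i := by
  refine Prod.ext ?_ ?_
  · simp only [av, ex, ey, Prod.fst_sub, Prod.smul_fst, smul_zero, sub_zero]
    rw [← Pi.single_smul, smul_eq_mul, mul_one]
  · simp only [av, ex, ey, Prod.snd_sub, Prod.smul_snd, smul_zero, zero_sub]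
    rw [← Pi.single_smul, smul_eq_mul, mul_one, ← Pi.single_neg]

theorem bv_eq (i : Fin n) : bv n i = ex n i + ey n i := by
  refine Prod.ext ?_ ?_ <;> simp [bv, ex, ey]

/-- A test function from a `Te`. -/
def toTE {f : VV n → ℝ} (h : Te Set.univ f) : TE (VV n) := ⟨f, h.1, h.2.1⟩

/-- Linear combinations of the dressed derivatives. -/
theorem Dp_av (W : Sm (VV n)) (i : Fin n) :
    Dp W (av n i) = (1 / 2 : ℝ) • (Dp W (ex n i) - Dp W (ey n i)) := by
  have h1 : dv (av n i) = (1 / 2 : ℝ) • dv (ex n i) - (1 / 2 : ℝ) • dv (ey n i) := by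
    rw [av_eq, dv_sub, dv_smul, dv_smul]
  have h2 : ds (av n i) W = (1 / 2 : ℝ) • ds (ex n i) W - (1 / 2 : ℝ) • ds (ey n i) W := by
    have e : av n i + (1 / 2 : ℝ) • ey n i = (1 / 2 : ℝ) • ex n i := by rw [av_eq]; abel
    have h := congrArg (fun v => ds v W) e
    simp only [ds_add, ds_smul, LinearMap.add_apply, LinearMap.smul_apply] at h
    exact eq_sub_of_add_eq h
  unfold Dp
  rw [h1, h2, map_sub, map_smul, map_smul, smul_sub, smul_add, smul_add]
  abel

theorem Dp_bv (W : Sm (VV n)) (i : Fin n) :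
    Dp W (bv n i) = Dp W (ex n i) + Dp W (ey n i) := by
  unfold Dp
  rw [bv_eq, dv_add, ds_add, LinearMap.add_apply, map_add]
  abel

theorem Dm_av (W : Sm (VV n)) (i : Fin n) :
    Dm W (av n i) = (1 / 2 : ℝ) • (Dm W (ex n i) - Dm W (ey n i)) := by
  have h1 : dv (av n i) = (1 / 2 : ℝ) • dv (ex n i) - (1 / 2 : ℝ) • dv (ey n i) := by
    rw [av_eq, dv_sub, dv_smul, dv_smul]
  have h2 : ds (av n i) W = (1 / 2 : ℝ) • ds (ex n i) W - (1 / 2 : ℝ) • ds (ey n i) W := by
    have e : av n i + (1 / 2 : ℝ) • ey n i = (1 / 2 : ℝ) • ex n i := by rw [av_eq]; abel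
    have h := congrArg (fun v => ds v W) e
    simp only [ds_add, ds_smul, LinearMap.add_apply, LinearMap.smul_apply] at h
    exact eq_sub_of_add_eq h
  unfold Dm
  rw [h1, h2, map_sub, map_smul, map_smul, smul_sub, smul_add, smul_add, smul_neg, smul_neg]
  abel

theorem Dm_bv (W : Sm (VV n)) (i : Fin n) :
    Dm W (bv n i) = Dm W (ex n i) + Dm W (ey n i) := by
  unfold Dm
  rw [bv_eq, dv_add, ds_add, LinearMap.add_apply, map_add]
  abel

/-- `S = (P_x + P_y) / 2`. -/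
theorem Sop_eq (W : Sm (VV n)) : Sop (av n) (bv n) W =
    (1 / 2 : ℝ) • ∑ i, (Dp W (ex n i) * Dp W (ex n i) + Dp W (ey n i) * Dp W (ey n i)) := by
  unfold Sop
  rw [smul_sum]
  refine sum_congr rfl fun i _ => ?_
  rw [Dp_av, Dp_bv]
  generalize Dp W (ex n i) = X
  generalize Dp W (ey n i) = Y
  simp only [smul_mul_assoc, mul_smul_comm, smul_smul, mul_sub, sub_mul, mul_add, add_mul,
    smul_sub, smul_add]
  norm_num
  module

/-- The value of the square of a dressed derivative. -/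
theorem Dp_sq_apply (W : Sm (VV n)) (v : VV n) (f : TE (VV n)) (z : VV n) :
    ((Dp W v * Dp W v) f).fn z = dd v (dd v f.fn) z + (dd v (W : VV n → ℝ) z * dd v f.fn z +
      dd v (dd v (W : VV n → ℝ)) z * f.fn z) + dd v (W : VV n → ℝ) z *
        (dd v f.fn z + dd v (W : VV n → ℝ) z * f.fn z) := by
  rw [Module.End.mul_apply, Dp_apply, Dp_apply, map_add, dv_ml_apply]
  rfl

/-- `P_x` as a sum of squares. -/
theorem Px_eq (W : Sm (VV n)) (f : TE (VV n)) (z : VV n) :
    (fx n).P (fun _ => 0) (W : VV n → ℝ) f.fn z =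
      ∑ i, ((Dp W (ex n i) * Dp W (ex n i)) f).fn z := by
  simp only [Dp_sq_apply, ← dx_eq, ex]
  unfold H961.GW.Sl.P H961.GW.Sl.K H961.GW.Sl.F
  simp only [Ch.fx_Γ, Ch.fx_Λ, mul_sum, sum_mul, ← sum_add_distrib]
  rw [zero_mul, add_zero]
  simp only [← sum_add_distrib]
  refine sum_congr rfl fun i _ => ?_
  ring

theorem Py_eq (W : Sm (VV n)) (f : TE (VV n)) (z : VV n) :
    (fy n).P (fun _ => 0) (W : VV n → ℝ) f.fn z =
      ∑ i, ((Dp W (ey n i) * Dp W (ey n i)) f).fn z := by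
  simp only [Dp_sq_apply, ← dy_eq, ey]
  unfold H961.GW.Sl.P H961.GW.Sl.K H961.GW.Sl.F
  simp only [Ch.fy_Γ, Ch.fy_Λ, mul_sum, sum_mul, ← sum_add_distrib]
  rw [zero_mul, add_zero]
  simp only [← sum_add_distrib]
  refine sum_congr rfl fun i _ => ?_
  ring

end Vale.Agent.P088.R2.H321.C
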