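import Vale.Agent.P088.R2.H321.C.AW3

/-!
# Zone C: row (AW), the integrals
-/

open MeasureTheory Finset
open scoped ContDiff

set_option linter.unusedSectionVars false

noncomputable section

namespace Vale.Agent.P088.R2.H321.C

open Vale.Agent.P088.R2.H464.EP
open Vale.Agent.P088.LR Vale.Agent.P088.HY Vale.Agent.P088.R2.H644
open Vale.Agent.P088.R2.H961.GW (Te In)
open Vale.Agent.P088.R2.H205.C
open Vale.Agent.P088.R2.H644.Ch (fx fy haar_VV)

variable {n : ℕ}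

theorem sum_fn {E : Type} [NormedAddCommGroup E] [NormedSpace ℝ E] {ι : Type} (s : Finset ι)
    (u : ι → TE E) (z : E) : (∑ i ∈ s, u i).fn z = ∑ i ∈ s, (u i).fn z := by
  classical
  induction s using Finset.induction_on with
  | empty => simp
  | insert a s ha ih => rw [sum_insert ha, sum_insert ha, TE.add_fn, ih]

/-- `P_x` and `P_y` as operators. -/
def Tx (W : Sm (VV n)) : Op (VV n) := ∑ i, Dp W (ex n i) * Dp W (ex n i)

def Ty (W : Sm (VV n)) : Op (VV n) := ∑ i, Dp W (ey n i) * Dp W (ey n i)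

theorem Tx_fn (W : Sm (VV n)) (f : TE (VV n)) (z : VV n) :
    (Tx W f).fn z = (fx n).P (fun _ => 0) (W : VV n → ℝ) f.fn z := by
  rw [Px_eq, Tx, LinearMap.sum_apply, sum_fn]

theorem Ty_fn (W : Sm (VV n)) (f : TE (VV n)) (z : VV n) :
    (Ty W f).fn z = (fy n).P (fun _ => 0) (W : VV n → ℝ) f.fn z := by
  rw [Py_eq, Ty, LinearMap.sum_apply, sum_fn]

theorem Sop_T (W : Sm (VV n)) : Sop (av n) (bv n) W = (1 / 2 : ℝ) • (Tx W + Ty W) := by
  rw [Sop_eq, sum_add_distrib]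
  rfl

variable (F G : TE (VV n))

/-- `b` and `c`. -/
def hB : TE (VV n) := (1 / 2 : ℝ) • (F + G)

def hC : TE (VV n) := (1 / 2 : ℝ) • (F - G)

theorem hB_fn (z : VV n) : (hB F G).fn z = hb F.fn G.fn z := by
  change 1 / 2 * (F.fn z + G.fn z) = (F.fn z + G.fn z) / 2
  ring

theorem hC_fn (z : VV n) : (hC F G).fn z = hd F.fn G.fn z := by
  change 1 / 2 * (F.fn z - G.fn z) = (F.fn z - G.fn z) / 2
  ring

theorem Y_eq (W : Sm (VV n)) (i : Fin n) : Y (av n) (bv n) W (hB F G) (hC F G) i =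
    Dm W (ex n i) F - Dm W (ey n i) G := by
  unfold Y hB hC
  rw [Dm_av, Dm_bv]
  simp only [LinearMap.smul_apply, LinearMap.sub_apply, LinearMap.add_apply, map_smul, map_add,
    map_sub]
  module

theorem Y_fn (W : Sm (VV n)) (i : Fin n) (z : VV n) :
    (Y (av n) (bv n) W (hB F G) (hC F G) i).fn z = Yv (W : VV n → ℝ) F.fn G.fn z i := by
  rw [Y_eq]
  change (-dd (ex n i) F.fn z + dd (ex n i) (W : VV n → ℝ) z * F.fn z) -
    (-dd (ey n i) G.fn z + dd (ey n i) (W : VV n → ℝ) z * G.fn z) =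
    (F.fn z * dx i (W : VV n → ℝ) z - dx i F.fn z) -
      (G.fn z * dy i (W : VV n → ℝ) z - dy i G.fn z)
  rw [dx_eq, dy_eq, dx_eq, dy_eq]
  unfold ex ey
  ring

/-- The gradient sums of the cut-off. -/
def gqS (χ : Sm (VV n)) : Sm (VV n) := ∑ i, ds (av n i) χ * ds (av n i) χ

def gpS (χ : Sm (VV n)) : Sm (VV n) := ∑ i, ds (bv n i) χ * ds (bv n i) χ

theorem dq_eq (χ : Sm (VV n)) (i : Fin n) (z : VV n) :
    (ds (av n i) χ : VV n → ℝ) z = dq i (χ : VV n → ℝ) z := by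
  change fderiv ℝ (χ : VV n → ℝ) z (av n i) =
    (fderiv ℝ (χ : VV n → ℝ) z (ex n i) - fderiv ℝ (χ : VV n → ℝ) z (ey n i)) / 2
  rw [av_eq, map_sub, map_smul, map_smul, smul_eq_mul, smul_eq_mul]
  ring

theorem dp_eq (χ : Sm (VV n)) (i : Fin n) (z : VV n) :
    (ds (bv n i) χ : VV n → ℝ) z = dp i (χ : VV n → ℝ) z := by
  change fderiv ℝ (χ : VV n → ℝ) z (bv n i) =
    fderiv ℝ (χ : VV n → ℝ) z (ex n i) + fderiv ℝ (χ : VV n → ℝ) z (ey n i)
  rw [bv_eq, map_add]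

theorem gqS_apply (χ : Sm (VV n)) (z : VV n) :
    (gqS χ : VV n → ℝ) z = gq (χ : VV n → ℝ) z := by
  unfold gqS gq
  rw [sum_app]
  refine sum_congr rfl fun i _ => ?_
  change (ds (av n i) χ : VV n → ℝ) z * (ds (av n i) χ : VV n → ℝ) z = _
  rw [dq_eq]
  ring

theorem gpS_apply (χ : Sm (VV n)) (z : VV n) :
    (gpS χ : VV n → ℝ) z = gp (χ : VV n → ℝ) z := by
  unfold gpS gp
  rw [sum_app]
  refine sum_congr rfl fun i _ => ?_
  change (ds (bv n i) χ : VV n → ℝ) z * (ds (bv n i) χ : VV n → ℝ) z = _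
  rw [dp_eq]
  ring

theorem gq_nonneg (χ : VV n → ℝ) (z : VV n) : 0 ≤ gq χ z := sum_nonneg fun _ _ => sq_nonneg _

theorem gp_nonneg (χ : VV n → ℝ) (z : VV n) : 0 ≤ gp χ z := sum_nonneg fun _ _ => sq_nonneg _

theorem gw_chi (χ : Sm (VV n)) (z : VV n) : (gw (av n) (bv n) χ : VV n → ℝ) z ≤
    gq (χ : VV n → ℝ) z + gp (χ : VV n → ℝ) z := by
  have e : (gw (av n) (bv n) χ : VV n → ℝ) z =
      (gqS χ : VV n → ℝ) z + 1 / 4 * (gpS χ : VV n → ℝ) z := by
    unfold gw gqS gpS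
    rw [sum_app, sum_app, sum_app, mul_sum, ← sum_add_distrib]
    rfl
  rw [e, gqS_apply, gpS_apply]
  have := gp_nonneg (χ : VV n → ℝ) z
  linarith

section int

variable (χ W En : Sm (VV n))

/-- Integrability of a weighted product. -/
theorem int_w (H : Sm (VV n)) (u v : TE (VV n)) :
    Integrable (fun z => (ml H u).fn z * v.fn z) (volume : Measure (VV n)) := by
  have := haar_VV (n := n)
  exact integrable_mul volume (ml H u) v

theorem I2_eq :
    have := haar_VV (n := n)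
    ∫ z, (χ : VV n → ℝ) z ^ 2 * ((En : VV n → ℝ) z * s2 (Yv (W : VV n → ℝ) F.fn G.fn z) +
      (En : VV n → ℝ) z ^ 2 * hb F.fn G.fn z ^ 2) =
    ∑ i, ip (volume : Measure (VV n)) (ml (χ * χ * En) (Y (av n) (bv n) W (hB F G) (hC F G) i))
      (Y (av n) (bv n) W (hB F G) (hC F G) i) +
    ip (volume : Measure (VV n)) (ml (χ * χ * (En * En)) (hB F G)) (hB F G) := by
  have := haar_VV (n := n)
  simp only [ip_apply]
  rw [← integral_finset_sum _ fun i _ => int_w (χ * χ * En) _ _,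
    ← integral_add (integrable_finset_sum _ fun i _ => int_w (χ * χ * En) _ _)
      (int_w (χ * χ * (En * En)) _ _)]
  refine integral_congr_ae (Filter.Eventually.of_forall fun z => ?_)
  change (χ : VV n → ℝ) z ^ 2 * ((En : VV n → ℝ) z * s2 (Yv (W : VV n → ℝ) F.fn G.fn z) +
      (En : VV n → ℝ) z ^ 2 * hb F.fn G.fn z ^ 2) =
    ∑ i, (χ : VV n → ℝ) z * (χ : VV n → ℝ) z * (En : VV n → ℝ) z *
      (Y (av n) (bv n) W (hB F G) (hC F G) i).fn z *
      (Y (av n) (bv n) W (hB F G) (hC F G) i).fn z +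
    (χ : VV n → ℝ) z * (χ : VV n → ℝ) z * ((En : VV n → ℝ) z * (En : VV n → ℝ) z) *
      (hB F G).fn z * (hB F G).fn z
  simp only [Y_fn, hB_fn]
  unfold s2
  rw [mul_add, mul_sum, mul_sum]
  congr 1
  · exact sum_congr rfl fun i _ => by ring
  · ring

theorem I3_eq :
    have := haar_VV (n := n)
    ∫ z, (χ : VV n → ℝ) z ^ 2 * sq4 (W : VV n → ℝ) F.fn G.fn z =
    ip (volume : Measure (VV n)) (ml (χ * χ) (Tx W F)) (Tx W F) +
    ip (volume : Measure (VV n)) (ml (χ * χ) (Ty W G)) (Ty W G) +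
    ip (volume : Measure (VV n)) (ml (χ * χ) (Ty W F)) (Ty W F) +
    ip (volume : Measure (VV n)) (ml (χ * χ) (Tx W G)) (Tx W G) := by
  have := haar_VV (n := n)
  simp only [ip_apply]
  have i1 := int_w (χ * χ) (Tx W F) (Tx W F)
  have i2 := int_w (χ * χ) (Ty W G) (Ty W G)
  have i3 := int_w (χ * χ) (Ty W F) (Ty W F)
  have i4 := int_w (χ * χ) (Tx W G) (Tx W G)
  have i12 : Integrable (fun z => (ml (χ * χ) (Tx W F)).fn z * (Tx W F).fn z +
    (ml (χ * χ) (Ty W G)).fn z * (Ty W G).fn z) (volume : Measure (VV n)) := i1.add i2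
  have i123 : Integrable (fun z => (ml (χ * χ) (Tx W F)).fn z * (Tx W F).fn z +
    (ml (χ * χ) (Ty W G)).fn z * (Ty W G).fn z +
    (ml (χ * χ) (Ty W F)).fn z * (Ty W F).fn z) (volume : Measure (VV n)) := i12.add i3
  rw [← integral_add i1 i2, ← integral_add i12 i3, ← integral_add i123 i4]
  refine integral_congr_ae (Filter.Eventually.of_forall fun z => ?_)
  change (χ : VV n → ℝ) z ^ 2 * sq4 (W : VV n → ℝ) F.fn G.fn z =
      (χ : VV n → ℝ) z * (χ : VV n → ℝ) z * (Tx W F).fn z * (Tx W F).fn z +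
      (χ : VV n → ℝ) z * (χ : VV n → ℝ) z * (Ty W G).fn z * (Ty W G).fn z +
      (χ : VV n → ℝ) z * (χ : VV n → ℝ) z * (Ty W F).fn z * (Ty W F).fn z +
      (χ : VV n → ℝ) z * (χ : VV n → ℝ) z * (Tx W G).fn z * (Tx W G).fn z
  simp only [Tx_fn, Ty_fn]
  unfold sq4
  ring

theorem I4_eq :
    have := haar_VV (n := n)
    ∫ z, (En : VV n → ℝ) z * ((gq (χ : VV n → ℝ) z + gp (χ : VV n → ℝ) z) *
      hb F.fn G.fn z ^ 2 + gp (χ : VV n → ℝ) z * hd F.fn G.fn z ^ 2) =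
    ip (volume : Measure (VV n)) (ml (En * (gqS χ + gpS χ)) (hB F G)) (hB F G) +
    ip (volume : Measure (VV n)) (ml (En * gpS χ) (hC F G)) (hC F G) := by
  have := haar_VV (n := n)
  simp only [ip_apply]
  rw [← integral_add (int_w (En * (gqS χ + gpS χ)) _ _) (int_w (En * gpS χ) _ _)]
  refine integral_congr_ae (Filter.Eventually.of_forall fun z => ?_)
  change (En : VV n → ℝ) z * ((gq (χ : VV n → ℝ) z + gp (χ : VV n → ℝ) z) *
      hb F.fn G.fn z ^ 2 + gp (χ : VV n → ℝ) z * hd F.fn G.fn z ^ 2) =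
    (En : VV n → ℝ) z * ((gqS χ : VV n → ℝ) z + (gpS χ : VV n → ℝ) z) *
      (hB F G).fn z * (hB F G).fn z +
    (En : VV n → ℝ) z * (gpS χ : VV n → ℝ) z * (hC F G).fn z * (hC F G).fn z
  rw [gqS_apply, gpS_apply, hB_fn, hC_fn]
  ring

end int

/-- Four squares. -/
theorem four_sq {μ : Measure (VV n)} [IsFiniteMeasureOnCompacts μ] {θ : Sm (VV n)}
    (hθ : ∀ z, 0 ≤ (θ : VV n → ℝ) z) (p q r s : TE (VV n)) :
    ip μ (ml θ (p + q + (r + s))) (p + q + (r + s)) ≤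
      4 * (ip μ (ml θ p) p + ip μ (ml θ q) q + ip μ (ml θ r) r + ip μ (ml θ s) s) := by
  have h1 := ip_ml_nonneg μ hθ (p - q)
  have h2 := ip_ml_nonneg μ hθ (p - r)
  have h3 := ip_ml_nonneg μ hθ (p - s)
  have h4 := ip_ml_nonneg μ hθ (q - r)
  have h5 := ip_ml_nonneg μ hθ (q - s)
  have h6 := ip_ml_nonneg μ hθ (r - s)
  simp only [map_add, map_sub, LinearMap.add_apply, LinearMap.sub_apply] at h1 h2 h3 h4 h5 h6 ⊢
  linarith

/-- `∫ χ² |S b|² ≤ (1/4) ∫ χ² sq4`. -/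
theorem Sop_le (χ W : Sm (VV n)) :
    have := haar_VV (n := n)
    ip (volume : Measure (VV n)) (ml (χ * χ) (Sop (av n) (bv n) W (hB F G)))
      (Sop (av n) (bv n) W (hB F G)) ≤
    1 / 4 * ∫ z, (χ : VV n → ℝ) z ^ 2 * sq4 (W : VV n → ℝ) F.fn G.fn z := by
  have := haar_VV (n := n)
  have hχ : ∀ z, 0 ≤ ((χ * χ : Sm (VV n)) : VV n → ℝ) z := fun z => mul_self_nonneg _
  have e : Sop (av n) (bv n) W (hB F G) = (1 / 4 : ℝ) • (Tx W F + Ty W G + (Ty W F + Tx W G)) := by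
    rw [Sop_T]
    unfold hB
    simp only [LinearMap.smul_apply, LinearMap.add_apply, map_smul, map_add]
    module
  rw [e, I3_eq]
  have h := four_sq (μ := (volume : Measure (VV n))) hχ (Tx W F) (Ty W G) (Ty W F) (Tx W G)
  rw [map_smul (ml (χ * χ)), map_smul, map_smul, LinearMap.smul_apply, smul_eq_mul, smul_eq_mul]
  linarith

end Vale.Agent.P088.R2.H321.C
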