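import Vale.Agent.P088.R2.H321.C.AW3
import Vale.Agent.P088.R2.H205.C.SpecI

/-!
# Zone C: row (CM), the margin of `c` along one direction field
-/

open MeasureTheory Finset
open scoped ContDiff

set_option linter.unusedSectionVars false

noncomputable section

namespace Vale.Agent.P088.R2.H321.CM

open Vale.Agent.P088.R2.H464.EP
open Vale.Agent.P088.LR Vale.Agent.P088.HY Vale.Agent.P088.R2.H644
open Vale.Agent.P088.R2.H961.GW (Te)
open Vale.Agent.P088.R2.H205.CP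
open Vale.Agent.P088.R2.H644.Ch (haar_VV)
open Vale.Agent.P088.R2.H321.C (ip_h bv ex ey bv_eq)

variable {n : ℕ}

/-- A test function from a `Te`. -/
def toTE {f : VV n → ℝ} (h : Te Set.univ f) : TE (VV n) := ⟨f, h.1, h.2.1⟩

theorem sum_app {ι : Type} (s : Finset ι) (f : ι → Sm (VV n)) (z : VV n) :
    ((∑ i ∈ s, f i : Sm (VV n)) : VV n → ℝ) z = ∑ i ∈ s, (f i : VV n → ℝ) z := by
  rw [AddSubmonoidClass.coe_finsetSum, Finset.sum_apply]

theorem dp_fd (i : Fin n) (f : VV n → ℝ) (z : VV n) : dp i f z = fderiv ℝ f z (bv n i) := by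
  change fderiv ℝ f z (ex n i) + fderiv ℝ f z (ey n i) = _
  rw [bv_eq, map_add]

theorem dp_fd' (i : Fin n) (f : VV n → ℝ) (z : VV n) :
    dx i f z + dy i f z = dd (bv n i) f z := dp_fd i f z

/-- Integrability of a weighted product. -/
theorem int_w (H : Sm (VV n)) (u v : TE (VV n)) :
    Integrable (fun z => (H : VV n → ℝ) z * u.fn z * v.fn z) (volume : Measure (VV n)) := by
  have := haar_VV (n := n)
  exact integrable_mul volume (ml H u) v

/-- The pointwise Cauchy-Schwarz step. -/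
theorem cs3 (ν Y U V : V n) (hν : ∑ i, ν i ^ 2 ≤ 1) :
    (∑ i, ν i * (Y i - (U i - V i))) ^ 2 ≤ 3 * (s2 Y + s2 U + s2 V) := by
  have h1 := sum_mul_sq_le_sq_mul_sq univ ν fun i => Y i - (U i - V i)
  have h2 : ∑ i, (Y i - (U i - V i)) ^ 2 ≤ 3 * (s2 Y + s2 U + s2 V) := by
    unfold s2
    rw [← sum_add_distrib, ← sum_add_distrib, mul_sum]
    refine sum_le_sum fun i _ => ?_
    nlinarith [sq_nonneg (Y i + U i), sq_nonneg (Y i - V i), sq_nonneg (U i + V i)]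
  have h3 : 0 ≤ ∑ i, (Y i - (U i - V i)) ^ 2 := sum_nonneg fun i _ => sq_nonneg _
  calc _ ≤ (∑ i, ν i ^ 2) * ∑ i, (Y i - (U i - V i)) ^ 2 := h1
    _ ≤ 1 * ∑ i, (Y i - (U i - V i)) ^ 2 := mul_le_mul_of_nonneg_right hν h3
    _ ≤ _ := by linarith

/-- The numbers at one point. -/
theorem pt {m M c h D L T Q : ℝ} (hm : 0 ≤ m) (hh : 0 ≤ h) (hD : -D ≤ 1 / 2 * (m * M ^ 2) + h)
    (hL : L ^ 2 ≤ 3 * Q) (hT : T = M * c - L) :
    1 / 2 * (m * M ^ 2 * c ^ 2) ≤ 3 * (m * Q) + m * M * c * T + 1 / 2 * (D * c ^ 2) +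
      1 / 2 * (h * c ^ 2) := by
  have h1 : m * M * c * L ≤ 1 / 4 * (m * M ^ 2 * c ^ 2) + m * L ^ 2 := by
    have := mul_nonneg hm (sq_nonneg (1 / 2 * (M * c) - L))
    nlinarith
  have h2 := mul_le_mul_of_nonneg_left hL hm
  have h3 := mul_le_mul_of_nonneg_right hD (sq_nonneg c)
  rw [hT]
  nlinarith

/-- The bound of the divergence. -/
theorem div_bd {m M h a b d : ℝ} (hm : 0 ≤ m) (ha : a ^ 2 ≤ m * h) (hh : 0 ≤ h)
    (hb : |b| ≤ M ^ 2 / 8) (hd : |d| ≤ |M| / 8) :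
    -(a * M + m * b + m * M * d) ≤ 1 / 2 * (m * M ^ 2) + h := by
  have h1 : -(a * M) ≤ 1 / 4 * (m * M ^ 2) + h := by
    have e1 : (a * M) ^ 2 ≤ (1 / 4 * (m * M ^ 2) + h) ^ 2 := by
      have : (a * M) ^ 2 ≤ m * h * M ^ 2 := by
        rw [mul_pow]
        exact mul_le_mul_of_nonneg_right ha (sq_nonneg _)
      nlinarith [sq_nonneg (1 / 4 * (m * M ^ 2) - h)]
    have e2 : 0 ≤ 1 / 4 * (m * M ^ 2) + h := by positivity
    have e3 := abs_le_of_sq_le_sq e1 e2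
    linarith [(abs_le.1 (abs_le_of_sq_le_sq e1 e2)).1]
  have h2 : -(m * b) ≤ m * (M ^ 2 / 8) := by
    have := mul_le_mul_of_nonneg_left (neg_le_of_abs_le hb) hm
    linarith
  have h3 : -(m * M * d) ≤ m * (M ^ 2 / 8) := by
    have e1 : |M * d| ≤ M ^ 2 / 8 := by
      rw [abs_mul]
      calc |M| * |d| ≤ |M| * (|M| / 8) := mul_le_mul_of_nonneg_left hd (abs_nonneg _)
        _ = M ^ 2 / 8 := by rw [← sq_abs M]; ring
    have := mul_le_mul_of_nonneg_left (neg_le_of_abs_le e1) hm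
    linarith
  linarith


/-- `M = ν·W_p` -/
def MS (ν : Fin n → Sm (VV n)) (W : Sm (VV n)) : Sm (VV n) := ∑ i, ν i * ds (bv n i) W

/-- `div_p (m M ν)` -/
def DS (ν : Fin n → Sm (VV n)) (W m : Sm (VV n)) : Sm (VV n) :=
  ∑ i, ds (bv n i) (m * MS ν W * ν i)

/-- `½ (F - G)` -/
def CT (F G : TE (VV n)) : TE (VV n) := (1 / 2 : ℝ) • (F - G)

/-- `½ (F + G)` -/
def BT (F G : TE (VV n)) : TE (VV n) := (1 / 2 : ℝ) • (F + G)

/-- `∂_ν C` -/
def TF (ν : Fin n → Sm (VV n)) (C : TE (VV n)) (z : VV n) : ℝ :=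
  ∑ i, (ν i : VV n → ℝ) z * fderiv ℝ C.fn z (bv n i)

theorem MS_apply (ν : Fin n → Sm (VV n)) (W : Sm (VV n)) (z : VV n) :
    (MS ν W : VV n → ℝ) z = ∑ i, (ν i : VV n → ℝ) z * dp i (W : VV n → ℝ) z := by
  rw [MS, sum_app]
  refine sum_congr rfl fun i _ => ?_
  change (ν i : VV n → ℝ) z * fderiv ℝ (W : VV n → ℝ) z (bv n i) = _
  rw [dp_fd]

theorem key (ν : Fin n → Sm (VV n)) (W m : Sm (VV n)) (C : TE (VV n)) (i : Fin n) :
    ∫ z, (m : VV n → ℝ) z * (MS ν W : VV n → ℝ) z * (ν i : VV n → ℝ) z * C.fn z *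
      fderiv ℝ C.fn z (bv n i) =
      -(1 / 2) * ∫ z, (ds (bv n i) (m * MS ν W * ν i) : VV n → ℝ) z * C.fn z * C.fn z := by
  have := haar_VV (n := n)
  have h1 := ip_h (volume : Measure (VV n)) (bv n i) (m * MS ν W * ν i) C
  rw [ip_apply, ip_apply] at h1
  exact h1

theorem eB (ν : Fin n → Sm (VV n)) (W m : Sm (VV n)) (C : TE (VV n)) (z : VV n) :
    (m : VV n → ℝ) z * (MS ν W : VV n → ℝ) z * C.fn z * TF ν C z =
      ∑ i, (m : VV n → ℝ) z * (MS ν W : VV n → ℝ) z * (ν i : VV n → ℝ) z * C.fn z *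
        fderiv ℝ C.fn z (bv n i) := by
  rw [TF, mul_sum]
  exact sum_congr rfl fun i _ => by ring

theorem iBi (ν : Fin n → Sm (VV n)) (W m : Sm (VV n)) (C : TE (VV n)) (i : Fin n) :
    Integrable (fun z => (m : VV n → ℝ) z * (MS ν W : VV n → ℝ) z * (ν i : VV n → ℝ) z *
      C.fn z * fderiv ℝ C.fn z (bv n i)) (volume : Measure (VV n)) :=
  int_w (m * MS ν W * ν i) C (dv (bv n i) C)

theorem iB (ν : Fin n → Sm (VV n)) (W m : Sm (VV n)) (C : TE (VV n)) :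
    Integrable (fun z => (m : VV n → ℝ) z * (MS ν W : VV n → ℝ) z * C.fn z * TF ν C z)
      (volume : Measure (VV n)) :=
  (integrable_finsetSum univ fun i _ => iBi ν W m C i).congr
    (Filter.Eventually.of_forall fun z => (eB ν W m C z).symm)

theorem KEY (ν : Fin n → Sm (VV n)) (W m : Sm (VV n)) (C : TE (VV n)) :
    ∫ z, (m : VV n → ℝ) z * (MS ν W : VV n → ℝ) z * C.fn z * TF ν C z =
      -(1 / 2) * ∫ z, (DS ν W m : VV n → ℝ) z * C.fn z * C.fn z := by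
  have e1 := integral_congr_ae (μ := (volume : Measure (VV n)))
    (Filter.Eventually.of_forall (eB ν W m C))
  have e2 : ∫ z, (DS ν W m : VV n → ℝ) z * C.fn z * C.fn z =
      ∫ z, ∑ i, (ds (bv n i) (m * MS ν W * ν i) : VV n → ℝ) z * C.fn z * C.fn z := by
    refine integral_congr_ae (Filter.Eventually.of_forall fun z => ?_)
    change (DS ν W m : VV n → ℝ) z * C.fn z * C.fn z = _
    rw [DS, sum_app, sum_mul, sum_mul]
  rw [e1, e2, integral_finsetSum univ fun i _ => iBi ν W m C i,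
    integral_finsetSum univ fun i _ => int_w _ C C, mul_sum]
  exact sum_congr rfl fun i _ => key ν W m C i

theorem CT_fn (F G : TE (VV n)) (z : VV n) : (CT F G).fn z = hd F.fn G.fn z := by
  change 1 / 2 * (F.fn z - G.fn z) = (F.fn z - G.fn z) / 2
  ring

theorem BT_fn (F G : TE (VV n)) : (BT F G).fn = hb F.fn G.fn := by
  funext z
  change 1 / 2 * (F.fn z + G.fn z) = (F.fn z + G.fn z) / 2
  ring

theorem dAt (F : TE (VV n)) (z : VV n) : DifferentiableAt ℝ F.fn z :=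
  (F.2.differentiable (by simp)) z

theorem dhd (F G : TE (VV n)) (i : Fin n) (z : VV n) : fderiv ℝ (CT F G).fn z (bv n i) =
    (dx i F.fn z + dy i F.fn z - (dx i G.fn z + dy i G.fn z)) / 2 := by
  have e : (CT F G).fn = fun z => (1 / 2 : ℝ) * (F.fn z - G.fn z) := rfl
  change dd (bv n i) (CT F G).fn z = _
  rw [e, dd_const_mul, dd_sub (dAt F z) (dAt G z), ← dp_fd' , ← dp_fd']
  ring

theorem dbx (F G : TE (VV n)) (i : Fin n) (z : VV n) :
    dx i (hb F.fn G.fn) z = (dx i F.fn z + dx i G.fn z) / 2 := by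
  have e : hb F.fn G.fn = fun z => (1 / 2 : ℝ) * (F.fn z + G.fn z) := by
    funext w
    change (F.fn w + G.fn w) / 2 = _
    ring
  rw [e, dx_eq, dx_eq, dx_eq, dd_const_mul, dd_add (dAt F z) (dAt G z)]
  ring

theorem dby (F G : TE (VV n)) (i : Fin n) (z : VV n) :
    dy i (hb F.fn G.fn) z = (dy i F.fn z + dy i G.fn z) / 2 := by
  have e : hb F.fn G.fn = fun z => (1 / 2 : ℝ) * (F.fn z + G.fn z) := by
    funext w
    change (F.fn w + G.fn w) / 2 = _
    ring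
  rw [e, dy_eq, dy_eq, dy_eq, dd_const_mul, dd_add (dAt F z) (dAt G z)]
  ring

theorem hTL (ν : Fin n → Sm (VV n)) (W : Sm (VV n)) (F G : TE (VV n)) (z : VV n) :
    TF ν (CT F G) z = (MS ν W : VV n → ℝ) z * (CT F G).fn z - ∑ i, (ν i : VV n → ℝ) z *
      ((Uu (W : VV n → ℝ) F.fn z - Uv (W : VV n → ℝ) G.fn z) i -
      (Uu (W : VV n → ℝ) (hb F.fn G.fn) z i - Uv (W : VV n → ℝ) (hb F.fn G.fn) z i)) := by
  rw [MS_apply, TF, sum_mul, ← sum_sub_distrib]
  refine sum_congr rfl fun i _ => ?_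
  rw [dhd, CT_fn]
  change _ = (ν i : VV n → ℝ) z * (dx i (W : VV n → ℝ) z + dy i (W : VV n → ℝ) z) *
      ((F.fn z - G.fn z) / 2) - (ν i : VV n → ℝ) z *
    (((F.fn z * dx i (W : VV n → ℝ) z - dx i F.fn z) -
      (G.fn z * dy i (W : VV n → ℝ) z - dy i G.fn z)) -
      (((F.fn z + G.fn z) / 2 * dx i (W : VV n → ℝ) z - dx i (hb F.fn G.fn) z) -
        ((F.fn z + G.fn z) / 2 * dy i (W : VV n → ℝ) z - dy i (hb F.fn G.fn) z)))
  rw [dbx, dby]
  ring

theorem dM (ν : Fin n → Sm (VV n)) (W : Sm (VV n)) (i : Fin n) (z : VV n) :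
    (ds (bv n i) (MS ν W) : VV n → ℝ) z =
      ∑ j, (dp i (ν j : VV n → ℝ) z * dp j (W : VV n → ℝ) z +
        (ν j : VV n → ℝ) z * dp i (dp j (W : VV n → ℝ)) z) := by
  rw [MS, map_sum, sum_app]
  refine sum_congr rfl fun j _ => ?_
  rw [ds_mul]
  change fderiv ℝ (ν j : VV n → ℝ) z (bv n i) * fderiv ℝ (W : VV n → ℝ) z (bv n j) +
    (ν j : VV n → ℝ) z * fderiv ℝ (fun w => fderiv ℝ (W : VV n → ℝ) w (bv n j)) z (bv n i) = _
  have e : (fun w => fderiv ℝ (W : VV n → ℝ) w (bv n j)) = dp j (W : VV n → ℝ) :=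
    funext fun w => (dp_fd j _ w).symm
  rw [e, dp_fd i, dp_fd j, dp_fd i (dp j (W : VV n → ℝ))]

theorem eD1 (ν : Fin n → Sm (VV n)) (W m : Sm (VV n)) (i : Fin n) (z : VV n) :
    (ds (bv n i) (m * MS ν W * ν i) : VV n → ℝ) z =
      (dp i (m : VV n → ℝ) z * (MS ν W : VV n → ℝ) z + (m : VV n → ℝ) z *
        ∑ j, (dp i (ν j : VV n → ℝ) z * dp j (W : VV n → ℝ) z +
          (ν j : VV n → ℝ) z * dp i (dp j (W : VV n → ℝ)) z)) *
        (ν i : VV n → ℝ) z + (m : VV n → ℝ) z * (MS ν W : VV n → ℝ) z *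
          dp i (ν i : VV n → ℝ) z := by
  rw [ds_mul, ds_mul]
  change (fderiv ℝ (m : VV n → ℝ) z (bv n i) * (MS ν W : VV n → ℝ) z +
    (m : VV n → ℝ) z * (ds (bv n i) (MS ν W) : VV n → ℝ) z) *
    (ν i : VV n → ℝ) z + (m : VV n → ℝ) z * (MS ν W : VV n → ℝ) z *
      fderiv ℝ (ν i : VV n → ℝ) z (bv n i) = _
  rw [dM, dp_fd i (m : VV n → ℝ), dp_fd i (ν i : VV n → ℝ)]

theorem sum_alg (n : ℕ) (dm ν dν : Fin n → ℝ) (A : Fin n → Fin n → ℝ)
    (B : Fin n → Fin n → ℝ) (M m : ℝ) :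
    ∑ i, ((dm i * M + m * ∑ j, (A i j + B i j)) * ν i + m * M * dν i) =
    (∑ i, ν i * dm i) * M + m * ((∑ i, ∑ j, ν i * A i j) + (∑ i, ∑ j, ν i * B i j)) +
      m * M * ∑ i, dν i := by
  rw [← sum_add_distrib, mul_sum, mul_sum, sum_mul, ← sum_add_distrib, ← sum_add_distrib]
  refine sum_congr rfl fun i _ => ?_
  rw [← mul_sum, ← mul_sum, sum_add_distrib]
  ring

theorem eD (ν : Fin n → Sm (VV n)) (W m : Sm (VV n)) (z : VV n) :
    (DS ν W m : VV n → ℝ) z = (∑ i, (ν i : VV n → ℝ) z * dp i (m : VV n → ℝ) z) *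
      (MS ν W : VV n → ℝ) z +
      (m : VV n → ℝ) z * ((∑ i, ∑ j, (ν i : VV n → ℝ) z * (dp i (ν j : VV n → ℝ) z *
        dp j (W : VV n → ℝ) z)) +
        (∑ i, ∑ j, (ν i : VV n → ℝ) z * ((ν j : VV n → ℝ) z * dp i (dp j (W : VV n → ℝ)) z))) +
      (m : VV n → ℝ) z * (MS ν W : VV n → ℝ) z * ∑ i, dp i (ν i : VV n → ℝ) z := by
  rw [DS, sum_app]
  simp only [eD1]
  exact sum_alg n _ _ _ _ _ _ _

theorem Uu_fn (W : Sm (VV n)) (i : Fin n) (F : TE (VV n)) (z : VV n) :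
    (H321.C.Dm W (ex n i) F).fn z = Uu (W : VV n → ℝ) F.fn z i := by
  rw [H321.C.Dm_apply]
  change -fderiv ℝ F.fn z (ex n i) + fderiv ℝ (W : VV n → ℝ) z (ex n i) * F.fn z =
    F.fn z * dx i (W : VV n → ℝ) z - dx i F.fn z
  rw [dx_eq, dx_eq]
  change -fderiv ℝ F.fn z (ex n i) + fderiv ℝ (W : VV n → ℝ) z (ex n i) * F.fn z =
    F.fn z * fderiv ℝ (W : VV n → ℝ) z (ex n i) - fderiv ℝ F.fn z (ex n i)
  ring

theorem Uv_fn (W : Sm (VV n)) (i : Fin n) (F : TE (VV n)) (z : VV n) :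
    (H321.C.Dm W (ey n i) F).fn z = Uv (W : VV n → ℝ) F.fn z i := by
  rw [H321.C.Dm_apply]
  change -fderiv ℝ F.fn z (ey n i) + fderiv ℝ (W : VV n → ℝ) z (ey n i) * F.fn z =
    F.fn z * dy i (W : VV n → ℝ) z - dy i F.fn z
  rw [dy_eq, dy_eq]
  change -fderiv ℝ F.fn z (ey n i) + fderiv ℝ (W : VV n → ℝ) z (ey n i) * F.fn z =
    F.fn z * fderiv ℝ (W : VV n → ℝ) z (ey n i) - fderiv ℝ F.fn z (ey n i)
  ring

/-- The source density. -/
def QS (W : Sm (VV n)) (F G : TE (VV n)) (z : VV n) : ℝ :=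
  s2 (Uu (W : VV n → ℝ) F.fn z - Uv (W : VV n → ℝ) G.fn z) +
    s2 (Uu (W : VV n → ℝ) (hb F.fn G.fn) z) + s2 (Uv (W : VV n → ℝ) (hb F.fn G.fn) z)

theorem QS_eq (W m : Sm (VV n)) (F G : TE (VV n)) (z : VV n) :
    (m : VV n → ℝ) z * QS W F G z = ∑ i, ((m : VV n → ℝ) z *
        (H321.C.Dm W (ex n i) F - H321.C.Dm W (ey n i) G).fn z *
        (H321.C.Dm W (ex n i) F - H321.C.Dm W (ey n i) G).fn z +
      (m : VV n → ℝ) z * (H321.C.Dm W (ex n i) (BT F G)).fn z *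
        (H321.C.Dm W (ex n i) (BT F G)).fn z +
      (m : VV n → ℝ) z * (H321.C.Dm W (ey n i) (BT F G)).fn z *
        (H321.C.Dm W (ey n i) (BT F G)).fn z) := by
  have e : ∀ i, (H321.C.Dm W (ex n i) F - H321.C.Dm W (ey n i) G).fn z =
      Uu (W : VV n → ℝ) F.fn z i - Uv (W : VV n → ℝ) G.fn z i := fun i => by
    rw [← Uu_fn, ← Uv_fn]
    rfl
  simp only [e, Uu_fn, Uv_fn, BT_fn]
  rw [QS, s2, s2, s2, ← sum_add_distrib, ← sum_add_distrib, mul_sum]
  refine sum_congr rfl fun i _ => ?_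
  change (m : VV n → ℝ) z * ((Uu (W : VV n → ℝ) F.fn z i - Uv (W : VV n → ℝ) G.fn z i) ^ 2 +
    Uu (W : VV n → ℝ) (hb F.fn G.fn) z i ^ 2 + Uv (W : VV n → ℝ) (hb F.fn G.fn) z i ^ 2) = _
  ring

theorem iQ (W m : Sm (VV n)) (F G : TE (VV n)) :
    Integrable (fun z => (m : VV n → ℝ) z * QS W F G z) (volume : Measure (VV n)) := by
  have h : ∀ i, Integrable (fun z => (m : VV n → ℝ) z *
        (H321.C.Dm W (ex n i) F - H321.C.Dm W (ey n i) G).fn z *
        (H321.C.Dm W (ex n i) F - H321.C.Dm W (ey n i) G).fn z +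
      (m : VV n → ℝ) z * (H321.C.Dm W (ex n i) (BT F G)).fn z *
        (H321.C.Dm W (ex n i) (BT F G)).fn z +
      (m : VV n → ℝ) z * (H321.C.Dm W (ey n i) (BT F G)).fn z *
        (H321.C.Dm W (ey n i) (BT F G)).fn z) (volume : Measure (VV n)) := fun i => by
    have h1 := int_w m (H321.C.Dm W (ex n i) F - H321.C.Dm W (ey n i) G)
      (H321.C.Dm W (ex n i) F - H321.C.Dm W (ey n i) G)
    have h2 := int_w m (H321.C.Dm W (ex n i) (BT F G)) (H321.C.Dm W (ex n i) (BT F G))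
    have h3 := int_w m (H321.C.Dm W (ey n i) (BT F G)) (H321.C.Dm W (ey n i) (BT F G))
    exact (h1.add h2).add h3
  exact (integrable_finsetSum univ fun i _ => h i).congr
    (Filter.Eventually.of_forall fun z => (QS_eq W m F G z).symm)

theorem int4 {a b c d : VV n → ℝ} (Ia : Integrable a (volume : Measure (VV n)))
    (Ib : Integrable b (volume : Measure (VV n))) (Ic : Integrable c (volume : Measure (VV n)))
    (Id : Integrable d (volume : Measure (VV n))) :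
    Integrable (fun z => 3 * a z + b z + 1 / 2 * c z + 1 / 2 * d z)
      (volume : Measure (VV n)) ∧
    ∫ z, (3 * a z + b z + 1 / 2 * c z + 1 / 2 * d z) =
      3 * (∫ z, a z) + (∫ z, b z) + 1 / 2 * (∫ z, c z) + 1 / 2 * ∫ z, d z := by
  have i1 : Integrable (fun z => 3 * a z + b z) (volume : Measure (VV n)) :=
    (Ia.const_mul 3).add Ib
  have i2 : Integrable (fun z => 3 * a z + b z + 1 / 2 * c z) (volume : Measure (VV n)) :=
    i1.add (Ic.const_mul (1 / 2))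
  refine ⟨i2.add (Id.const_mul (1 / 2)), ?_⟩
  rw [integral_add i2 (Id.const_mul (1 / 2)), integral_add i1 (Ic.const_mul (1 / 2)),
    integral_add (Ia.const_mul 3) Ib, integral_const_mul, integral_const_mul,
    integral_const_mul]

theorem iA (ν : Fin n → Sm (VV n)) (W m : Sm (VV n)) (C : TE (VV n)) :
    Integrable (fun z => (m : VV n → ℝ) z * (MS ν W : VV n → ℝ) z ^ 2 * C.fn z ^ 2)
      (volume : Measure (VV n)) := by
  refine (int_w (m * (MS ν W * MS ν W)) C C).congr (Filter.Eventually.of_forall fun z => ?_)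
  change (m : VV n → ℝ) z * ((MS ν W : VV n → ℝ) z * (MS ν W : VV n → ℝ) z) * C.fn z * C.fn z = _
  ring

theorem iD (H : Sm (VV n)) (C : TE (VV n)) :
    Integrable (fun z => (H : VV n → ℝ) z * C.fn z ^ 2) (volume : Measure (VV n)) := by
  refine (int_w H C C).congr (Filter.Eventually.of_forall fun z => ?_)
  change (H : VV n → ℝ) z * C.fn z * C.fn z = _
  ring

theorem ih {h : VV n → ℝ} (ch : Continuous h) (C : TE (VV n)) :
    Integrable (fun z => h z * C.fn z ^ 2) (volume : Measure (VV n)) := by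
  have := haar_VV (n := n)
  have h1 : Continuous fun z => h z * C.fn z ^ 2 := ch.mul (C.ct.pow 2)
  have h2 : HasCompactSupport fun z => h z * C.fn z ^ 2 := by
    refine HasCompactSupport.intro C.cs fun z hz => ?_
    have h3 : C.fn z = 0 := image_eq_zero_of_notMem_tsupport hz
    rw [h3]
    ring
  exact h1.integrable_of_hasCompactSupport h2

theorem PT (ν : Fin n → Sm (VV n)) (W m : Sm (VV n)) (h : VV n → ℝ) (F G : TE (VV n))
    (m0 : ∀ z, 0 ≤ (m : VV n → ℝ) z) (h0 : ∀ z, 0 ≤ h z)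
    (hν1 : ∀ z ∈ tsupport (m : VV n → ℝ), ∑ i, (ν i : VV n → ℝ) z ^ 2 ≤ 1)
    (hD : ∀ z, -(DS ν W m : VV n → ℝ) z ≤
      1 / 2 * ((m : VV n → ℝ) z * (MS ν W : VV n → ℝ) z ^ 2) + h z) (z : VV n) :
    1 / 2 * ((m : VV n → ℝ) z * (MS ν W : VV n → ℝ) z ^ 2 * (CT F G).fn z ^ 2) ≤
      3 * ((m : VV n → ℝ) z * QS W F G z) +
      (m : VV n → ℝ) z * (MS ν W : VV n → ℝ) z * (CT F G).fn z * TF ν (CT F G) z +
      1 / 2 * ((DS ν W m : VV n → ℝ) z * (CT F G).fn z ^ 2) +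
      1 / 2 * (h z * (CT F G).fn z ^ 2) := by
  by_cases hz : z ∈ tsupport (m : VV n → ℝ)
  · exact pt (m0 z) (h0 z) (hD z) (cs3 (fun i => (ν i : VV n → ℝ) z) _ _ _ (hν1 z hz))
      (hTL ν W F G z)
  · have e1 : (m : VV n → ℝ) z = 0 := image_eq_zero_of_notMem_tsupport hz
    have e2 : ∀ i, dp i (m : VV n → ℝ) z = 0 := by
      intro i
      rw [dp_fd]
      have : (m : VV n → ℝ) =ᶠ[nhds z] fun _ => 0 := by
        filter_upwards [(isClosed_tsupport (m : VV n → ℝ)).isOpen_compl.mem_nhds hz] with w hw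
          using image_eq_zero_of_notMem_tsupport hw
      rw [this.fderiv_eq]
      simp
    have e3 : (DS ν W m : VV n → ℝ) z = 0 := by
      rw [eD]
      simp only [e2, e1]
      simp
    rw [e1, e3]
    have := mul_nonneg (h0 z) (sq_nonneg ((CT F G).fn z))
    simp only [zero_mul, mul_zero, zero_add]
    linarith

theorem FIN (ν : Fin n → Sm (VV n)) (W m : Sm (VV n)) (h : VV n → ℝ) (F G : TE (VV n))
    (ch : Continuous h)
    (m0 : ∀ z, 0 ≤ (m : VV n → ℝ) z) (h0 : ∀ z, 0 ≤ h z)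
    (hν1 : ∀ z ∈ tsupport (m : VV n → ℝ), ∑ i, (ν i : VV n → ℝ) z ^ 2 ≤ 1)
    (hD : ∀ z, -(DS ν W m : VV n → ℝ) z ≤
      1 / 2 * ((m : VV n → ℝ) z * (MS ν W : VV n → ℝ) z ^ 2) + h z) :
    ∫ z, (m : VV n → ℝ) z * (MS ν W : VV n → ℝ) z ^ 2 * (CT F G).fn z ^ 2 ≤
      6 * ∫ z, ((m : VV n → ℝ) z * QS W F G z + h z * (CT F G).fn z ^ 2) := by
  have I1 := iQ W m F G
  have I2 := iB ν W m (CT F G)
  have I3 := iD (DS ν W m) (CT F G)
  have I4 := ih ch (CT F G)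
  have I5 := iA ν W m (CT F G)
  obtain ⟨i4, S⟩ := int4 I1 I2 I3 I4
  have H := integral_mono (I5.const_mul (1 / 2)) i4 (PT ν W m h F G m0 h0 hν1 hD)
  have eD' : ∫ z, (DS ν W m : VV n → ℝ) z * (CT F G).fn z * (CT F G).fn z =
      ∫ z, (DS ν W m : VV n → ℝ) z * (CT F G).fn z ^ 2 := by
    refine integral_congr_ae (Filter.Eventually.of_forall fun z => ?_)
    change (DS ν W m : VV n → ℝ) z * (CT F G).fn z * (CT F G).fn z = _
    ring
  rw [integral_const_mul] at H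
  have H2 := H.trans_eq S
  rw [KEY, eD'] at H2
  have hh : 0 ≤ ∫ z, h z * (CT F G).fn z ^ 2 := integral_nonneg fun z =>
    mul_nonneg (h0 z) (sq_nonneg _)
  rw [integral_add I1 I4]
  linarith

theorem rowCM : RowCM := by
  intro n
  refine ⟨6, by norm_num, ?_⟩
  intro W m h M f g ν sW sm m0 sν hM hν1 hmh ch h0 hdM hdν tf tg
  set WS : Sm (VV n) := ⟨W, sW⟩ with hWS
  set mS : Sm (VV n) := ⟨m, sm⟩ with hmS
  set νS : Fin n → Sm (VV n) := fun i => ⟨ν i, sν i⟩ with hνS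
  have eM : ∀ z, (MS νS WS : VV n → ℝ) z = M z := fun z => by
    rw [MS_apply, hM]
  have hD : ∀ z, -(DS νS WS mS : VV n → ℝ) z ≤
      1 / 2 * ((mS : VV n → ℝ) z * (MS νS WS : VV n → ℝ) z ^ 2) + h z := by
    intro z
    rw [eD, eM]
    by_cases hz : z ∈ tsupport m
    · have h1 := hdM z hz
      simp only [mul_assoc] at h1
      exact div_bd (m0 z) (hmh z) (h0 z) h1 (hdν z hz)
    · have e1 : m z = 0 := image_eq_zero_of_notMem_tsupport hz
      have e2 : ∀ i, dp i m z = 0 := by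
        intro i
        rw [dp_fd]
        have : m =ᶠ[nhds z] fun _ => 0 := by
          filter_upwards [(isClosed_tsupport m).isOpen_compl.mem_nhds hz] with w hw using
            image_eq_zero_of_notMem_tsupport hw
        rw [this.fderiv_eq]
        simp
      change -((∑ i, ν i z * dp i m z) * M z + m z * _ + m z * M z * _) ≤
        1 / 2 * (m z * M z ^ 2) + h z
      simp only [e2, e1]
      have := h0 z
      simp only [mul_zero, zero_mul, sum_const_zero, add_zero, neg_zero]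
      linarith
  have H := FIN νS WS mS h (toTE tf) (toTE tg) ch m0 h0 hν1 hD
  simp only [eM, CT_fn] at H
  exact H

end Vale.Agent.P088.R2.H321.CM
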